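import Vale.Agent.P328.LorZ

/-! P328: a discrete Brascamp-Lieb inequality for laminar weights on paired ports. -/

namespace Vale.Agent.P328
open Finset Vale.Agent.P317

theorem fiber_sq {A K : Type} [Fintype A] [Fintype K] [DecidableEq K] (f : A → K) (k : K → ℝ)
    (x : A → ℝ) :
    ∑ a, ∑ b, (if f a = f b then k (f a) else 0) * x a * x b
      = ∑ κ, k κ * (∑ a ∈ univ.filter (fun a => f a = κ), x a) ^ 2 := by
  rw [← sum_fiberwise (s := univ) (g := f)]
  refine sum_congr rfl fun κ _ => ?_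
  rw [sq, sum_mul_sum, mul_sum]
  refine sum_congr rfl fun a ha => ?_
  have ha' : f a = κ := (mem_filter.1 ha).2
  rw [mul_sum, sum_filter]
  refine sum_congr rfl fun b _ => ?_
  rw [ha']
  by_cases hb : f b = κ
  · rw [if_pos hb.symm, if_pos hb]; ring
  · rw [if_neg (fun h => hb h.symm), if_neg hb]; ring

theorem laminar_form {A K3 K2 K1 : Type} [Fintype A] [DecidableEq A] [Fintype K3] [DecidableEq K3]
    [Fintype K2] [DecidableEq K2] [Fintype K1] [DecidableEq K1]
    (f : A → K3) (g : K3 → K2) (h : K2 → K1) (s3 : K3 → ℝ) (s2 : K2 → ℝ) (s1 : K1 → ℝ)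
    (β : K3 → ℝ) (γ : ℝ) (hγ : 0 ≤ γ) (free : A → Prop) [DecidablePred free]
    (h1 : ∀ k, γ ≤ s1 k) (h1' : ∀ k, s1 k ≤ 1) (h2 : ∀ k, γ ≤ s2 k) (h2' : ∀ k, s2 k ≤ 1)
    (h3 : ∀ k, 0 ≤ s3 k) (hβ : ∀ k, 0 ≤ β k)
    (h3' : ∀ k, ∀ p : ℕ, p = (univ.filter (fun a => f a = k ∧ free a)).card → 1 ≤ p →
      s3 k * ((p : ℝ) - 1) ≤ (1 - β k) * p)
    (x : A → ℝ) (hx : ∀ a, ¬ free a → x a = 0) :
    ∑ a, ∑ b, (if a = b then 0 else (if h (g (f a)) = h (g (f b)) then s1 (h (g (f a))) else 1) *
      (if g (f a) = g (f b) then s2 (g (f a)) else 1) * (if f a = f b then s3 (f a) else 1))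
        * x a * x b
      ≤ (∑ a, x a) ^ 2 - ∑ κ, γ ^ 2 * β κ * (∑ a ∈ univ.filter (fun a => f a = κ), x a) ^ 2 := by
  have e : ∀ a b, (if a = b then 0 else (if h (g (f a)) = h (g (f b)) then s1 (h (g (f a))) else 1) *
      (if g (f a) = g (f b) then s2 (g (f a)) else 1) * (if f a = f b then s3 (f a) else 1))
        * x a * x b
      = x a * x b
        - (if h (g (f a)) = h (g (f b)) then (fun k => 1 - s1 k) (h (g (f a))) else 0) * x a * x b
        - (if g (f a) = g (f b) then (fun k => s1 (h k) * (1 - s2 k)) (g (f a)) else 0) * x a * x b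
        + (if f a = f b then (fun k => s1 (h (g k)) * s2 (g k) * (s3 k - 1)) (f a) else 0)
          * x a * x b
        - (if a = b then s1 (h (g (f a))) * s2 (g (f a)) * s3 (f a) * x a ^ 2 else 0) := by
    intro a b
    by_cases hab : a = b
    · subst hab; simp only [if_true]; ring
    · by_cases k3 : f a = f b
      · simp only [hab, k3, if_true, if_false]; ring
      · by_cases k2 : g (f a) = g (f b)
        · simp only [hab, k3, k2, if_true, if_false]; ring
        · by_cases k1 : h (g (f a)) = h (g (f b))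
          · simp only [hab, k3, k2, k1, if_true, if_false]; ring
          · simp only [hab, k3, k2, k1, if_false]; ring
  simp only [e, sum_add_distrib, sum_sub_distrib]
  rw [fiber_sq (fun a => h (g (f a))) (fun k => 1 - s1 k),
    fiber_sq (fun a => g (f a)) (fun k => s1 (h k) * (1 - s2 k)),
    fiber_sq f (fun k => s1 (h (g k)) * s2 (g k) * (s3 k - 1)), sq (∑ a, x a), sum_mul_sum]
  have e2 : ∑ a, ∑ b, (if a = b then s1 (h (g (f a))) * s2 (g (f a)) * s3 (f a) * x a ^ 2 else 0)
      = ∑ κ, s1 (h (g κ)) * s2 (g κ) * s3 κ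
        * ∑ a ∈ univ.filter (fun a => f a = κ), x a ^ 2 := by
    simp only [sum_ite_eq, mem_univ, if_true]
    rw [← sum_fiberwise (s := univ) (g := f)]
    refine sum_congr rfl fun κ _ => ?_
    rw [mul_sum]
    exact sum_congr rfl fun a ha => by rw [(mem_filter.1 ha).2]
  rw [e2]
  have p1 : 0 ≤ ∑ κ, (1 - s1 κ) * (∑ a ∈ univ.filter (fun a => h (g (f a)) = κ), x a) ^ 2 :=
    sum_nonneg fun κ _ => mul_nonneg (sub_nonneg.2 (h1' κ)) (sq_nonneg _)
  have p2 : 0 ≤ ∑ κ, s1 (h κ) * (1 - s2 κ) * (∑ a ∈ univ.filter (fun a => g (f a) = κ), x a) ^ 2 :=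
    sum_nonneg fun κ _ => mul_nonneg (mul_nonneg (hγ.trans (h1 _)) (sub_nonneg.2 (h2' κ)))
      (sq_nonneg _)
  have p3 : ∑ κ, s1 (h (g κ)) * s2 (g κ) * (s3 κ - 1)
        * (∑ a ∈ univ.filter (fun a => f a = κ), x a) ^ 2
      + ∑ κ, γ ^ 2 * β κ * (∑ a ∈ univ.filter (fun a => f a = κ), x a) ^ 2
      ≤ ∑ κ, s1 (h (g κ)) * s2 (g κ) * s3 κ * ∑ a ∈ univ.filter (fun a => f a = κ), x a ^ 2 := by
    rw [← sum_add_distrib]
    refine sum_le_sum fun κ _ => ?_
    set C := ∑ a ∈ univ.filter (fun a => f a = κ), x a with hC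
    set V := ∑ a ∈ univ.filter (fun a => f a = κ), x a ^ 2 with hV
    set p := (univ.filter (fun a => f a = κ ∧ free a)).card with hp
    have hV0 : 0 ≤ V := sum_nonneg fun a _ => sq_nonneg _
    have hCS : C ^ 2 ≤ p * V := by
      have c1 : C = ∑ a ∈ univ.filter (fun a => f a = κ ∧ free a), x a := by
        rw [hC, ← filter_filter, sum_filter (p := free)]
        refine sum_congr rfl fun a _ => ?_
        split_ifs with ha
        · rfl
        · exact hx a ha
      have c2 : ∑ a ∈ univ.filter (fun a => f a = κ ∧ free a), x a ^ 2 ≤ V :=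
        sum_le_sum_of_subset_of_nonneg (fun a ha => by
          simp only [mem_filter, mem_univ, true_and] at ha ⊢; exact ha.1)
          (fun a _ _ => sq_nonneg _)
      rw [c1]
      exact sq_sum_le_card_mul_sum_sq.trans (mul_le_mul_of_nonneg_left c2 (Nat.cast_nonneg _))
    have key : (s3 κ - 1 + β κ) * C ^ 2 ≤ s3 κ * V := by
      rcases Nat.eq_zero_or_pos p with p0 | p0
      · have : C ^ 2 = 0 := le_antisymm (by simpa [p0] using hCS) (sq_nonneg _)
        rw [this, mul_zero]
        exact mul_nonneg (h3 κ) hV0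
      · have a1 := h3' κ p hp p0
        by_cases hs : s3 κ - 1 + β κ ≤ 0
        · exact (mul_nonpos_of_nonpos_of_nonneg hs (sq_nonneg _)).trans (mul_nonneg (h3 κ) hV0)
        · push Not at hs
          have a2 := mul_le_mul_of_nonneg_left hCS hs.le
          have a3 : (s3 κ - 1 + β κ) * p ≤ s3 κ := by linarith
          have a4 := mul_le_mul_of_nonneg_right a3 hV0
          linarith
    have g0 : γ ^ 2 ≤ s1 (h (g κ)) * s2 (g κ) := by
      rw [sq]; exact mul_le_mul (h1 _) (h2 _) hγ (hγ.trans (h1 _))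
    have g1 : 0 ≤ s1 (h (g κ)) * s2 (g κ) := (sq_nonneg γ).trans g0
    have a5 := mul_le_mul_of_nonneg_left key g1
    have a6 := mul_le_mul_of_nonneg_right g0 (mul_nonneg (hβ κ) (sq_nonneg C))
    nlinarith
  linarith

section counts
variable {A K : Type} [DecidableEq K]

/-- Number of ports of `S` in the fibre of `k`. -/
def cnt (f : A → K) (S : Multiset (Option A)) (k : K) : ℕ :=
  Multiset.count (some k) (S.map (Option.map f))

theorem cnt_none (f : A → K) (S : Multiset (Option A)) : cnt f (none ::ₘ S) = cnt f S := by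
  funext k; simp [cnt]

theorem cnt_some (f : A → K) (S : Multiset (Option A)) (a : A) (k : K) :
    cnt f (some a ::ₘ S) k = cnt f S k + if k = f a then 1 else 0 := by
  simp [cnt, Multiset.count_cons]

theorem cnt_some' (f : A → K) (S : Multiset (Option A)) (a : A) :
    cnt f (some a ::ₘ S) = Function.update (cnt f S) (f a) (cnt f S (f a) + 1) := by
  funext k
  rw [cnt_some]
  by_cases hk : k = f a
  · subst hk; simp
  · simp [hk]

/-- Product weight of one level. -/
def lev [Fintype K] (f : A → K) (F : K → ℕ → ℝ) (S : Multiset (Option A)) : ℝ :=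
  ∏ k, F k (cnt f S k)

/-- Ratio for adding one port. -/
noncomputable def rat (f : A → K) (F : K → ℕ → ℝ) (S : Multiset (Option A)) (a : A) : ℝ :=
  F (f a) (cnt f S (f a) + 1) / F (f a) (cnt f S (f a))

/-- Second ratio. -/
noncomputable def sec (F : ℕ → ℝ) (c : ℕ) : ℝ := F c * F (c + 2) / F (c + 1) ^ 2

theorem lev_pos [Fintype K] (f : A → K) {F : K → ℕ → ℝ} (hF : ∀ k c, 0 < F k c)
    (S : Multiset (Option A)) : 0 < lev f F S := prod_pos fun k _ => hF k _

theorem lev_none [Fintype K] (f : A → K) (F : K → ℕ → ℝ) (S : Multiset (Option A)) :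
    lev f F (none ::ₘ S) = lev f F S := by simp only [lev, cnt_none]

theorem lev_some [Fintype K] (f : A → K) {F : K → ℕ → ℝ} (hF : ∀ k c, 0 < F k c)
    (S : Multiset (Option A)) (a : A) : lev f F (some a ::ₘ S) = lev f F S * rat f F S a := by
  unfold lev rat
  rw [← mul_prod_erase univ _ (mem_univ (f a)), ← mul_prod_erase univ _ (mem_univ (f a)), cnt_some,
    if_pos rfl]
  have : ∏ k ∈ univ.erase (f a), F k (cnt f (some a ::ₘ S) k)
      = ∏ k ∈ univ.erase (f a), F k (cnt f S k) :=
    prod_congr rfl fun k hk => by rw [cnt_some, if_neg (ne_of_mem_erase hk), add_zero]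
  rw [this]
  have := hF (f a) (cnt f S (f a))
  field_simp

theorem rat_some (f : A → K) {F : K → ℕ → ℝ} (hF : ∀ k c, 0 < F k c)
    (S : Multiset (Option A)) (a b : A) :
    rat f F (some b ::ₘ S) a
      = rat f F S a * if f a = f b then sec (F (f a)) (cnt f S (f a)) else 1 := by
  unfold rat sec
  rw [cnt_some]
  split_ifs with h
  · have := hF (f a) (cnt f S (f a))
    have := hF (f a) (cnt f S (f a) + 1)
    field_simp
  · simp

end counts

end Vale.Agent.P328
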