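import Vale.Agent.P328.BL1

/-! P328: local Lorentzian inequality and the port-level Brascamp-Lieb inequality. -/

namespace Vale.Agent.P328
open Finset Vale.Agent.P317

/-- Laminar weight data on ports. -/
structure Lam (A K3 K2 K1 : Type) where
  f : A → K3
  g : K3 → K2
  h : K2 → K1
  ψ : K3 → ℕ → ℝ
  F2 : K2 → ℕ → ℝ
  F1 : K1 → ℕ → ℝ
  β : K3 → ℕ → ℝ
  γ : ℝ
  hγ : 0 ≤ γ
  pψ : ∀ k c, 0 < ψ k c
  p2 : ∀ k c, 0 < F2 k c
  p1 : ∀ k c, 0 < F1 k c
  β0 : ∀ k c, 0 ≤ β k c
  β1 : ∀ k c, β k c ≤ 1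
  lψ : ∀ k c, sec (ψ k) c ≤ 1 - β k c
  l2 : ∀ k c, sec (F2 k) c ≤ 1
  l2' : ∀ k c, γ ≤ sec (F2 k) c
  l1 : ∀ k c, sec (F1 k) c ≤ 1
  l1' : ∀ k c, γ ≤ sec (F1 k) c

variable {A K3 K2 K1 : Type} [Fintype A] [DecidableEq A] [Fintype K3] [DecidableEq K3]
  [Fintype K2] [DecidableEq K2] [Fintype K1] [DecidableEq K1]

def Lam.size (D : Lam A K3 K2 K1) (k : K3) : ℕ := (univ.filter (fun a => D.f a = k)).card

def Lam.F3 (D : Lam A K3 K2 K1) (k : K3) (c : ℕ) : ℝ := D.ψ k c * (D.size k - c).factorial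

def Lam.W (D : Lam A K3 K2 K1) (S : Multiset (Option A)) : ℝ :=
  lev (fun a => D.h (D.g (D.f a))) D.F1 S * lev (fun a => D.g (D.f a)) D.F2 S * lev D.f D.F3 S

def good (S : Multiset (Option A)) : Prop := ∀ a, Multiset.count (some a) S ≤ 1

instance : DecidablePred (good : Multiset (Option A) → Prop) := fun S => by
  unfold good; infer_instance

def Lam.G0 (D : Lam A K3 K2 K1) (S : Multiset (Option A)) : ℝ := if good S then D.W S else 0

omit [DecidableEq A] [Fintype K3] [Fintype K2] [DecidableEq K2] [Fintype K1] [DecidableEq K1] in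
theorem Lam.p3 (D : Lam A K3 K2 K1) (k : K3) (c : ℕ) : 0 < D.F3 k c :=
  mul_pos (D.pψ k c) (by exact_mod_cast Nat.factorial_pos _)

omit [DecidableEq A] in
theorem Lam.W_pos (D : Lam A K3 K2 K1) (S : Multiset (Option A)) : 0 < D.W S :=
  mul_pos (mul_pos (lev_pos _ D.p1 _) (lev_pos _ D.p2 _)) (lev_pos _ D.p3 _)

omit [Fintype A] in
theorem good_none (S : Multiset (Option A)) : good (none ::ₘ S) ↔ good S := by
  simp [good]

omit [Fintype A] in
theorem good_some (a : A) (S : Multiset (Option A)) :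
    good (some a ::ₘ S) ↔ good S ∧ Multiset.count (some a) S = 0 := by
  constructor
  · intro h
    refine ⟨fun b => (Multiset.count_le_count_cons _ _ _).trans (h b), ?_⟩
    have := h a
    rw [Multiset.count_cons_self] at this
    omega
  · rintro ⟨h1, h2⟩ b
    by_cases hb : b = a
    · subst hb; rw [Multiset.count_cons_self]; omega
    · rw [Multiset.count_cons_of_ne (by simpa using hb)]; exact h1 b

omit [Fintype K3] in
theorem cnt_eq_sum (f : A → K3) (S : Multiset (Option A)) (k : K3) :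
    cnt f S k = ∑ a ∈ univ.filter (fun a => f a = k), Multiset.count (some a) S := by
  induction S using Multiset.induction_on with
  | empty => simp [cnt]
  | cons y S ih =>
    cases y with
    | none => rw [cnt_none, ih]; simp
    | some b =>
      rw [cnt_some, ih]
      simp only [Multiset.count_cons, Option.some.injEq, sum_add_distrib, sum_ite_eq',
        mem_filter, mem_univ, true_and]
      simp only [eq_comm]

omit [Fintype K3] in
theorem free_card (f : A → K3) {S : Multiset (Option A)} (hS : good S) (k : K3) :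
    (univ.filter (fun a => f a = k ∧ Multiset.count (some a) S = 0)).card + cnt f S k
      = (univ.filter (fun a => f a = k)).card := by
  rw [cnt_eq_sum, ← filter_filter, card_filter, ← sum_add_distrib, card_eq_sum_ones]
  refine sum_congr rfl fun a _ => ?_
  have := hS a
  split_ifs <;> omega

noncomputable def Lam.rho (D : Lam A K3 K2 K1) (T : Multiset (Option A)) (a : A) : ℝ :=
  if Multiset.count (some a) T = 0 then
    rat (fun a => D.h (D.g (D.f a))) D.F1 T a * rat (fun a => D.g (D.f a)) D.F2 T a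
      * rat D.f D.F3 T a
  else 0

theorem Lam.G0_none (D : Lam A K3 K2 K1) (S : Multiset (Option A)) :
    D.G0 (none ::ₘ S) = D.G0 S := by
  simp only [Lam.G0, good_none, Lam.W, lev_none]

theorem Lam.G0_some (D : Lam A K3 K2 K1) (S : Multiset (Option A)) (a : A) :
    D.G0 (some a ::ₘ S) = D.G0 S * D.rho S a := by
  simp only [Lam.G0, good_some, Lam.rho, Lam.W, lev_some _ D.p1, lev_some _ D.p2, lev_some _ D.p3]
  by_cases h1 : good S <;> by_cases h2 : Multiset.count (some a) S = 0 <;> simp [h1, h2]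
  ring

omit [Fintype K3] [Fintype K2] [Fintype K1] in
theorem Lam.rho_some (D : Lam A K3 K2 K1) (S : Multiset (Option A)) (a b : A) :
    D.rho (some b ::ₘ S) a = D.rho S a * if a = b then 0 else
      (if D.h (D.g (D.f a)) = D.h (D.g (D.f b)) then
        sec (D.F1 (D.h (D.g (D.f a)))) (cnt (fun a => D.h (D.g (D.f a))) S (D.h (D.g (D.f a))))
        else 1) *
      (if D.g (D.f a) = D.g (D.f b) then
        sec (D.F2 (D.g (D.f a))) (cnt (fun a => D.g (D.f a)) S (D.g (D.f a))) else 1) *
      (if D.f a = D.f b then sec (D.F3 (D.f a)) (cnt D.f S (D.f a)) else 1) := by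
  unfold Lam.rho
  by_cases hab : a = b
  · subst hab; simp
  · rw [Multiset.count_cons_of_ne (by simpa using hab), if_neg hab,
      rat_some _ D.p1, rat_some _ D.p2, rat_some _ D.p3]
    split_ifs <;> ring

omit [DecidableEq A] [Fintype K3] [Fintype K2] [DecidableEq K2] [Fintype K1] [DecidableEq K1] in
theorem Lam.sec3 (D : Lam A K3 K2 K1) (k : K3) (c p : ℕ) (hp : p + c = D.size k) (h1 : 1 ≤ p) :
    sec (D.F3 k) c * ((p : ℝ) - 1) ≤ (1 - D.β k c) * p := by
  have hβ := D.β1 k c
  rcases Nat.lt_or_ge p 2 with h2 | h2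
  · have : p = 1 := by omega
    subst this
    simp; linarith
  · obtain ⟨q, rfl⟩ : ∃ q, p = q + 2 := ⟨p - 2, by omega⟩
    have e : sec (D.F3 k) c * (((q + 2 : ℕ) : ℝ) - 1) = sec (D.ψ k) c * ((q + 2 : ℕ) : ℝ) := by
      unfold sec Lam.F3
      rw [show D.size k - c = q + 1 + 1 by omega, show D.size k - (c + 2) = q by omega,
        show D.size k - (c + 1) = q + 1 by omega, Nat.factorial_succ, Nat.factorial_succ]
      have := D.pψ k (c + 1)
      have : (0 : ℝ) < q.factorial := by exact_mod_cast Nat.factorial_pos _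
      push_cast
      field_simp
      ring
    rw [e]
    exact mul_le_mul_of_nonneg_right (D.lψ k c) (Nat.cast_nonneg _)

theorem Lam.local (D : Lam A K3 K2 K1) (φ : (K3 → ℕ) → ℝ) (δ : (K3 → ℕ) → K3 → ℝ)
    (hδ : ∀ x k, 0 ≤ δ x k)
    (hφ : ∀ x k, x k < D.size k →
      (φ (Function.update x k (x k + 1)) - φ x) ^ 2 ≤ D.γ ^ 2 * D.β k (x k) * δ x k)
    (T : Multiset (Option A)) :
    Lor (fun a b => D.G0 (a ::ₘ b ::ₘ T)) (fun a => D.G0 (a ::ₘ T) * φ (cnt D.f (a ::ₘ T)))
      (D.G0 T * (∑ k, δ (cnt D.f T) k - φ (cnt D.f T) ^ 2)) := by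
  have hnn : ∀ S, 0 ≤ D.G0 S := fun S => by
    unfold Lam.G0; split_ifs; exacts [(D.W_pos S).le, le_rfl]
  refine lor_of_hyper _ _ _ (fun a b => by rw [Multiset.cons_swap]) (fun a b => hnn _)
    (fun a => D.G0 (a ::ₘ T)) (D.G0 T * φ (cnt D.f T)) fun c t hc => ?_
  set g := D.G0 T with hg
  set x : A → ℝ := fun a => D.rho T a * c (some a) with hx
  set n := cnt D.f T with hn
  have e1 : dot (fun a => D.G0 (a ::ₘ T)) c = g * (c none + ∑ a, x a) := by
    simp only [dot, Fintype.sum_option, D.G0_none, D.G0_some, hx, mul_add, mul_sum, mul_assoc, hg]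
  have e2 : dot (fun a => D.G0 (a ::ₘ T) * φ (cnt D.f (a ::ₘ T))) c
      = g * ((c none + ∑ a, x a) * φ n + ∑ k, (∑ a ∈ univ.filter (fun a => D.f a = k), x a)
        * (φ (Function.update n k (n k + 1)) - φ n)) := by
    have : ∑ k, (∑ a ∈ univ.filter (fun a => D.f a = k), x a)
        * (φ (Function.update n k (n k + 1)) - φ n)
        = ∑ a, x a * (φ (Function.update n (D.f a) (n (D.f a) + 1)) - φ n) := by
      rw [← sum_fiberwise (s := univ) (g := D.f)]
      refine sum_congr rfl fun k _ => ?_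
      rw [sum_mul]
      exact sum_congr rfl fun a ha => by rw [(mem_filter.1 ha).2]
    rw [this]
    simp only [dot, Fintype.sum_option, D.G0_none, D.G0_some, cnt_none, cnt_some', ← hn, ← hg]
    rw [add_mul, sum_mul, add_assoc, ← sum_add_distrib, mul_add, mul_sum]
    congr 1
    · ring
    · exact sum_congr rfl fun a _ => by simp only [hx]; ring
  by_cases hT : good T
  swap
  · have g0 : g = 0 := by rw [hg, Lam.G0, if_neg hT]
    have z : ∀ a b, D.G0 (a ::ₘ b ::ₘ T) = 0 := by
      intro a b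
      cases a <;> cases b <;> simp only [D.G0_none, D.G0_some, ← hg, g0, zero_mul]
    rw [e2, g0]
    simp [qf, z]
  have gpos : 0 < g := by rw [hg, Lam.G0, if_pos hT]; exact D.W_pos T
  have hform := laminar_form D.f D.g D.h (fun k => sec (D.F3 k) (n k))
    (fun k => sec (D.F2 k) (cnt (fun a => D.g (D.f a)) T k))
    (fun k => sec (D.F1 k) (cnt (fun a => D.h (D.g (D.f a))) T k)) (fun k => D.β k (n k)) D.γ D.hγ
    (fun a => Multiset.count (some a) T = 0) (fun k => D.l1' k _) (fun k => D.l1 k _)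
    (fun k => D.l2' k _) (fun k => D.l2 k _)
    (fun k => div_nonneg (mul_pos (D.p3 k _) (D.p3 k _)).le (sq_nonneg _)) (fun k => D.β0 k _)
    (fun k p hp h1 => D.sec3 k (n k) p (by rw [hp]; exact free_card D.f hT k) h1) x
    (fun a ha => by simp only [hx, Lam.rho, if_neg ha, zero_mul])
  set Nf := ∑ a, ∑ b, (if a = b then 0 else (if D.h (D.g (D.f a)) = D.h (D.g (D.f b)) then
      sec (D.F1 (D.h (D.g (D.f a)))) (cnt (fun a => D.h (D.g (D.f a))) T (D.h (D.g (D.f a))))
      else 1) * (if D.g (D.f a) = D.g (D.f b) then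
        sec (D.F2 (D.g (D.f a))) (cnt (fun a => D.g (D.f a)) T (D.g (D.f a))) else 1) *
      (if D.f a = D.f b then sec (D.F3 (D.f a)) (n (D.f a)) else 1)) * x a * x b with hNf
  have e3 : qf (fun a b => D.G0 (a ::ₘ b ::ₘ T)) c c
      = g * (c none ^ 2 + 2 * c none * ∑ a, x a + Nf) := by
    have sw : ∀ a, D.G0 (some a ::ₘ none ::ₘ T) = g * D.rho T a := fun a => by
      rw [Multiset.cons_swap, D.G0_none, D.G0_some]
    simp only [qf, Fintype.sum_option, D.G0_none, sw]
    simp only [D.G0_some, D.rho_some, ← hg, ← hn, hNf, sum_add_distrib, mul_add, mul_sum, hx]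
    rw [add_assoc, add_assoc]
    congr 1
    · ring
    · rw [← add_assoc, ← sum_add_distrib]
      congr 1
      · exact sum_congr rfl fun a _ => by ring
      · exact sum_congr rfl fun a _ => sum_congr rfl fun b _ => by ring
  rw [e1] at hc
  have hs : c none + ∑ a, x a = -(t * φ n) := by
    refine mul_left_cancel₀ gpos.ne' ?_
    linarith
  rw [e2, e3, hs]
  have key : ∑ k, (2 * t * ((∑ a ∈ univ.filter (fun a => D.f a = k), x a)
        * (φ (Function.update n k (n k + 1)) - φ n)))
      ≤ ∑ k, (D.γ ^ 2 * D.β k (n k) * (∑ a ∈ univ.filter (fun a => D.f a = k), x a) ^ 2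
        + t ^ 2 * δ n k) := by
    refine sum_le_sum fun k _ => ?_
    set C := ∑ a ∈ univ.filter (fun a => D.f a = k), x a with hC
    have hl : 0 ≤ D.γ ^ 2 * D.β k (n k) := mul_nonneg (sq_nonneg _) (D.β0 k _)
    by_cases hk : n k < D.size k
    · have a1 := hφ n k hk
      set Δ := φ (Function.update n k (n k + 1)) - φ n
      set l := D.γ ^ 2 * D.β k (n k)
      have a2 := hδ n k
      have a3 : (2 * t * (C * Δ)) ^ 2 ≤ (l * C ^ 2 + t ^ 2 * δ n k) ^ 2 := by
        have := mul_le_mul_of_nonneg_left a1 (by positivity : 0 ≤ 4 * t ^ 2 * C ^ 2)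
        nlinarith [sq_nonneg (l * C ^ 2 - t ^ 2 * δ n k)]
      exact (abs_le_of_sq_le_sq' a3 (by positivity)).2
    · have hC0 : C = 0 := by
        refine sum_eq_zero fun a ha => ?_
        have a1 := free_card D.f hT k
        have a2 : (univ.filter (fun a => D.f a = k ∧ Multiset.count (some a) T = 0)).card = 0 := by
          unfold Lam.size at hk
          rw [← hn] at a1
          omega
        have a3 : ¬ Multiset.count (some a) T = 0 := fun h0 => by
          rw [card_eq_zero, filter_eq_empty_iff] at a2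
          exact a2 (mem_univ a) ⟨(mem_filter.1 ha).2, h0⟩
        simp only [hx, Lam.rho, if_neg a3, zero_mul]
      rw [hC0]
      have := hδ n k
      simp only [zero_mul, mul_zero, ne_eq, OfNat.ofNat_ne_zero, not_false_eq_true, zero_pow,
        zero_add]
      positivity
  rw [← mul_sum, sum_add_distrib, ← mul_sum] at key
  have hs2 : (c none + ∑ a, x a) ^ 2 = (t * φ n) ^ 2 := by rw [hs]; ring
  have fin : c none ^ 2 + 2 * c none * ∑ a, x a + Nf
      + 2 * t * (-(t * φ n) * φ n + ∑ k, (∑ a ∈ univ.filter (fun a => D.f a = k), x a)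
        * (φ (Function.update n k (n k + 1)) - φ n)) - t ^ 2 * (∑ k, δ n k - φ n ^ 2) ≤ 0 := by
    nlinarith
  nlinarith [mul_le_mul_of_nonneg_left fin gpos.le]

omit [Fintype A] [DecidableEq A] [Fintype K3] in
theorem cnt_ms {P : Type} [Fintype P] (f : A → K3) (σ : P → A) (k : K3) :
    cnt f (ms fun p => some (σ p)) k = (univ.filter (fun p => f (σ p) = k)).card := by
  unfold cnt ms
  rw [← Multiset.coe_mapAddMonoidHom, map_sum, Multiset.count_sum', card_filter]
  refine sum_congr rfl fun p _ => ?_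
  simp [Multiset.count_singleton, eq_comm]

theorem mix_pairs {P : Type} [Fintype P] [DecidableEq P] (G : Multiset (Option (P × Bool)) → ℝ)
    (S : Multiset (Option (P × Bool))) :
    mix (fun (p : P) (y : Option (P × Bool)) => if y.map Prod.fst = some p then 1 else 0) G S
      = ∑ τ : P → Bool, G (ms (fun p => some (p, τ p)) + S) := by
  unfold mix
  symm
  refine sum_of_injOn (fun (τ : P → Bool) p => some (p, τ p)) ?_ (fun _ _ => mem_univ _) ?_ ?_
  · intro τ _ τ' _ h
    funext p
    simpa using congrFun h p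
  · intro σ _ hσ
    have : ∃ p, (σ p).map Prod.fst ≠ some p := by
      by_contra hcon
      push Not at hcon
      refine hσ ⟨fun p => ((σ p).map Prod.snd).getD false, mem_univ _, ?_⟩
      funext p
      have := hcon p
      cases hp : σ p with
      | none => simp [hp] at this
      | some y => simp [hp] at this ⊢; rw [← this]
    obtain ⟨p, hp⟩ := this
    rw [prod_eq_zero (mem_univ p) (if_neg hp), zero_mul]
  · intro τ _
    simp

/-- Port-level Brascamp-Lieb inequality. -/
theorem Lam.bl {P : Type} [Fintype P] [DecidableEq P] (D : Lam (P × Bool) K3 K2 K1)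
    (φ : (K3 → ℕ) → ℝ) (δ : (K3 → ℕ) → K3 → ℝ) (hδ : ∀ x k, 0 ≤ δ x k)
    (hφ : ∀ x k, x k < D.size k →
      (φ (Function.update x k (x k + 1)) - φ x) ^ 2 ≤ D.γ ^ 2 * D.β k (x k) * δ x k)
    (M : (P → Bool) → Multiset (Option (P × Bool))) (hM : ∀ τ, M τ = ms fun p => some (p, τ p)) :
    (∑ τ, D.W (M τ)) * (∑ τ, D.W (M τ) * φ (cnt D.f (M τ)) ^ 2)
      - (∑ τ, D.W (M τ) * φ (cnt D.f (M τ))) ^ 2
      ≤ (∑ τ, D.W (M τ)) * ∑ τ, D.W (M τ) * ∑ k, δ (cnt D.f (M τ)) k := by
  have hS : Supp none good D.G0 (fun S => D.G0 S * φ (cnt D.f S))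
      (fun S => D.G0 S * (∑ k, δ (cnt D.f S) k - φ (cnt D.f S) ^ 2)) := by
    refine ⟨fun a S h b => (Multiset.count_le_count_cons _ _ _).trans (h b),
      fun S h => (good_none S).2 h, fun S h => ?_, fun S h => ?_⟩
    · rw [Lam.G0, if_pos h]; exact D.W_pos S
    · simp [Lam.G0, h]
  have := lor_mixZ none P good _ _ _ hS (D.local φ δ hδ hφ)
    (fun (p : P) (y : Option (P × Bool)) => if y.map Prod.fst = some p then 1 else 0)
    (fun _ _ => by split_ifs <;> norm_num) (fun _ => 0) (fun y => if y = none then 1 else 0) 1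
    (fun _ => by split_ifs <;> norm_num)
  have hg : ∀ τ, D.G0 (M τ) = D.W (M τ) := by
    intro τ
    rw [Lam.G0, if_pos]
    intro a
    have := cnt_ms (fun a : P × Bool => a) (fun p => (p, τ p)) a
    rw [hM]
    simp only [cnt, Option.map_id_fun', id_eq, Multiset.map_id'] at this
    rw [this]
    refine card_le_one.2 fun p hp q hq => ?_
    have h1 := congrArg Prod.fst (mem_filter.1 hp).2
    have h2 := congrArg Prod.fst (mem_filter.1 hq).2
    exact h1.trans h2.symm
  simp only [qf, dot, mul_ite, mul_one, mul_zero, sum_ite_eq', mem_univ, if_true, zero_mul,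
    sum_const_zero, mix_pairs, Multiset.add_cons, add_zero, D.G0_none, cnt_none, ← hM, hg,
    mul_sub, sum_sub_distrib] at this
  nlinarith

end Vale.Agent.P328
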