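import Vale.Agent.P328.BL2

/-! P328: the Brascamp-Lieb inequality for tables in a box. -/

namespace Vale.Agent.P328
open Finset Vale.Agent.P317

theorem cnt_comp {A K K' : Type} [Fintype K] [DecidableEq K] [DecidableEq K'] (f : A → K)
    (g : K → K') (S : Multiset (Option A)) (k : K') :
    cnt (fun a => g (f a)) S k = ∑ κ ∈ univ.filter (fun κ => g κ = k), cnt f S κ := by
  induction S using Multiset.induction_on with
  | empty => simp [cnt]
  | cons y S ih =>
    cases y with
    | none => rw [cnt_none, cnt_none, ih]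
    | some b =>
      rw [cnt_some, ih]
      simp only [cnt_some, sum_add_distrib, sum_ite_eq', mem_filter, mem_univ, true_and]
      simp only [eq_comm]

theorem card_bool_fun (k x : ℕ) :
    (univ.filter (fun t : Fin k → Bool => (univ.filter (fun i => t i = false)).card = x)).card
      = k.choose x := by
  have := card_powersetCard x (univ : Finset (Fin k))
  rw [card_univ, Fintype.card_fin] at this
  rw [← this]
  refine card_bij (fun t _ => univ.filter (fun i => t i = false)) ?_ ?_ ?_
  · intro t ht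
    exact mem_powersetCard.2 ⟨subset_univ _, (mem_filter.1 ht).2⟩
  · intro t _ t' _ h
    funext i
    have := congrArg (fun s => i ∈ s) h
    simp only [mem_filter, mem_univ, true_and, eq_iff_iff] at this
    cases h1 : t i <;> cases h2 : t' i <;> simp_all
  · intro s hs
    refine ⟨fun i => decide (i ∉ s), ?_, ?_⟩
    · simp [(mem_powersetCard.1 hs).2]
    · ext i; simp

def box {E : Type} [Fintype E] [DecidableEq E] (t : E → ℕ) : Finset (E → ℕ) :=
  Fintype.piFinset fun e => range (t e)

theorem mem_box {E : Type} [Fintype E] [DecidableEq E] {t X : E → ℕ} :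
    X ∈ box t ↔ ∀ e, X e < t e := by simp [box]

theorem sum_ports {E : Type} [Fintype E] [DecidableEq E] (κ : E → ℕ) (H : (E → ℕ) → ℝ) :
    ∑ τ : (Σ e, Fin (κ e)) → Bool, H (fun e => (univ.filter (fun i => τ ⟨e, i⟩ = false)).card)
      = ∑ X ∈ box (fun e => κ e + 1), (∏ e, ((κ e).choose (X e) : ℝ)) * H X := by
  rw [← Equiv.sum_comp (Equiv.piCurry (fun (e : E) (_ : Fin (κ e)) => Bool)).symm]
  change ∑ τ : ∀ e, Fin (κ e) → Bool,
    H (fun e => (univ.filter (fun i => τ e i = false)).card) = _
  rw [← sum_fiberwise_of_maps_to (s := univ) (t := box (fun e => κ e + 1))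
    (g := fun (τ : ∀ e, Fin (κ e) → Bool) e => (univ.filter (fun i => τ e i = false)).card)]
  · refine sum_congr rfl fun X _ => ?_
    rw [sum_congr rfl (g := fun _ => H X) (fun τ hτ => congrArg H (mem_filter.1 hτ).2), sum_const,
      nsmul_eq_mul]
    congr 1
    have : univ.filter (fun τ : ∀ e, Fin (κ e) → Bool =>
        (fun e => (univ.filter (fun i => τ e i = false)).card) = X)
        = Fintype.piFinset fun e => univ.filter (fun t : Fin (κ e) → Bool =>
          (univ.filter (fun i => t i = false)).card = X e) := by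
      ext τ
      simp [funext_iff]
    rw [this, Fintype.card_piFinset]
    simp only [card_bool_fun]
    push_cast; rfl
  · intro τ _
    rw [mem_box]
    intro e
    have := card_le_univ (univ.filter (fun i => τ e i = false))
    rw [Fintype.card_fin] at this
    omega

variable {I J : Type} [Fintype I] [DecidableEq I] [Fintype J] [DecidableEq J]

def row (X : I × J → ℕ) (i : I) : ℕ := ∑ j, X (i, j)
def col (X : I × J → ℕ) (j : J) : ℕ := ∑ i, X (i, j)
def tot (X : I × J → ℕ) : ℕ := ∑ e, X e

theorem sec_one (c : ℕ) : sec (fun _ => 1) c = 1 := by simp [sec]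

theorem bl_table (κ : I × J → ℕ) (χ : I × J → ℕ → ℝ) (ρ : I → ℕ → ℝ) (ω : ℕ → ℝ) (φ : J → ℕ → ℝ)
    (β : I × J → ℕ → ℝ) (γ : ℝ) (hγ : 0 ≤ γ)
    (pχ : ∀ k c, 0 < χ k c) (pρ : ∀ k c, 0 < ρ k c) (pω : ∀ c, 0 < ω c) (pφ : ∀ k c, 0 < φ k c)
    (β0 : ∀ k c, 0 ≤ β k c) (β1 : ∀ k c, β k c ≤ 1) (lχ : ∀ k c, sec (χ k) c ≤ 1 - β k c)
    (lρ : ∀ k c, γ ≤ sec (ρ k) c ∧ sec (ρ k) c ≤ 1) (lω : ∀ c, γ ≤ sec ω c ∧ sec ω c ≤ 1)
    (lφ : ∀ k c, γ ≤ sec (φ k) c ∧ sec (φ k) c ≤ 1)
    (μ : (I × J → ℕ) → ℝ)
    (hμ : ∀ X, μ X = (∏ e, χ e (X e)) * (∏ i, ρ i (row X i)) * ω (tot X)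
      * ∏ j, φ j (col (fun e => κ e - X e) j))
    (f : (I × J → ℕ) → ℝ) (δ : (I × J → ℕ) → I × J → ℝ) (hδ : ∀ X e, 0 ≤ δ X e)
    (hf : ∀ X e, X e < κ e →
      (f (Function.update X e (X e + 1)) - f X) ^ 2 ≤ γ ^ 2 * β e (X e) * δ X e) :
    (∑ X ∈ box (fun e => κ e + 1), μ X) * (∑ X ∈ box (fun e => κ e + 1), μ X * f X ^ 2)
      - (∑ X ∈ box (fun e => κ e + 1), μ X * f X) ^ 2
      ≤ (∑ X ∈ box (fun e => κ e + 1), μ X)
        * ∑ X ∈ box (fun e => κ e + 1), μ X * ∑ e, δ X e := by
  have γ1 : γ ≤ 1 := (lω 0).1.trans (lω 0).2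
  let D : Lam ((Σ e, Fin (κ e)) × Bool) ((I × J) × Bool) (I ⊕ J) Bool :=
    { f := fun a => (a.1.1, a.2)
      g := fun k => bif k.2 then Sum.inr k.1.2 else Sum.inl k.1.1
      h := Sum.isRight
      ψ := fun k => bif k.2 then fun _ => 1 else χ k.1
      F2 := Sum.elim ρ φ
      F1 := fun s => bif s then fun _ => 1 else ω
      β := fun k => bif k.2 then fun _ => 0 else β k.1
      γ := γ
      hγ := hγ
      pψ := by rintro ⟨e, _ | _⟩ c <;> simp [pχ]
      p2 := by rintro (i | j) c <;> simp [pρ, pφ]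
      p1 := by rintro (_ | _) c <;> simp [pω]
      β0 := by rintro ⟨e, _ | _⟩ c <;> simp [β0]
      β1 := by rintro ⟨e, _ | _⟩ c <;> simp [β1]
      lψ := by rintro ⟨e, _ | _⟩ c <;> simp [lχ, sec_one]
      l2 := by rintro (i | j) c <;> simp [(lρ _ _).2, (lφ _ _).2]
      l2' := by rintro (i | j) c <;> simp [(lρ _ _).1, (lφ _ _).1]
      l1 := by rintro (_ | _) c <;> simp [(lω _).2, sec_one]
      l1' := by rintro (_ | _) c <;> simp [(lω _).1, sec_one, γ1] }
  have hsig : ∀ (Q : (Σ e, Fin (κ e)) → Prop) [DecidablePred Q] (e : I × J),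
      (univ.filter (fun p => p.1 = e ∧ Q p)).card
        = (univ.filter (fun i : Fin (κ e) => Q ⟨e, i⟩)).card := by
    intro Q _ e
    rw [card_filter, Fintype.sum_sigma, sum_eq_single e, card_filter]
    · simp
    · intro e' _ h; simp [h]
    · simp
  have hsize : ∀ e s, D.size (e, s) = κ e := by
    intro e s
    unfold Lam.size
    rw [card_filter, Fintype.sum_prod_type]
    have := hsig (fun _ => True) e
    simp only [and_true, filter_true, card_univ, Fintype.card_fin, card_filter] at this
    rw [← this]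
    refine sum_congr rfl fun p _ => ?_
    cases s <;> by_cases hp : p.1 = e <;> simp [D, hp]
  let X : ((Σ e, Fin (κ e)) → Bool) → I × J → ℕ := fun τ e =>
    (univ.filter (fun i => τ ⟨e, i⟩ = false)).card
  let nX : (I × J → ℕ) → (I × J) × Bool → ℕ := fun X k => bif k.2 then κ k.1 - X k.1 else X k.1
  have hn : ∀ τ, cnt D.f (ms fun p => some (p, τ p)) = nX (X τ) := by
    intro τ
    funext ⟨e, s⟩
    rw [cnt_ms D.f (fun p => (p, τ p))]
    simp only [D, Prod.mk.injEq]
    rw [hsig (fun p => τ p = s) e]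
    cases s
    · rfl
    · have := card_filter_add_card_filter_not (s := (univ : Finset (Fin (κ e))))
        (fun i => τ ⟨e, i⟩ = false)
      simp only [card_univ, Fintype.card_fin, Bool.not_eq_false] at this
      simp only [nX, X, cond_true]
      omega
  let Wn : (I × J → ℕ) → ℝ := fun X =>
    μ X * ∏ e, (((κ e - X e).factorial : ℝ) * (κ e - (κ e - X e)).factorial)
  have hW : ∀ τ, D.W (ms fun p => some (p, τ p)) = Wn (X τ) := by
    intro τ
    unfold Lam.W lev
    simp only [cnt_comp D.f (fun k => D.h (D.g k)), cnt_comp D.f D.g, hn]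
    generalize X τ = Y
    have e1 : ∏ s, D.F1 s (∑ k ∈ univ.filter (fun k => D.h (D.g k) = s), nX Y k) = ω (tot Y) := by
      rw [Fintype.prod_bool]
      simp only [D, cond_true, cond_false, one_mul]
      congr 1
      rw [sum_filter, Fintype.sum_prod_type]
      simp [tot, nX]
    have e2 : ∏ s, D.F2 s (∑ k ∈ univ.filter (fun k => D.g k = s), nX Y k)
        = (∏ i, ρ i (row Y i)) * ∏ j, φ j (col (fun e => κ e - Y e) j) := by
      rw [Fintype.prod_sum_type]
      congr 1
      · refine prod_congr rfl fun i _ => ?_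
        simp only [D, Sum.elim_inl]
        congr 1
        rw [sum_filter, Fintype.sum_prod_type, Fintype.sum_prod_type, sum_eq_single i]
        · simp [row, nX]
        · intro i' _ h; simp [h]
        · simp
      · refine prod_congr rfl fun j _ => ?_
        simp only [D, Sum.elim_inr]
        congr 1
        rw [sum_filter, Fintype.sum_prod_type, Fintype.sum_prod_type]
        simp [col, nX]
    have e3 : ∏ k, D.F3 k (nX Y k) = (∏ e, χ e (Y e))
        * ∏ e, (((κ e - Y e).factorial : ℝ) * (κ e - (κ e - Y e)).factorial) := by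
      rw [Fintype.prod_prod_type, ← prod_mul_distrib]
      refine prod_congr rfl fun e _ => ?_
      rw [Fintype.prod_bool, Lam.F3, Lam.F3, hsize, hsize]
      simp only [D, nX, cond_true, cond_false]
      ring
    rw [e1, e2, e3]
    simp only [Wn, hμ]
    ring
  have hbl := D.bl (fun x => f (fun e => x (e, false)))
    (fun x k => bif k.2 then 0 else δ (fun e => x (e, false)) k.1)
    (by rintro x ⟨e, _ | _⟩ <;> simp [hδ])
    (by
      rintro x ⟨e, _ | _⟩ hx
      · rw [hsize] at hx
        have : (fun e' => Function.update x (e, false) (x (e, false) + 1) (e', false))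
            = Function.update (fun e' => x (e', false)) e (x (e, false) + 1) := by
          funext e'
          by_cases h : e' = e
          · subst h; simp
          · simp [h]
        simp only [this, D, cond_false]
        exact hf (fun e' => x (e', false)) e hx
      · have : (fun e' => Function.update x (e, true) (x (e, true) + 1) (e', false))
            = fun e' => x (e', false) := by
          funext e'; simp
        simp [this])
    (fun τ => ms fun p => some (p, τ p)) (fun _ => rfl)
  simp only [hW, hn, nX, cond_false, Fintype.sum_prod_type (α₁ := I × J), Fintype.sum_bool,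
    cond_true, zero_add] at hbl
  have tr : ∀ H : (I × J → ℕ) → ℝ, ∑ τ, Wn (X τ) * H (X τ)
      = (∏ e, ((κ e).factorial : ℝ)) * ∑ X ∈ box (fun e => κ e + 1), μ X * H X := by
    intro H
    rw [sum_ports κ (fun Y => Wn Y * H Y), mul_sum]
    refine sum_congr rfl fun Y hY => ?_
    have : ∏ e, ((κ e).factorial : ℝ) = (∏ e, ((κ e).choose (Y e) : ℝ))
        * ∏ e, (((κ e - Y e).factorial : ℝ) * (κ e - (κ e - Y e)).factorial) := by
      rw [← prod_mul_distrib]
      refine prod_congr rfl fun e _ => ?_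
      have h1 : Y e ≤ κ e := Nat.lt_succ_iff.1 (mem_box.1 hY e)
      rw [Nat.sub_sub_self h1, ← Nat.choose_mul_factorial_mul_factorial h1]
      push_cast; ring
    rw [this]
    simp only [Wn]
    ring
  have t0 := tr (fun _ => 1)
  have t1 := tr f
  have t2 := tr (fun Y => f Y ^ 2)
  have t3 := tr (fun Y => ∑ e, δ Y e)
  simp only [mul_one] at t0
  rw [t0, t1, t2, t3] at hbl
  have cpos : 0 < ∏ e, ((κ e).factorial : ℝ) :=
    prod_pos fun e _ => by exact_mod_cast Nat.factorial_pos _
  refine le_of_mul_le_mul_left ?_ (mul_pos cpos cpos)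
  nlinarith

end Vale.Agent.P328
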