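import Vale.Agent.P328.Poin

/-! P328: analysis of the repeated trials. -/

namespace Vale.Agent.P328
open Finset Vale.Agent.P317

variable {m n : ℕ}

namespace Inst
variable (D : Inst m n)

theorem theta_ok : 1 / (2 * (D.P : ℝ)) * Fintype.card ((Fin m × Fin n) × Bool) ≤ 1 / 2 := by
  have hP := D.PR
  rw [one_div_mul_eq_div, div_le_div_iff₀ (by linarith) (by norm_num)]
  simp only [Fintype.card_prod, Fintype.card_fin, Fintype.card_bool]
  have := D.Pmn
  exact_mod_cast (by omega : m * n * 2 * 2 ≤ 1 * (2 * D.P))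

theorem markov_step : Markov D.step :=
  markov_stp _ _ _ (by positivity) D.theta_ok D.acc_nonneg D.acc_le_one

theorem markov_low : Markov D.low := by
  have hV := D.V_pos
  refine ⟨fun f g a => ?_, fun c f a => ?_, fun f g h a => ?_, fun a => ?_⟩
  · simp only [low, sum_add_distrib, add_div]
  · simp only [low, ← mul_sum, mul_div_assoc]
  · exact div_le_div_of_nonneg_right (sum_le_sum fun _ _ => h _) hV.le
  · simp only [low, sum_const, nsmul_eq_mul, mul_one, card_S]
    exact div_self hV.ne'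

theorem markov_trial : Markov D.trial := by
  have h1 := D.markov_step.iterate (D.P ^ 140)
  have h2 := D.markov_low
  refine ⟨fun f g a => ?_, fun c f a => ?_, fun f g h a => ?_, fun a => ?_⟩
  · refine Eq.trans ?_ (h1.add _ _ 0)
    unfold trial
    refine congrArg (fun F => D.step^[D.P ^ 140] F 0) ?_
    funext Y
    rw [← h2.add]
    congr 1
    funext X
    split_ifs <;> rfl
  · refine Eq.trans ?_ (h1.smul _ _ 0)
    unfold trial
    refine congrArg (fun F => D.step^[D.P ^ 140] F 0) ?_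
    funext Y
    rw [← h2.smul]
    congr 1
    funext X
    split_ifs <;> rfl
  · exact h1.mono _ _ (fun Y => h2.mono _ _ (fun X => by split_ifs; exacts [h _, h _]) _) 0
  · refine Eq.trans ?_ (h1.one 0)
    unfold trial
    refine congrArg (fun F => D.step^[D.P ^ 140] F 0) ?_
    funext Y
    simp only [ite_self]
    exact h2.one _

theorem wsum (ψ : Tab m n → ℝ) :
    ∑ Y ∈ box D.R, ∑ ρ ∈ box D.S,
      D.W Y * (if D.DD (D.cor Y + ρ) = 0 then ψ (D.cmp (D.cor Y + ρ)) else 0)
      = ∑ Z ∈ tables D.r D.c, ψ Z := by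
  rw [← D.sum_feas, sum_fine]
  refine sum_congr rfl fun Y hY => sum_congr rfl fun ρ hρ => ?_
  split_ifs with h
  · rw [D.W_one hY hρ h, one_mul]
  · simp

theorem zero_mem : (0 : Tab m n) ∈ box D.R := mem_box.2 fun e => D.Rpos e

theorem mix_err (G : Tab m n → ℝ) (h0 : ∀ Y, 0 ≤ G Y) (h1 : ∀ Y, G Y ≤ 1) :
    |D.step^[D.P ^ 140] G 0 - (∑ Y ∈ box D.R, D.W Y * G Y) / ∑ Y ∈ box D.R, D.W Y|
      ≤ Real.exp (-(6 * D.P)) := by
  have hP := D.PR
  have := mixing' (box D.R) (1 / (2 * D.P)) D.mv D.acc (by positivity)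
    (by rw [div_le_one (by linarith)]; linarith) D.theta_ok D.acc_nonneg D.acc_le_one D.swap D.W
    (fun Y => (D.W_pos Y).le) D.W_acc ((D.P : ℝ) ^ 106) (one_le_pow₀ (by linarith)) D.poincare 0
    D.zero_mem (D.W_pos 0) G h0 h1 (D.P ^ 140)
  refine abs_le_of_sq_le_sq (this.trans ?_) (Real.exp_pos _).le
  set p : ℝ := (D.P : ℝ) with hp
  have p0 : 0 < p := by linarith
  have pe : p ≤ Real.exp p := by linarith [Real.add_one_le_exp p]
  have x1 : 1 / (2 * p) / (2 * p ^ 106) ≤ 1 := by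
    have : 1 ≤ p ^ 106 := one_le_pow₀ (by linarith)
    rw [div_div, div_le_one (by positivity)]
    nlinarith
  have a1 : (1 - 1 / (2 * p) / (2 * p ^ 106)) ^ D.P ^ 140 ≤ Real.exp (-(p ^ 33 / 4)) := by
    refine (pow_le_pow_left₀ (by linarith) (Real.one_sub_le_exp_neg _) _).trans (le_of_eq ?_)
    rw [← Real.exp_nat_mul]
    congr 1
    push_cast
    rw [← hp]
    field_simp
    ring
  have a2 : ∑ Y ∈ box D.R, D.W Y ≤ Real.exp (9 * p ^ 2) := by
    have b1 := sum_le_card_nsmul (box D.R) D.W 1 (fun Y _ => D.W_le_one Y)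
    have b2 : (box D.R).card ≤ D.P ^ (9 * D.P) := by
      have := prod_le_pow_card univ D.R (D.P ^ 9) (fun e _ => D.R_le e)
      simp only [card_univ, Fintype.card_prod, Fintype.card_fin, ← pow_mul] at this
      simp only [box, Fintype.card_piFinset, card_range]
      have h3 := D.Pmn
      exact this.trans (Nat.pow_le_pow_right D.Ppos (by omega))
    have b3 : ((box D.R).card : ℝ) ≤ p ^ (9 * D.P) := by rw [hp]; exact_mod_cast b2
    have b4 := pow_le_pow_left₀ p0.le pe (9 * D.P)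
    rw [← Real.exp_nat_mul] at b4
    simp only [nsmul_eq_mul, mul_one] at b1
    refine (b1.trans (b3.trans b4)).trans (le_of_eq ?_)
    congr 1; push_cast; rw [← hp]; ring
  have a3 : Real.exp (-(p ^ 12)) ≤ D.W 0 := by
    have b1 : (1 / p) ^ D.P ^ 11 ≤ D.W 0 :=
      pow_le_pow_of_le_one (by positivity) (by rw [div_le_one p0]; linarith) (D.En_le D.zero_mem)
    refine le_trans (le_of_eq ?_) ((pow_le_pow_left₀ (Real.exp_pos (-p)).le ?_ _).trans b1)
    · rw [← Real.exp_nat_mul]; congr 1; push_cast; rw [← hp]; ring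
    · rw [Real.exp_neg, ← one_div]; exact one_div_le_one_div_of_le p0 pe
  have a4 : (∑ Y ∈ box D.R, D.W Y) / D.W 0 ≤ Real.exp (9 * p ^ 2) / Real.exp (-(p ^ 12)) :=
    div_le_div₀ (Real.exp_pos _).le a2 (Real.exp_pos _) a3
  refine (mul_le_mul a1 a4 (div_nonneg (sum_nonneg fun Y _ => (D.W_pos Y).le) (D.W_pos _).le)
    (Real.exp_pos _).le).trans ?_
  rw [← Real.exp_sub, ← Real.exp_add, ← Real.exp_nat_mul]
  refine Real.exp_le_exp.2 ?_
  have c1 : p ≤ p ^ 12 := le_self_pow₀ (by linarith) (by norm_num)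
  have c2 : p ^ 2 ≤ p ^ 12 := pow_le_pow_right₀ (by linarith) (by norm_num)
  have c3 : p ^ 14 ≤ p ^ 33 := pow_le_pow_right₀ (by linarith) (by norm_num)
  have c4 : 4096 * p ^ 12 ≤ p ^ 14 := by
    rw [show p ^ 14 = p ^ 2 * p ^ 12 by ring]
    exact mul_le_mul_of_nonneg_right (by nlinarith) (by positivity)
  push_cast
  linarith

theorem trial_bound (ψ : Tab m n → ℝ) (h0 : ∀ Y, 0 ≤ ψ Y) (h1 : ∀ Y, ψ Y ≤ 1) (Z0 : Tab m n) :
    |D.trial^[D.P ^ 4] ψ Z0 - (∑ Z ∈ tables D.r D.c, ψ Z) / (tables D.r D.c).card|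
      ≤ (1 / 2) ^ D.P := by
  have hP := D.PR
  have hV := D.V_pos
  set Zt := ∑ Y ∈ box D.R, D.W Y with hZt
  have Zpos : 0 < Zt := sum_pos (fun Y _ => D.W_pos Y) ⟨0, D.zero_mem⟩
  set C : ℝ := ((tables D.r D.c).card : ℝ) with hC
  have c1 : D.V * Zt ≤ (D.P : ℝ) ^ 2 * (3 * C) := by
    rw [hZt, ← D.sum_q D.W]
    refine (sum_le_sum fun X hX => (D.cmp_q hX).1).trans ?_
    rw [← mul_sum]
    exact mul_le_mul_of_nonneg_left D.mass (by positivity)
  have VZ : 0 < D.V * Zt := mul_pos hV Zpos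
  have Cpos : 0 < C := by
    have : 0 < (D.P : ℝ) ^ 2 * (3 * C) := VZ.trans_le c1
    have := (mul_pos_iff_of_pos_left (by positivity)).1 this
    linarith
  have c2 : C ≤ D.V * Zt := by
    have := D.wsum (fun _ => 1)
    simp only [sum_const, nsmul_eq_mul, mul_one] at this
    rw [hC, ← this, hZt, mul_sum]
    refine sum_le_sum fun Y _ => ?_
    rw [← card_S, ← nsmul_eq_mul, ← sum_const]
    refine sum_le_sum fun ρ _ => ?_
    have := D.W_pos Y
    split_ifs <;> linarith
  set U := (∑ Z ∈ tables D.r D.c, ψ Z) / C with hU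
  have U0 : 0 ≤ U := div_nonneg (sum_nonneg fun Z _ => h0 Z) Cpos.le
  have U1 : U ≤ 1 := by
    rw [hU, div_le_one Cpos]
    simpa using sum_le_card_nsmul _ ψ 1 (fun Z _ => h1 Z)
  have key := trials D.markov_trial ψ (C / (D.V * Zt)) U (Real.exp (-(6 * D.P)))
    (by rw [div_le_one VZ]; exact c2) (Real.exp_pos _).le (by positivity) (by
      intro Z
      have := D.mix_err
        (fun Y => D.low (fun X => if D.DD X = 0 then ψ (D.cmp X) else ψ Z) (D.cor Y))
        (fun Y => (D.markov_low.const 0 _).ge.trans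
          (D.markov_low.mono _ _ (fun X => by split_ifs; exacts [h0 _, h0 _]) _))
        (fun Y => (D.markov_low.mono _ _ (fun X => by split_ifs; exacts [h1 _, h1 _]) _).trans
          (D.markov_low.one _).le)
      refine le_trans (le_of_eq (congrArg (fun y => |D.trial ψ Z - y|) ?_)) this
      have e1 := D.wsum (fun X => ψ X - ψ Z)
      have e2 : ∑ Y ∈ box D.R, D.W Y * D.low (fun X => if D.DD X = 0 then ψ (D.cmp X) else ψ Z)
          (D.cor Y) = (∑ Z' ∈ tables D.r D.c, (ψ Z' - ψ Z)) / D.V + Zt * ψ Z := by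
        rw [← e1, sum_div, hZt, sum_mul, ← sum_add_distrib]
        refine sum_congr rfl fun Y _ => ?_
        have : ∀ X, (if D.DD X = 0 then ψ (D.cmp X) else ψ Z)
            = (if D.DD X = 0 then ψ (D.cmp X) - ψ Z else 0) + ψ Z := fun X => by
          split_ifs <;> ring
        simp only [low, this, sum_add_distrib, sum_const, nsmul_eq_mul, card_S, ← mul_sum]
        change D.W Y * (_ / D.V) = _
        field_simp
      rw [e2, sum_sub_distrib, sum_const, nsmul_eq_mul, ← hC, hU, ← hZt]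
      field_simp
      ring) Z0 (by rw [abs_le]; constructor <;> linarith [h0 Z0, h1 Z0]) (D.P ^ 4)
  refine key.trans ?_
  set p : ℝ := (D.P : ℝ) with hp
  have p0 : 0 < p := by linarith
  have pe : p ≤ Real.exp p := by linarith [Real.add_one_le_exp p]
  have a1 : (1 - C / (D.V * Zt)) ^ D.P ^ 4 ≤ Real.exp (-(2 * p)) := by
    refine (pow_le_pow_left₀ (by rw [sub_nonneg, div_le_one VZ]; exact c2)
      (Real.one_sub_le_exp_neg _) _).trans ?_
    rw [← Real.exp_nat_mul]
    refine Real.exp_le_exp.2 ?_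
    push_cast
    rw [← hp, mul_neg, neg_le_neg_iff, ← mul_div_assoc, le_div_iff₀ VZ]
    have := mul_le_mul_of_nonneg_left c1 (show 0 ≤ 2 * p by linarith)
    have h3 : 0 ≤ p ^ 3 * C := by positivity
    nlinarith
  have a2 : ((D.P ^ 4 : ℕ) : ℝ) * Real.exp (-(6 * p)) ≤ Real.exp (-(2 * p)) := by
    have := pow_le_pow_left₀ p0.le pe 4
    rw [← Real.exp_nat_mul] at this
    push_cast at this ⊢
    rw [← hp]
    refine (mul_le_mul_of_nonneg_right this (Real.exp_pos _).le).trans (le_of_eq ?_)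
    rw [← Real.exp_add]; congr 1; ring
  have a3 : Real.exp (-p) ≤ (1 / 2) ^ D.P := by
    rw [hp, ← mul_neg_one, Real.exp_nat_mul]
    refine pow_le_pow_left₀ (Real.exp_pos _).le ?_ _
    rw [Real.exp_neg, ← one_div]
    exact one_div_le_one_div_of_le (by norm_num) (by linarith [Real.add_one_le_exp 1])
  have a4 : Real.exp (-(2 * p)) = Real.exp (-p) * Real.exp (-p) := by
    rw [← Real.exp_add]; congr 1; ring
  have a5 : Real.exp (-p) ≤ 1 / 2 := a3.trans (pow_le_of_le_one (by norm_num) (by norm_num)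
    D.Ppos.ne')
  nlinarith [Real.exp_pos (-p)]

end Inst

end Vale.Agent.P328
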