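import Vale.Agent.P328.Util
import Vale.Agent.P328.Final

/-!
P328: the program.
Arrays: 0 m, 1 n, 2 r, 3 c, 4 5 eps, 6 output, 7 N, 8 k, 9 L, 10 P, 11 mn, 12 l, 13 i0, 14 j0,
15 row index, 16 column index, 17 kappa + T, 18 S, 19 log S, 20 top, 21 state, 22 row sums,
23 column sums, 24 total, 25 completed table, 26 D, 27 E, 28 Q, 29 T, 30 P^9, 31 P^11, 32 P^140,
34 scratch, 35 loop index, 36 2^P, 37 to 49 temporaries.
-/

namespace Vale.Agent.P328
open Finset Vale.Agent.P317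

def ix : Expr := V 35
def rI : Expr := .get 15 ix
def cJ : Expr := .get 16 ix
def minE (a b : Expr) : Expr := .sub a (.sub a b)
def dbE (a : Expr) : Expr := .add a a

def accum : Prog :=
  .seq (.set 22 rI (.add (.get 22 rI) (.get 21 ix)))
    (.seq (.set 23 cJ (.add (.get 23 cJ) (.get 21 ix))) (asg 24 (.add (V 24) (.get 21 ix))))

def sums : Prog :=
  .seq (forN 0 (.set 22 (V 35) (.lit 0))) (.seq (forN 1 (.set 23 (V 35) (.lit 0)))
    (.seq (asg 24 (.lit 0)) (forN 11 accum)))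

def ab (x y : Expr) : Prog := .seq (asg 39 x) (asg 40 y)

def pickAB : Prog :=
  .ite (neE rI (V 13))
    (.ite (neE cJ (V 14)) (ab (.get 21 ix) (.lit 0)) (ab (.get 2 rI) (.get 22 rI)))
    (.ite (neE cJ (V 14)) (ab (.get 3 cJ) (.get 23 cJ))
      (ab (.add (.add (V 24) (.get 2 (V 13))) (.get 3 (V 14))) (V 7)))

def scale : Prog :=
  .loop (V 10) (ltE (V 37) (V 28)) (.seq (asg 38 (dbE (V 38))) (asg 37 (dbE (V 37))))

def cellD : Prog :=
  .seq pickAB (.seq (.set 25 ix (.sub (V 39) (V 40))) (.seq (asg 38 (.sub (V 40) (V 39)))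
    (.seq (asg 37 (.get 17 ix)) (.seq scale (asg 26 (.add (V 26) (V 38)))))))

def defic : Prog := .seq sums (.seq (asg 26 (.lit 0)) (forN 11 cellD))

def divide : Prog :=
  .seq (asg 46 (dbE (dbE (dbE (V 26))))) (.seq (rep (dbl 46 9) 4) (.seq (asg 27 (.lit 0))
    (.loop (V 31) (ltE (V 28) (.add (V 46) (.lit 1)))
      (.seq (asg 46 (.sub (V 46) (V 28))) (inc 27)))))

def energy : Prog := .seq defic divide

def xk : Expr := .get 21 (V 41)
def sk : Expr := .get 18 (V 41)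

def propose : Prog :=
  .ite (V 42) (.ite (ltE (.add xk sk) (.get 20 (V 41))) (.set 21 (V 41) (.add xk sk)) skip)
    (.set 21 (V 41) (.sub xk sk))

def shift : Prog := .loop (V 10) (V 47) (.seq (dbl 43 9) (asg 47 (.sub (V 47) (.lit 1))))

def tryMove : Prog :=
  .seq energy (.seq (asg 44 (V 27)) (.seq (asg 45 xk) (.seq propose (.seq energy
    (.seq (asg 47 (.sub (V 27) (V 44))) (.seq shift
      (.ite (ltE (V 43) (V 36)) skip (.set 21 (V 41) (V 45)))))))))

def stepDet : Prog := .ite (ltE (V 41) (V 11)) tryMove skip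

def stepP : Prog := .seq (rnd 41 9) (.seq (.coin 42 (.lit 0)) (.seq (rnd 43 10) stepDet))

def lowLoop : Prog :=
  .loop (V 10) (V 47) (.seq (.coin 34 (.lit 0)) (.seq (asg 43 (.add (.add (V 43) (V 43)) (V 34)))
    (asg 47 (.sub (V 47) (.lit 1)))))

def lowCell : Prog :=
  .seq (asg 47 (.get 19 ix)) (.seq (asg 43 (.lit 0)) (.seq lowLoop
    (.seq (.set 21 ix (.add (.get 21 ix) (V 43))) (inc 35))))

def lowP : Prog := .seq (asg 35 (.lit 0)) (.loop (V 11) (.lit 1) lowCell)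

def store : Prog := .seq defic (.ite (V 26) skip (forN 11 (.set 6 ix (.get 25 ix))))

def trialP : Prog :=
  .seq (forN 11 (.set 21 (V 35) (.lit 0))) (.seq (.loop (V 32) (.lit 1) stepP) (.seq lowP store))

def phase2 : Prog := .loop (V 29) (.lit 1) trialP

def argmax (k a x : ℕ) : Prog :=
  .seq (asg x (.lit 0)) (forN k (.ite (ltE (.get a (V x)) (.get a ix)) (asg x ix) skip))

def indexP : Prog :=
  .seq (asg 37 (.lit 0)) (.seq (asg 38 (.lit 0)) (forN 11 (.seq (.set 15 ix (V 37))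
    (.seq (.set 16 ix (V 38)) (.seq (inc 38)
      (.ite (neE (V 38) (V 1)) skip (.seq (asg 38 (.lit 0)) (inc 37))))))))

def grow : Prog :=
  .loop (V 10) (ltE (V 37) (V 38)) (.seq (asg 37 (dbE (V 37))) (.seq (asg 39 (dbE (V 39))) (inc 40)))

def cellInit : Prog :=
  .seq (asg 46 (minE (.get 2 rI) (.get 3 cJ))) (.seq (.set 17 ix (.add (V 46) (V 29)))
    (.seq (asg 37 (.lit 1)) (.seq (asg 38 (.lit 0))
      (.seq (.ite (neE rI (V 13)) (.ite (neE cJ (V 14))
          (.seq (asg 37 (V 30)) (asg 38 (.add (V 46) (.lit 1)))) skip) skip)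
        (.seq (asg 39 (.lit 1)) (.seq (asg 40 (.lit 0)) (.seq grow
          (.seq (.set 18 ix (V 39)) (.seq (.set 19 ix (V 40)) (.set 20 ix (V 37)))))))))))

def fillCell : Prog :=
  .seq (asg 46 (minE (.get 22 rI) (.get 23 cJ))) (.seq (.set 6 ix (V 46))
    (.seq (.set 22 rI (.sub (.get 22 rI) (V 46))) (.set 23 cJ (.sub (.get 23 cJ) (V 46)))))

def greedy : Prog :=
  .seq (forN 0 (.set 22 ix (.get 2 ix))) (.seq (forN 1 (.set 23 ix (.get 3 ix))) (forN 11 fillCell))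

def consts : Prog :=
  .seq (pw 29 1 4) (.seq (pw 30 1 9) (.seq (pw 31 1 11) (.seq (pw 32 1 140)
    (.seq (asg 36 (.lit 1)) (dbl 36 10)))))

def phase1 : Prog :=
  .seq consts (.seq (argmax 0 2 13) (.seq (argmax 1 3 14) (.seq indexP
    (.seq (asg 28 (.add (minE (.get 2 (V 13)) (.get 3 (V 14))) (V 29)))
      (.seq (forN 11 cellInit) greedy)))))

def findN : Prog :=
  forN 0 (.seq (asg 7 (.add (V 7) (.get 2 ix))) (asg 11 (.add (V 11) (V 1))))

def dl (x c t : ℕ) : Prog :=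
  .loop (V t) (ltE (V x) (V t)) (.seq (asg x (.add (V x) (V x))) (inc c))

def phase0 : Prog :=
  .seq findN (.seq (asg 46 (.lit 1)) (.seq (dl 46 12 7) (.seq (dl 4 8 5)
    (.seq (asg 47 (.add (.add (.add (dbE (V 11)) (V 0)) (V 1))
        (.add (.add (V 12) (V 8)) (.lit 1024))))
      (.seq (asg 10 (.lit 1)) (dl 10 9 47))))))

def sampler : Prog := .seq phase0 (.seq phase1 phase2)

variable {m n : ℕ}

def enc (e : Fin m × Fin n) : ℕ := e.1.val * n + e.2.val

def cell {k : ℕ} (h : k < m * n) : Fin m × Fin n := finProdFinEquiv.symm ⟨k, h⟩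

theorem enc_eq (e : Fin m × Fin n) : enc e = (finProdFinEquiv e).val := by
  simp [enc, finProdFinEquiv]; ring

theorem enc_cell {k : ℕ} (h : k < m * n) : enc (cell h) = k := by
  rw [enc_eq, cell, Equiv.apply_symm_apply]

theorem enc_lt (e : Fin m × Fin n) : enc e < m * n := by rw [enc_eq]; exact Fin.is_lt _

theorem enc_inj {e e' : Fin m × Fin n} : enc e = enc e' ↔ e = e' := by
  rw [enc_eq, enc_eq, Fin.val_inj, finProdFinEquiv.apply_eq_iff_eq]

theorem enc_eq_iff {k : ℕ} (h : k < m * n) (e : Fin m × Fin n) : enc e = k ↔ e = cell h := by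
  rw [← enc_inj, enc_cell]

/-- Sum over the cells with code below `i`. -/
def psum (f : Fin m × Fin n → ℕ) (i : ℕ) : ℕ := ∑ e, if enc e < i then f e else 0

theorem psum_zero (f : Fin m × Fin n → ℕ) : psum f 0 = 0 := by simp [psum]

theorem psum_all (f : Fin m × Fin n → ℕ) : psum f (m * n) = ∑ e, f e := by simp [psum, enc_lt]

theorem psum_succ (f : Fin m × Fin n → ℕ) {i : ℕ} (h : i < m * n) :
    psum f (i + 1) = psum f i + f (cell h) := by
  have : ∀ e, (if enc e < i + 1 then f e else 0)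
      = (if enc e < i then f e else 0) + if e = cell h then f e else 0 := by
    intro e
    rw [← if_congr (enc_eq_iff h e) rfl rfl]
    split_ifs <;> omega
  simp only [psum, this, sum_add_distrib, sum_ite_eq', mem_univ, if_true]

/-- The input arrays and the size registers. -/
structure Par0 (r : Fin m → ℕ) (c : Fin n → ℕ) (L : ℕ) (M : Mem) : Prop where
  r0 : M 0 0 = m
  r1 : M 1 0 = n
  r2 : ∀ i : Fin m, M 2 i.val = r i
  r3 : ∀ j : Fin n, M 3 j.val = c j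
  r7 : M 7 0 = ∑ i, r i
  r9 : M 9 0 = L
  r10 : M 10 0 = 2 ^ L
  r11 : M 11 0 = m * n
  hN : ∑ i, r i ≤ 2 ^ 2 ^ L
  hP : 1024 ≤ 2 ^ L

structure Par (D : Inst m n) (M : Mem) : Prop extends Par0 D.r D.c D.L M where
  r13 : M 13 0 = D.i0.val
  r14 : M 14 0 = D.j0.val
  r15 : ∀ e : Fin m × Fin n, M 15 (enc e) = e.1.val
  r16 : ∀ e : Fin m × Fin n, M 16 (enc e) = e.2.val
  r17 : ∀ e, M 17 (enc e) = D.kap e + D.P ^ 4
  r18 : ∀ e, M 18 (enc e) = D.S e
  r19 : ∀ e, M 19 (enc e) = D.sx e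
  r20 : ∀ e, M 20 (enc e) = D.S e * D.R e
  r28 : M 28 0 = D.Q
  r29 : M 29 0 = D.P ^ 4
  r31 : M 31 0 = D.P ^ 11
  r32 : M 32 0 = D.P ^ 140
  r36 : M 36 0 = 2 ^ D.P

def st0 : List ℕ := [0, 1, 2, 3, 7, 9, 10, 11]
def st1 : List ℕ := st0 ++ [13, 14, 15, 16, 17, 18, 19, 20, 28, 29, 31, 32, 36]

theorem Par0.agree {r : Fin m → ℕ} {c : Fin n → ℕ} {L : ℕ} {M M' : Mem} {W : List ℕ}
    (h : Par0 r c L M) (ha : Agree W M M') (hW : ∀ a ∈ st0, a ∉ W) : Par0 r c L M' := by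
  have e : ∀ a ∈ st0, M' a = M a := fun a h => ha a (hW a h)
  obtain ⟨a0, a1, a2, a3, a7, a9, a10, a11, b1, b2⟩ := h
  refine ⟨?_, ?_, ?_, ?_, ?_, ?_, ?_, ?_, b1, b2⟩ <;> (rw [e _ (by decide)]; assumption)

theorem Par.agree {D : Inst m n} {M M' : Mem} {W : List ℕ} (h : Par D M) (ha : Agree W M M')
    (hW : ∀ a ∈ st1, a ∉ W) : Par D M' := by
  have e : ∀ a ∈ st1, M' a = M a := fun a h => ha a (hW a h)
  obtain ⟨h0, a13, a14, a15, a16, a17, a18, a19, a20, a28, a29, a31, a32, a36⟩ := h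
  refine ⟨h0.agree ha (fun a h => hW a (List.mem_append_left _ h)),
    ?_, ?_, ?_, ?_, ?_, ?_, ?_, ?_, ?_, ?_, ?_, ?_, ?_⟩ <;> (rw [e _ (by decide)]; assumption)

/-- Array `a` holds the table `X`. -/
def RT (a : ℕ) (X : Tab m n) (M : Mem) : Prop := ∀ e, M a (enc e) = X e

theorem RT.agree {a : ℕ} {X : Tab m n} {M M' : Mem} {W : List ℕ} (h : RT a X M)
    (ha : Agree W M M') (hW : a ∉ W) : RT a X M' := by
  intro e; rw [ha a hW]; exact h e

theorem lt_lg_iff {a d i : ℕ} (ha : 0 < a) (h : a * 2 ^ i < d) : i < lg a d := by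
  by_contra hc
  have h1 := lg_spec ha d
  have : a * 2 ^ lg a d ≤ a * 2 ^ i :=
    Nat.mul_le_mul_left _ (Nat.pow_le_pow_right (by norm_num) (by omega))
  omega

theorem loop_guard {k0 : ℕ} (O : Bool → Set (Fin k0) → Prop) (k c : Expr) (p : Prog)
    (I : ℕ → Mem → Prop) (K : ℕ) (M : Mem) (hk : k.val M = K)
    (h : ∀ i < K, ∀ m, I i m → c.val m ≠ 0 → I (i + 1) (exec O p m)) (h0 : I 0 M) :
    ∃ i ≤ K, ∃ M', exec O (.loop k c p) M = M' ∧ I i M' ∧ (i = K ∨ c.val M' = 0) := by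
  obtain ⟨i, hi, h1, h2⟩ := execLoop_guard c (exec O p) I K h M h0
  exact ⟨i, hi, _, by simp only [exec, hk], h1, h2⟩

end Vale.Agent.P328
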