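import Vale.Agent.P317.Defs

/-!
P328: contingency tables and the input and output conventions. The machine is the randomized
random-access machine of P317 (addition, truncated subtraction, fair coins, a clock).
-/

namespace Vale.Agent.P328
open Vale.Agent.P317

/-- The contingency tables with row sums `r` and column sums `c`. -/
def tables {m n : ℕ} (r : Fin m → ℕ) (c : Fin n → ℕ) : Finset (Fin m × Fin n → ℕ) :=
  (Fintype.piFinset fun e => Finset.range (r e.1 + 1)).filter fun X =>
    (∀ i, ∑ j, X (i, j) = r i) ∧ ∀ j, ∑ i, X (i, j) = c j

/-- No oracle is available: the ground set is empty and every query is answered by 0. -/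
def noOracle : Bool → Set (Fin 0) → Prop := fun _ _ => False

/-- Initial memory: `m`, `n` in cell 0 of arrays 0, 1, the row sums in array 2, the column sums in
array 3, numerator and denominator of `ε` in cell 0 of arrays 4, 5; every other cell is zero. -/
def tinput {m n : ℕ} (r : Fin m → ℕ) (c : Fin n → ℕ) (ε : ℚ) : Mem := fun a i =>
  if a = 2 then (if h : i < m then r ⟨i, h⟩ else 0)
  else if a = 3 then (if h : i < n then c ⟨i, h⟩ else 0)
  else if i = 0 then
    (if a = 0 then m else if a = 1 then n else if a = 4 then ε.num.toNat
      else if a = 5 then ε.den else 0)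
  else 0

/-- The output table: entry `(i, j)` is cell `i * n + j` of array 6. -/
def toutput (m n : ℕ) (M : Mem) : Fin m × Fin n → ℕ := fun e => M 6 (e.1.val * n + e.2.val)

/-- The input length of the margins. -/
noncomputable def len {m n : ℕ} (r : Fin m → ℕ) (c : Fin n → ℕ) : ℝ :=
  m + n + ∑ i, Real.logb 2 (r i + 2) + ∑ j, Real.logb 2 (c j + 2)

/-- Total variation distance between a law `μ` carried by the finite set `s` and the uniform law
on `s`. -/
noncomputable def tvUniform {α : Type} (μ : PMF α) (s : Finset α) : ℝ :=
  (1 / 2) * ∑ x ∈ s, |(μ x).toReal - 1 / (s.card : ℝ)|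

end Vale.Agent.P328
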