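import Vale.Agent.P328.BL3
import Vale.Agent.P328.Defs

/-! P328: growth of the number of tables and the total mass of the penalised measure. -/

namespace Vale.Agent.P328
open Finset

variable {m n : ℕ}

theorem mem_tables {r : Fin m → ℕ} {c : Fin n → ℕ} {X : Fin m × Fin n → ℕ} :
    X ∈ tables r c ↔ row X = r ∧ col X = c := by
  simp only [tables, mem_filter, Fintype.mem_piFinset, mem_range, funext_iff, row, col]
  refine ⟨fun h => h.2, fun h => ⟨fun e => ?_, h⟩⟩
  rw [← h.1 e.1]
  exact Nat.lt_succ_of_le (single_le_sum (f := fun j => X (e.1, j)) (fun _ _ => Nat.zero_le _)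
    (mem_univ e.2))

theorem row_add (X Y : Fin m × Fin n → ℕ) : row (X + Y) = row X + row Y := by
  funext i; simp [row, sum_add_distrib]

theorem col_add (X Y : Fin m × Fin n → ℕ) : col (X + Y) = col X + col Y := by
  funext i; simp [col, sum_add_distrib]

theorem row_single (e : Fin m × Fin n) (t : ℕ) : row (Pi.single e t) = Pi.single e.1 t := by
  funext i
  obtain ⟨a, b⟩ := e
  by_cases h : i = a
  · subst h; simp [row, Pi.single_apply]
  · simp [row, Pi.single_apply, h]

theorem col_single (e : Fin m × Fin n) (t : ℕ) : col (Pi.single e t) = Pi.single e.2 t := by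
  funext j
  obtain ⟨a, b⟩ := e
  by_cases h : j = b
  · subst h; simp [col, Pi.single_apply]
  · simp [col, Pi.single_apply, h]

theorem exists_big {k : ℕ} (x : Fin k → ℕ) (s q κ : ℕ) (hk : k ≤ s) (hq : s * (q - 1) ≤ κ)
    (h : κ + 1 ≤ ∑ j, x j) : ∃ j, q ≤ x j := by
  by_contra hcon
  push Not at hcon
  have h1 : ∑ j, x j ≤ ∑ _j : Fin k, (q - 1) := sum_le_sum fun j _ => by have := hcon j; omega
  simp only [sum_const, card_univ, Fintype.card_fin, smul_eq_mul] at h1
  have := Nat.mul_le_mul_right (q - 1) hk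
  omega

theorem growth (r : Fin m → ℕ) (c : Fin n → ℕ) (e : Fin m × Fin n) :
    ((tables (r + Pi.single e.1 1) (c + Pi.single e.2 1)).card : ℝ)
      ≤ (1 + (m * n * (m + n) : ℝ) / (min (r e.1) (c e.2) + 1 : ℕ)) * (tables r c).card := by
  classical
  obtain ⟨i, j⟩ := e
  set κ := min (r i) (c j) with hκ
  set S := tables (r + Pi.single i 1) (c + Pi.single j 1) with hS
  have hmn : 0 < m + n := by have := i.2; omega
  set q := κ / (m + n) + 1 with hq
  have hq1 : (m + n) * (q - 1) ≤ κ := by
    rw [hq, Nat.add_sub_cancel]; exact Nat.mul_div_le _ _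
  have hq2 : κ + 1 ≤ q * (m + n) := by
    have := Nat.lt_div_mul_add (a := κ) hmn
    rw [hq, add_mul]; omega
  have hq0 : 0 < q := Nat.succ_pos _
  clear_value q
  have h1 : (S.filter fun X => ¬ X (i, j) = 0).card ≤ (tables r c).card := by
    have id : ∀ X ∈ S.filter fun X => ¬ X (i, j) = 0,
        X - Pi.single (i, j) 1 + Pi.single (i, j) 1 = X := by
      intro X hX
      have := (mem_filter.1 hX).2
      funext e
      by_cases he : e = (i, j)
      · subst he; simp; omega
      · simp [he]
    refine card_le_card_of_injOn (fun X => X - Pi.single (i, j) 1) ?_ ?_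
    · intro X hX
      have h0 := id X hX
      have h2 := mem_tables.1 (mem_filter.1 hX).1
      rw [← h0, row_add, col_add, row_single, col_single] at h2
      exact mem_tables.2 ⟨add_right_cancel h2.1, add_right_cancel h2.2⟩
    · intro X hX Y hY h
      rw [← id X hX, ← id Y hY]
      exact congrArg (· + Pi.single (i, j) 1) h
  have hk : ∀ X ∈ S, ∃ k, q ≤ X (i, k) := by
    intro X hX
    refine exists_big (fun k => X (i, k)) (m + n) q κ (by omega) hq1 ?_
    have := congrFun (mem_tables.1 hX).1 i
    simp only [row, Pi.add_apply, Pi.single_eq_same] at this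
    omega
  have hl : ∀ X ∈ S, ∃ l, q ≤ X (l, j) := by
    intro X hX
    refine exists_big (fun l => X (l, j)) (m + n) q κ (by omega) hq1 ?_
    have := congrFun (mem_tables.1 hX).2 j
    simp only [col, Pi.add_apply, Pi.single_eq_same] at this
    omega
  have : Nonempty (Fin n) := ⟨j⟩
  have : Nonempty (Fin m) := ⟨i⟩
  choose! k hk using hk
  choose! l hl using hl
  let F : (Fin m × Fin n → ℕ) → ℕ → Fin m × Fin n → ℕ := fun X t =>
    X + Pi.single (i, j) t + Pi.single (l X, k X) (t + 1) - Pi.single (i, k X) (t + 1)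
      - Pi.single (l X, j) (t + 1)
  have hne : ∀ X ∈ S.filter fun X => X (i, j) = 0, k X ≠ j ∧ l X ≠ i := by
    intro X hX
    obtain ⟨a1, a2⟩ := mem_filter.1 hX
    have b1 := hk X a1
    have b2 := hl X a1
    constructor
    · intro h; rw [h] at b1; omega
    · intro h; rw [h] at b2; omega
  have id : ∀ X ∈ S.filter fun X => X (i, j) = 0, ∀ t < q,
      F X t + Pi.single (l X, j) (t + 1) + Pi.single (i, k X) (t + 1)
        = X + Pi.single (i, j) t + Pi.single (l X, k X) (t + 1) := by
    intro X hX t ht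
    obtain ⟨a1, a2⟩ := mem_filter.1 hX
    have b1 := hk X a1
    have b2 := hl X a1
    obtain ⟨c1, c2⟩ := hne X hX
    funext e
    simp only [F, Pi.add_apply, Pi.sub_apply, Pi.single_apply]
    by_cases e1 : e = (i, k X)
    · subst e1; simp [c1, c2.symm]; omega
    · by_cases e2 : e = (l X, j)
      · subst e2; simp [c2, c1.symm]; omega
      · simp [e1, e2]
  have h2 : ((S.filter fun X => X (i, j) = 0) ×ˢ range q).card
      ≤ (tables r c ×ˢ (univ : Finset (Fin m × Fin n))).card := by
    refine card_le_card_of_injOn (fun p => (F p.1 p.2, l p.1, k p.1)) ?_ ?_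
    · rintro ⟨X, t⟩ hp
      obtain ⟨hX, ht⟩ := mem_product.1 hp
      have h0 := id X hX t (mem_range.1 ht)
      have h3 := mem_tables.1 (mem_filter.1 hX).1
      obtain ⟨c1, c2⟩ := hne X hX
      refine mem_product.2 ⟨mem_tables.2 ⟨?_, ?_⟩, mem_univ _⟩
      · have := congrArg row h0
        simp only [row_add, row_single, h3.1] at this
        funext a
        have := congrFun this a
        simp only [Pi.add_apply, Pi.single_apply] at this
        split_ifs at this <;> simp only <;> omega
      · have := congrArg col h0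
        simp only [col_add, col_single, h3.2] at this
        funext a
        have := congrFun this a
        simp only [Pi.add_apply, Pi.single_apply] at this
        split_ifs at this <;> simp only <;> omega
    · rintro ⟨X, t⟩ hp ⟨Y, s⟩ hp' h
      obtain ⟨hX, ht⟩ := mem_product.1 hp
      obtain ⟨hY, hs⟩ := mem_product.1 hp'
      simp only [Prod.mk.injEq] at h
      obtain ⟨g1, g2, g3⟩ := h
      have h0 := id X hX t (mem_range.1 ht)
      have h0' := id Y hY s (mem_range.1 hs)
      obtain ⟨c1, c2⟩ := hne X hX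
      rw [← g1, ← g2, ← g3] at h0'
      have hts : t = s := by
        have a1 := congrFun h0 (i, j)
        have a2 := congrFun h0' (i, j)
        have b1 := (mem_filter.1 hX).2
        have b2 := (mem_filter.1 hY).2
        simp [c1.symm, c2.symm] at a1 a2 b1 b2
        omega
      subst hts
      rw [h0] at h0'
      rw [add_right_cancel (add_right_cancel h0')]
  rw [card_product, card_product, card_range, card_univ, Fintype.card_prod, Fintype.card_fin,
    Fintype.card_fin] at h2
  have h3 := card_filter_add_card_filter_not (s := S) (fun X => X (i, j) = 0)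
  set Z0 := (S.filter fun X => X (i, j) = 0).card
  set Z := (tables r c).card
  have h4 : (Z0 : ℝ) * (κ + 1 : ℕ) ≤ (m * n * (m + n) : ℝ) * Z := by
    have : Z0 * (κ + 1) ≤ m * n * (m + n) * Z := by
      calc Z0 * (κ + 1) ≤ Z0 * (q * (m + n)) := Nat.mul_le_mul_left _ hq2
        _ = Z0 * q * (m + n) := by ring
        _ ≤ Z * (m * n) * (m + n) := Nat.mul_le_mul_right _ h2
        _ = _ := by ring
    exact_mod_cast this
  have h5 : (Z0 : ℝ) ≤ (m * n * (m + n) : ℝ) / (κ + 1 : ℕ) * Z := by
    rw [div_mul_eq_mul_div, le_div_iff₀ (by positivity)]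
    exact h4
  have h6 : (S.card : ℝ) ≤ Z0 + Z := by exact_mod_cast (by omega : S.card ≤ Z0 + Z)
  linarith

/-- Growth factor of a cell. -/
noncomputable def gam (r : Fin m → ℕ) (c : Fin n → ℕ) (e : Fin m × Fin n) : ℝ :=
  1 + (m * n * (m + n) : ℝ) / (min (r e.1) (c e.2) + 1 : ℕ)

theorem one_le_gam (r : Fin m → ℕ) (c : Fin n → ℕ) (e : Fin m × Fin n) : 1 ≤ gam r c e := by
  unfold gam
  have : 0 ≤ (m * n * (m + n) : ℝ) / (min (r e.1) (c e.2) + 1 : ℕ) := by positivity
  linarith

theorem growth_many (r : Fin m → ℕ) (c : Fin n → ℕ) (s : ℕ) : ∀ a : Fin m × Fin n → ℕ, tot a = s →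
    ((tables (r + row a) (c + col a)).card : ℝ) ≤ (∏ e, gam r c e ^ a e) * (tables r c).card := by
  induction s with
  | zero =>
    intro a ha
    have : a = 0 := by
      funext e
      exact (sum_eq_zero_iff.1 ha) e (mem_univ e)
    subst this
    have e1 : row (0 : Fin m × Fin n → ℕ) = 0 := by funext i; simp [row]
    have e2 : col (0 : Fin m × Fin n → ℕ) = 0 := by funext i; simp [col]
    simp [e1, e2]
  | succ s ih =>
    intro a ha
    obtain ⟨e, he⟩ : ∃ e, a e ≠ 0 := by
      by_contra hcon
      push Not at hcon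
      simp [tot, hcon] at ha
    obtain ⟨b, rfl⟩ : ∃ b : Fin m × Fin n → ℕ, a = b + Pi.single e 1 := by
      refine ⟨fun x => a x - (Pi.single e 1 : Fin m × Fin n → ℕ) x, funext fun x => ?_⟩
      rw [Pi.add_apply]
      by_cases hx : x = e
      · subst hx
        rw [Pi.single_eq_same]; omega
      · rw [Pi.single_eq_of_ne hx]; omega
    have hb : tot b = s := by
      simp only [tot, Pi.add_apply, sum_add_distrib, Pi.single_apply, sum_ite_eq', mem_univ,
        if_true] at ha ⊢
      omega
    rw [row_add, col_add, row_single, col_single, ← add_assoc, ← add_assoc]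
    refine (growth _ _ e).trans ?_
    have h1 : 1 + (m * n * (m + n) : ℝ) / (min ((r + row b) e.1) ((c + col b) e.2) + 1 : ℕ)
        ≤ gam r c e := by
      unfold gam
      gcongr <;> simp
    have h2 : ∏ x, gam r c x ^ (b + (Pi.single e 1 : Fin m × Fin n → ℕ)) x
        = gam r c e * ∏ x, gam r c x ^ b x := by
      simp only [Pi.add_apply, pow_add, prod_mul_distrib, Pi.single_apply, pow_ite, pow_one,
        pow_zero, prod_ite_eq', mem_univ, if_true]
      ring
    rw [h2, mul_assoc (gam r c e)]
    exact mul_le_mul h1 (ih b hb) (Nat.cast_nonneg _) (zero_le_one.trans (one_le_gam r c e))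

theorem pow_tele (θ : ℝ) (D : ℕ) : ∀ d ≤ D,
    θ ^ d = ∑ a ∈ range D, (if d ≤ a then (1 - θ) * θ ^ a else 0) + θ ^ D := by
  induction D with
  | zero => intro d hd; simp [Nat.le_zero.1 hd]
  | succ D ih =>
    intro d hd
    rcases Nat.lt_or_ge D d with h | h
    · rw [sum_eq_zero (fun a ha => if_neg (by have := mem_range.1 ha; omega)), zero_add,
        show d = D + 1 by omega]
    · rw [sum_range_succ, if_pos h, ih d h]; ring

theorem mass_one {α : Type} (B : Finset α) (w : α → ℝ) (d : α → ℕ) (θ γ η C : ℝ)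
    (hθ : 0 ≤ θ) (hθ1 : θ ≤ 1) (hγ : 0 ≤ γ) (hη : 0 ≤ η) (hC : 0 ≤ C)
    (h : 1 - θ ≤ (1 + η) * (1 - θ * γ))
    (hw : ∀ a, ∑ X ∈ B, (if d X ≤ a then w X else 0) ≤ γ ^ a * C) :
    ∑ X ∈ B, w X * θ ^ d X ≤ (1 + η) * C := by
  set D := B.sup d
  have e1 : ∑ X ∈ B, w X * θ ^ d X
      = ∑ a ∈ range D, (1 - θ) * θ ^ a * ∑ X ∈ B, (if d X ≤ a then w X else 0)
        + θ ^ D * ∑ X ∈ B, (if d X ≤ D then w X else 0) := by
    simp only [mul_sum]
    rw [sum_comm, ← sum_add_distrib]
    refine sum_congr rfl fun X hX => ?_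
    have hd : d X ≤ D := le_sup (f := d) hX
    rw [pow_tele θ D _ hd, if_pos hd, mul_add, mul_sum, mul_comm (w X) (θ ^ D)]
    congr 1
    exact sum_congr rfl fun a _ => by split_ifs <;> ring
  have e2 : ∑ a ∈ range D, (1 - θ) * θ ^ a * ∑ X ∈ B, (if d X ≤ a then w X else 0)
      ≤ ∑ a ∈ range D, (1 + η) * C * ((θ * γ) ^ a * (1 - θ * γ)) := by
    refine sum_le_sum fun a _ => ?_
    have a1 := mul_le_mul_of_nonneg_left (hw a) (mul_nonneg (sub_nonneg.2 hθ1) (pow_nonneg hθ a))
    have a2 := mul_le_mul_of_nonneg_right h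
      (mul_nonneg (pow_nonneg (mul_nonneg hθ hγ) a) hC)
    rw [mul_pow] at a2 ⊢
    linarith
  rw [← mul_sum, ← sum_mul, geom_sum_mul_neg] at e2
  have e3 := mul_le_mul_of_nonneg_left (hw D) (pow_nonneg hθ D)
  have e4 : 0 ≤ η * C * (θ * γ) ^ D := by positivity
  rw [mul_pow] at e2 e4
  rw [e1]
  linarith

theorem mass_many {α V : Type} [Fintype V] [DecidableEq V] (B : Finset α) (d : V → α → ℕ)
    (θ γ : V → ℝ) (η Z : ℝ) (hθ : ∀ v, 0 ≤ θ v) (hθ1 : ∀ v, θ v ≤ 1) (hγ : ∀ v, 0 ≤ γ v)
    (hη : 0 ≤ η) (hZ : 0 ≤ Z) (s : Finset V) (h : ∀ v ∈ s, 1 - θ v ≤ (1 + η) * (1 - θ v * γ v))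
    (hB : ∀ a : V → ℕ, ((B.filter fun X => ∀ v, d v X ≤ a v).card : ℝ) ≤ (∏ v, γ v ^ a v) * Z) :
    ∀ a : V → ℕ, ∑ X ∈ B, (if ∀ v ∉ s, d v X ≤ a v then ∏ v ∈ s, θ v ^ d v X else 0)
      ≤ (1 + η) ^ s.card * (∏ v ∈ sᶜ, γ v ^ a v) * Z := by
  induction s using Finset.induction_on with
  | empty =>
    intro a
    have := hB a
    rw [card_filter] at this
    simpa using this
  | insert u s hu ih =>
    intro a
    have ih' := ih fun v hv => h v (mem_insert_of_mem hv)
    have key := mass_one B
      (fun X => if ∀ v ∉ insert u s, d v X ≤ a v then ∏ v ∈ s, θ v ^ d v X else 0) (d u)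
      (θ u) (γ u) η ((1 + η) ^ s.card * (∏ v ∈ (insert u s)ᶜ, γ v ^ a v) * Z) (hθ u) (hθ1 u) (hγ u)
      hη (mul_nonneg (mul_nonneg (by positivity) (prod_nonneg fun v _ => pow_nonneg (hγ v) _)) hZ)
      (h u (mem_insert_self _ _)) (by
        intro b
        have := ih' (Function.update a u b)
        have e : ∏ v ∈ sᶜ, γ v ^ Function.update a u b v
            = γ u ^ b * ∏ v ∈ (insert u s)ᶜ, γ v ^ a v := by
          rw [← mul_prod_erase _ _ (mem_compl.2 hu), Function.update_self, compl_insert]
          congr 1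
          exact prod_congr rfl fun v hv => by rw [Function.update_of_ne (ne_of_mem_erase hv)]
        rw [e] at this
        refine le_trans (le_of_eq ?_) (this.trans (le_of_eq (by ring)))
        refine sum_congr rfl fun X _ => ?_
        rw [← ite_and]
        refine if_congr ⟨fun hh v hv => ?_, fun hh => ⟨?_, fun v hv => ?_⟩⟩ rfl rfl
        · by_cases hvu : v = u
          · subst hvu; rw [Function.update_self]; exact hh.1
          · rw [Function.update_of_ne hvu]; exact hh.2 v (by simp [hvu, hv])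
        · have := hh u hu
          rwa [Function.update_self] at this
        · have := hh v (fun h' => hv (mem_insert_of_mem h'))
          rwa [Function.update_of_ne (fun h' : v = u => hv (by rw [h']; exact mem_insert_self _ _))] at this)
    rw [card_insert_of_notMem hu, pow_succ]
    refine le_trans (le_of_eq ?_) (key.trans (le_of_eq (by ring)))
    refine sum_congr rfl fun X _ => ?_
    rw [prod_insert hu]
    split_ifs <;> ring

end Vale.Agent.P328
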