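import Vale.Agent.P328.Model

/-! P328: feasible points and the total mass. -/

namespace Vale.Agent.P328
open Finset Vale.Agent.P317

variable {m n : ℕ}

theorem sum_row (X : Tab m n) : ∑ i, row X i = tot X := by
  simp only [row, tot, Fintype.sum_prod_type]

theorem sum_col (X : Tab m n) : ∑ j, col X j = tot X := by
  simp only [col, tot, Fintype.sum_prod_type_right]

namespace Inst
variable (D : Inst m n)

theorem marg_row {X : Tab m n} (h : D.Z0 X) (i : Fin m) :
    ∑ j, D.pA X (i, j) = ∑ j, D.pB X (i, j) + D.r i := by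
  by_cases hi : i = D.i0
  · subst hi
    have e1 : ∀ j, D.pA X (D.i0, j) = D.c j + if j = D.j0 then tot X + D.r D.i0 else 0 := by
      intro j; by_cases hj : j = D.j0 <;> simp [pA, hj]; omega
    have e2 : ∀ j, D.pB X (D.i0, j) = col X j + if j = D.j0 then D.N else 0 := by
      intro j; by_cases hj : j = D.j0 <;> simp [pB, hj, h.col]
    simp only [e1, e2, sum_add_distrib, sum_ite_eq', mem_univ, if_true, sum_col, ← D.hsum, N]
    omega
  · have e1 : ∀ j, D.pA X (i, j) = X (i, j) + if j = D.j0 then D.r i else 0 := by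
      intro j; by_cases hj : j = D.j0 <;> simp [pA, hj, hi, h (i, D.j0) (Or.inr rfl)]
    have e2 : ∀ j, D.pB X (i, j) = if j = D.j0 then row X i else 0 := by
      intro j; simp [pB, hi]
    simp only [e1, e2, sum_add_distrib, sum_ite_eq', mem_univ, if_true, row]

theorem marg_col {X : Tab m n} (h : D.Z0 X) (j : Fin n) :
    ∑ i, D.pA X (i, j) = ∑ i, D.pB X (i, j) + D.c j := by
  by_cases hj : j = D.j0
  · subst hj
    have e1 : ∀ i, D.pA X (i, D.j0) = D.r i + if i = D.i0 then tot X + D.c D.j0 else 0 := by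
      intro i; by_cases hi : i = D.i0 <;> simp [pA, hi]; omega
    have e2 : ∀ i, D.pB X (i, D.j0) = row X i + if i = D.i0 then D.N else 0 := by
      intro i; by_cases hi : i = D.i0 <;> simp [pB, hi, h.row]
    simp only [e1, e2, sum_add_distrib, sum_ite_eq', mem_univ, if_true, sum_row, N]
    omega
  · have e1 : ∀ i, D.pA X (i, j) = X (i, j) + if i = D.i0 then D.c j else 0 := by
      intro i; by_cases hi : i = D.i0 <;> simp [pA, hj, hi, h (D.i0, j) (Or.inl rfl)]
    have e2 : ∀ i, D.pB X (i, j) = if i = D.i0 then col X j else 0 := by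
      intro i; by_cases hi : i = D.i0 <;> simp [pB, hi, hj]
    simp only [e1, e2, sum_add_distrib, sum_ite_eq', mem_univ, if_true, col]

theorem ext_mem {X : Tab m n} (h : D.Z0 X) (a : Tab m n) (ha : ∀ e, D.dfc X e ≤ a e) :
    (fun e => D.pA X e + a e - D.pB X e) ∈ tables (D.r + row a) (D.c + col a) := by
  have e : ∀ e, D.pA X e + a e - D.pB X e + D.pB X e = D.pA X e + a e := fun e => by
    have := ha e; unfold dfc at this; omega
  refine mem_tables.2 ⟨funext fun i => ?_, funext fun j => ?_⟩
  · have h1 := sum_congr rfl fun j (_ : j ∈ univ) => e (i, j)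
    simp only [sum_add_distrib, D.marg_row h] at h1
    simp only [row, Pi.add_apply]
    omega
  · have h1 := sum_congr rfl fun i (_ : i ∈ univ) => e (i, j)
    simp only [sum_add_distrib, D.marg_col h] at h1
    simp only [col, Pi.add_apply]
    omega

theorem pA_free {X : Tab m n} {e : Fin m × Fin n} (h : ¬ D.fr e) : D.pA X e = X e := by
  unfold fr at h; push Not at h; simp [pA, h.1, h.2]

theorem pB_free {X : Tab m n} {e : Fin m × Fin n} (h : ¬ D.fr e) : D.pB X e = 0 := by
  unfold fr at h; push Not at h; simp [pB, h.1, h.2]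

theorem DD_zero {X : Tab m n} : D.DD X = 0 ↔ ∀ e, D.dfc X e = 0 := by
  simp only [DD, sum_eq_zero_iff, mem_univ, true_imp_iff, mul_eq_zero, (D.upos _).ne', false_or]

theorem cmp_mem {X : Tab m n} (h : D.Z0 X) (h0 : D.DD X = 0) : D.cmp X ∈ tables D.r D.c := by
  have := D.ext_mem h 0 (fun e => (D.DD_zero.1 h0 e).le)
  have e1 : row (0 : Fin m × Fin n → ℕ) = 0 := by funext i; simp [row]
  have e2 : col (0 : Fin m × Fin n → ℕ) = 0 := by funext i; simp [col]
  simp only [e1, e2, add_zero, Pi.zero_apply] at this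
  exact this

theorem sum_feas (ψ : Tab m n → ℝ) :
    ∑ X ∈ D.fine, (if D.DD X = 0 then ψ (D.cmp X) else 0) = ∑ Z ∈ tables D.r D.c, ψ Z := by
  rw [← sum_filter]
  have key : ∀ Z ∈ tables D.r D.c, ∀ e, D.pA (fun e => if D.fr e then 0 else Z e) e
      = Z e + D.pB (fun e => if D.fr e then 0 else Z e) e := by
    intro Z hZ
    obtain ⟨h1, h2⟩ := mem_tables.1 hZ
    set X : Tab m n := fun e => if D.fr e then 0 else Z e with hX
    have z : D.Z0 X := fun e he => if_pos he
    have a1 : ∀ i, i ≠ D.i0 → D.r i = Z (i, D.j0) + row X i := by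
      intro i hi
      have : ∀ j, Z (i, j) = X (i, j) + if j = D.j0 then Z (i, D.j0) else 0 := by
        intro j; by_cases hj : j = D.j0 <;> simp [hX, fr, hi, hj]
      rw [← h1, row, sum_congr rfl fun j _ => this j]
      simp only [sum_add_distrib, sum_ite_eq', mem_univ, if_true, row]
      omega
    have a2 : ∀ j, j ≠ D.j0 → D.c j = Z (D.i0, j) + col X j := by
      intro j hj
      have : ∀ i, Z (i, j) = X (i, j) + if i = D.i0 then Z (D.i0, j) else 0 := by
        intro i; by_cases hi : i = D.i0 <;> simp [hX, fr, hi, hj]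
      rw [← h2, col, sum_congr rfl fun i _ => this i]
      simp only [sum_add_distrib, sum_ite_eq', mem_univ, if_true, col]
      omega
    have a3 : ∀ j, j ≠ D.j0 → D.pA X (D.i0, j) = Z (D.i0, j) + D.pB X (D.i0, j) := by
      intro j hj; simp [pA, pB, hj, a2 j hj]
    rintro ⟨i, j⟩
    by_cases hi : i = D.i0
    · subst hi
      by_cases hj : j = D.j0
      · subst hj
        have b1 := D.marg_row z D.i0
        have b2 := congrFun h1 D.i0
        rw [← add_sum_erase _ _ (mem_univ D.j0), ← add_sum_erase _ _ (mem_univ D.j0),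
          sum_congr rfl fun j hj => a3 j (ne_of_mem_erase hj), sum_add_distrib] at b1
        rw [row, ← add_sum_erase _ _ (mem_univ D.j0)] at b2
        omega
      · exact a3 j hj
    · by_cases hj : j = D.j0
      · subst hj; simp [pA, pB, hi, a1 i hi]
      · simp [pA, pB, hi, hj, hX, fr]
  refine sum_nbij' D.cmp (fun Z e => if D.fr e then 0 else Z e) ?_ ?_ ?_ ?_ (fun _ _ => rfl)
  · intro X hX
    exact D.cmp_mem (D.z0_of_fine (mem_filter.1 hX).1) (mem_filter.1 hX).2
  · intro Z hZ
    refine mem_filter.2 ⟨mem_box.2 fun e => ?_, D.DD_zero.2 fun e => ?_⟩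
    · split_ifs with he
      · exact Nat.mul_pos (D.Spos e) (D.Rpos e)
      · refine lt_of_le_of_lt ?_ (D.kap_lt he)
        obtain ⟨h1, h2⟩ := mem_tables.1 hZ
        refine le_min ?_ ?_
        · rw [← h1]
          exact single_le_sum (f := fun j => Z (e.1, j)) (fun _ _ => Nat.zero_le _) (mem_univ e.2)
        · rw [← h2]
          exact single_le_sum (f := fun j => Z (j, e.2)) (fun _ _ => Nat.zero_le _) (mem_univ e.1)
    · have := key Z hZ e
      unfold dfc; omega
  · intro X hX
    funext e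
    split_ifs with he
    · exact (D.z0_of_fine (mem_filter.1 hX).1 e he).symm
    · simp [cmp, D.pA_free he, D.pB_free he]
  · intro Z hZ
    funext e
    have := key Z hZ e
    unfold cmp; omega

/-- Negative real powers of `P`. -/
noncomputable def pw (x : ℝ) : ℝ := (D.P : ℝ) ^ (-x)

theorem pw_pos (x : ℝ) : 0 < D.pw x := Real.rpow_pos_of_pos (by have := D.PR; linarith) _

theorem pw_add (x y : ℝ) : D.pw (x + y) = D.pw x * D.pw y := by
  unfold pw; rw [neg_add, Real.rpow_add (by have := D.PR; linarith)]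

theorem pw_anti {x y : ℝ} (h : x ≤ y) : D.pw y ≤ D.pw x :=
  Real.rpow_le_rpow_of_exponent_le (by have := D.PR; linarith) (by linarith)

theorem pw_mul (x : ℝ) (k : ℕ) : D.pw (x * k) = D.pw x ^ k := by
  unfold pw; rw [← neg_mul, Real.rpow_mul_natCast (by have := D.PR; linarith)]

theorem pw_nat (k : ℕ) : D.pw k = (1 / (D.P : ℝ)) ^ k := by
  unfold pw; rw [Real.rpow_neg (by have := D.PR; linarith), Real.rpow_natCast, one_div, inv_pow]

theorem pw_zero : D.pw 0 = 1 := by simp [pw]

theorem pw_neg_nat (k : ℕ) : D.pw (-k) = (D.P : ℝ) ^ k := by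
  unfold pw; rw [neg_neg, Real.rpow_natCast]

theorem pw_sum {ι : Type} (s : Finset ι) (x : ι → ℝ) : D.pw (∑ i ∈ s, x i) = ∏ i ∈ s, D.pw (x i) := by
  classical
  induction s using Finset.induction_on with
  | empty => simp [pw_zero]
  | insert a s ha ih => rw [sum_insert ha, prod_insert ha, pw_add, ih]

noncomputable def wv (e : Fin m × Fin n) : ℝ := 8 * (D.P : ℝ) ^ 4 * D.u e / D.Q
noncomputable def th (e : Fin m × Fin n) : ℝ := D.pw (D.wv e)
noncomputable def Phi (X : Tab m n) : ℝ := 8 * (D.P : ℝ) ^ 4 * D.DD X / D.Q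

theorem wv_nonneg (e : Fin m × Fin n) : 0 ≤ D.wv e := by unfold wv; positivity

theorem th_le_one (e : Fin m × Fin n) : D.th e ≤ 1 := by
  rw [← D.pw_zero]; exact D.pw_anti (D.wv_nonneg e)

theorem le_th (e : Fin m × Fin n) : D.pw 16 ≤ D.th e := by
  refine D.pw_anti ?_
  have : (0 : ℝ) < D.Q := by exact_mod_cast D.Qpos
  rw [wv, div_le_iff₀ this]
  exact_mod_cast D.u_16 e

theorem w3 (e : Fin m × Fin n) :
    1 - D.th e ≤ (1 + 1 / (D.P : ℝ)) * (1 - D.th e * gam D.r D.c e) := by
  have hP := D.PR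
  have hQ : (0 : ℝ) < D.Q := by exact_mod_cast D.Qpos
  set k : ℝ := (D.kap e : ℝ) with hk
  have k0 : 0 ≤ k := Nat.cast_nonneg _
  set p : ℝ := (D.P : ℝ) with hp
  have hw : 8 * p ^ 4 / (k + p ^ 4) ≤ D.wv e := by
    rw [wv, div_le_div_iff₀ (by positivity) hQ, mul_assoc (8 * p ^ 4)]
    refine mul_le_mul_of_nonneg_left ?_ (by positivity)
    have := D.u_lo e
    rw [mul_comm] at this
    rw [hk, hp]
    exact_mod_cast this
  set g : ℝ := (m * n * (m + n) : ℝ) / (k + 1) with hg
  have eg : gam D.r D.c e = 1 + g := by simp [gam, hg, hk, kap]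
  have hM : (m * n * (m + n) : ℝ) * (p + 1) ≤ p ^ 3 := by
    have a1 : (2 * (m * n) : ℝ) ≤ p := by rw [hp]; exact_mod_cast D.Pmn
    have a2 : (m + n : ℝ) ≤ p := by rw [hp]; exact_mod_cast D.Pmn'
    have a3 : (m * n * (m + n) : ℝ) ≤ p / 2 * p :=
      mul_le_mul (by linarith) a2 (by positivity) (by positivity)
    have a4 := mul_le_mul_of_nonneg_right a3 (show 0 ≤ p + 1 by linarith)
    nlinarith
  have hg1 : g * (p + 1) ≤ p ^ 3 / (k + 1) := by
    rw [hg, div_mul_eq_mul_div]; gcongr
  have main : 1 + p ^ 3 / (k + 1) ≤ p ^ D.wv e := by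
    by_cases hc : k + 1 ≤ p ^ 4
    · have a1 : (4 : ℝ) ≤ D.wv e := by
        refine le_trans ?_ hw
        rw [le_div_iff₀ (by positivity)]; linarith
      have a2 := Real.rpow_le_rpow_of_exponent_le (show 1 ≤ p by linarith) a1
      rw [show (4 : ℝ) = (4 : ℕ) by norm_num, Real.rpow_natCast] at a2
      have a3 : p ^ 3 / (k + 1) ≤ p ^ 3 := div_le_self (by positivity) (by linarith)
      have a4 : 1 ≤ p ^ 3 := one_le_pow₀ (by linarith)
      nlinarith
    · push Not at hc
      have a1 : p ^ 3 / (k + 1) ≤ D.wv e := by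
        refine le_trans ?_ hw
        rw [div_le_div_iff₀ (by positivity) (by positivity)]
        have a4 : p ^ 3 ≤ p ^ 4 := pow_le_pow_right₀ (by linarith) (by norm_num)
        have a5 : 0 ≤ p ^ 3 := by positivity
        nlinarith
      have a2 : 1 ≤ Real.log p := by
        rw [Real.le_log_iff_exp_le (by linarith)]
        have := Real.exp_one_lt_d9
        linarith
      rw [Real.rpow_def_of_pos (by linarith)]
      have a3 := Real.add_one_le_exp (Real.log p * D.wv e)
      have := D.wv_nonneg e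
      nlinarith
  have tp : D.th e * p ^ D.wv e = 1 := by
    rw [th, pw, ← hp, ← Real.rpow_add (by linarith)]; simp
  have t0 : 0 < D.th e := D.pw_pos _
  have fin : D.th e * (g * (p + 1) + 1) ≤ 1 := by
    exact (mul_le_mul_of_nonneg_left (by linarith) t0.le).trans tp.le
  rw [eg]
  have e2 : (1 + 1 / p) * (1 - D.th e * (1 + g)) - (1 - D.th e)
      = (1 - D.th e * (g * (p + 1) + 1)) / p := by field_simp; ring
  have : 0 ≤ (1 - D.th e * (g * (p + 1) + 1)) / p := div_nonneg (by linarith) (by linarith)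
  linarith

theorem pw_Phi (X : Tab m n) : D.pw (D.Phi X) = ∏ e, D.th e ^ D.dfc X e := by
  have : D.Phi X = ∑ e, D.wv e * D.dfc X e := by
    simp only [Phi, DD, wv, Nat.cast_sum, Nat.cast_mul, mul_sum, sum_div]
    exact sum_congr rfl fun e _ => by ring
  rw [this, pw_sum]
  exact prod_congr rfl fun e _ => D.pw_mul _ _

theorem mass : ∑ X ∈ D.fine, D.pw (D.Phi X) ≤ 3 * (tables D.r D.c).card := by
  have hP := D.PR
  have := mass_many D.fine (fun v X => D.dfc X v) D.th (gam D.r D.c) (1 / D.P)
    (tables D.r D.c).card (fun v => (D.pw_pos _).le) D.th_le_one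
    (fun v => zero_le_one.trans (one_le_gam _ _ v)) (by positivity) (Nat.cast_nonneg _) univ
    (fun v _ => D.w3 v) (by
      intro a
      refine le_trans ?_ (growth_many D.r D.c _ a rfl)
      refine Nat.cast_le.2 (card_le_card_of_injOn (fun X e => D.pA X e + a e - D.pB X e) ?_ ?_)
      · intro X hX
        exact D.ext_mem (D.z0_of_fine (mem_filter.1 hX).1) a (mem_filter.1 hX).2
      · intro X hX Y hY h
        funext e
        by_cases he : D.fr e
        · rw [D.z0_of_fine (mem_filter.1 hX).1 e he, D.z0_of_fine (mem_filter.1 hY).1 e he]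
        · have := congrFun h e
          simp only [D.pA_free he, D.pB_free he] at this
          omega) 0
  simp only [mem_univ, not_true_eq_false, false_imp_iff, implies_true, if_true, compl_univ,
    prod_empty, mul_one, card_univ, Fintype.card_prod, Fintype.card_fin] at this
  simp only [pw_Phi]
  refine this.trans (mul_le_mul_of_nonneg_right ?_ (Nat.cast_nonneg _))
  have a1 : (1 + 1 / (D.P : ℝ)) ^ (m * n) ≤ Real.exp (1 / (D.P : ℝ)) ^ (m * n) :=
    pow_le_pow_left₀ (by positivity) (by linarith [Real.add_one_le_exp (1 / (D.P : ℝ))]) _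
  rw [← Real.exp_nat_mul] at a1
  have a2 : ((m * n : ℕ) : ℝ) * (1 / (D.P : ℝ)) ≤ 1 := by
    rw [mul_one_div, div_le_one (by linarith)]
    have := D.Pmn
    exact_mod_cast (by omega : m * n ≤ D.P)
  have a3 := Real.exp_le_exp.2 a2
  have := Real.exp_one_lt_d9
  linarith

end Inst

end Vale.Agent.P328
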