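import Vale.Agent.P328.Feas

/-! P328: Lipschitz bounds for the energy. -/

namespace Vale.Agent.P328
open Finset Vale.Agent.P317

variable {m n : ℕ}

theorem tot_add (X Y : Tab m n) : tot (X + Y) = tot X + tot Y := by simp [tot, sum_add_distrib]

namespace Inst
variable (D : Inst m n)

noncomputable def U (e : Fin m × Fin n) : ℕ := D.u (e.1, D.j0) + D.u (D.i0, e.2) + D.u (D.i0, D.j0)
noncomputable def Lam (ρ : Tab m n) : ℕ := ∑ e, ρ e * D.U e

theorem Lam_eq (ρ : Tab m n) : D.Lam ρ = ∑ i, D.u (i, D.j0) * row ρ i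
    + ∑ j, D.u (D.i0, j) * col ρ j + D.u (D.i0, D.j0) * tot ρ := by
  simp only [Lam, U, mul_add, sum_add_distrib, row, col, tot, mul_sum]
  rw [Fintype.sum_prod_type, Fintype.sum_prod_type_right]
  simp only [mul_comm]

theorem Z0.add {D : Inst m n} {X Y : Tab m n} (h : D.Z0 X) (h' : D.Z0 Y) : D.Z0 (X + Y) :=
  fun e he => by simp [h e he, h' e he]

theorem lip {X ρ : Tab m n} (h : D.Z0 X) (h' : D.Z0 ρ) :
    D.DD (X + ρ) ≤ D.DD X + D.Lam ρ ∧ D.DD X ≤ D.DD (X + ρ) + D.Lam ρ := by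
  rw [D.DD_eq h, D.DD_eq (h.add h'), Lam_eq, row_add, col_add, tot_add]
  have a1 : ∑ i, D.u (i, D.j0) * ((row X + row ρ) i - D.r i)
      ≤ ∑ i, D.u (i, D.j0) * (row X i - D.r i) + ∑ i, D.u (i, D.j0) * row ρ i := by
    rw [← sum_add_distrib]
    refine sum_le_sum fun i _ => ?_
    rw [← mul_add]; exact Nat.mul_le_mul_left _ (by simp only [Pi.add_apply]; omega)
  have a2 : ∑ i, D.u (i, D.j0) * (row X i - D.r i)
      ≤ ∑ i, D.u (i, D.j0) * ((row X + row ρ) i - D.r i) :=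
    sum_le_sum fun i _ => Nat.mul_le_mul_left _ (by simp only [Pi.add_apply]; omega)
  have a3 : ∑ i, D.u (D.i0, i) * ((col X + col ρ) i - D.c i)
      ≤ ∑ i, D.u (D.i0, i) * (col X i - D.c i) + ∑ i, D.u (D.i0, i) * col ρ i := by
    rw [← sum_add_distrib]
    refine sum_le_sum fun i _ => ?_
    rw [← mul_add]; exact Nat.mul_le_mul_left _ (by simp only [Pi.add_apply]; omega)
  have a4 : ∑ i, D.u (D.i0, i) * (col X i - D.c i)
      ≤ ∑ i, D.u (D.i0, i) * ((col X + col ρ) i - D.c i) :=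
    sum_le_sum fun i _ => Nat.mul_le_mul_left _ (by simp only [Pi.add_apply]; omega)
  have a5 : D.u (D.i0, D.j0) * (D.N - (tot X + tot ρ + D.r D.i0 + D.c D.j0))
      ≤ D.u (D.i0, D.j0) * (D.N - (tot X + D.r D.i0 + D.c D.j0)) :=
    Nat.mul_le_mul_left _ (by omega)
  have a6 : D.u (D.i0, D.j0) * (D.N - (tot X + D.r D.i0 + D.c D.j0))
      ≤ D.u (D.i0, D.j0) * (D.N - (tot X + tot ρ + D.r D.i0 + D.c D.j0))
        + D.u (D.i0, D.j0) * tot ρ := by
    rw [← mul_add]; exact Nat.mul_le_mul_left _ (by omega)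
  omega

theorem US_48 (e : Fin m × Fin n) : 8 * D.P ^ 4 * (D.S e * D.U e) ≤ 48 * D.Q := by
  have a1 := D.uS_16 _ e (D.kap_le1 e)
  have a2 := D.uS_16 _ e (D.kap_le2 e)
  have a3 := D.uS_16 _ e (D.kap_le e)
  have : 8 * D.P ^ 4 * (D.S e * D.U e) = 8 * D.P ^ 4 * D.u (e.1, D.j0) * D.S e
    + 8 * D.P ^ 4 * D.u (D.i0, e.2) * D.S e + 8 * D.P ^ 4 * D.u (D.i0, D.j0) * D.S e := by
    unfold U; ring
  omega

theorem block_small {ρ : Tab m n} (h : ρ ∈ box D.S) : 8 * D.P ^ 4 * D.Lam ρ < D.Q := by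
  have a : ∀ e ∈ (univ : Finset (Fin m × Fin n)),
      D.P ^ 5 * (8 * D.P ^ 4 * (ρ e * D.U e)) ≤ 96 * D.Q := by
    intro e _
    have h1 := mem_box.1 h e
    by_cases hS : D.S e = 1
    · rw [show ρ e = 0 by omega]; simp
    · have a1 := D.uS_small _ e (D.kap_le1 e) hS
      have a2 := D.uS_small _ e (D.kap_le2 e) hS
      have a3 := D.uS_small _ e (D.kap_le e) hS
      have : D.P ^ 5 * (8 * D.P ^ 4 * (D.S e * D.U e))
          = D.P ^ 5 * (8 * D.P ^ 4 * D.u (e.1, D.j0) * D.S e)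
          + D.P ^ 5 * (8 * D.P ^ 4 * D.u (D.i0, e.2) * D.S e)
          + D.P ^ 5 * (8 * D.P ^ 4 * D.u (D.i0, D.j0) * D.S e) := by unfold U; ring
      have b : D.P ^ 5 * (8 * D.P ^ 4 * (ρ e * D.U e))
          ≤ D.P ^ 5 * (8 * D.P ^ 4 * (D.S e * D.U e)) := by gcongr
      omega
  have b := sum_le_card_nsmul _ _ _ a
  rw [← mul_sum, ← mul_sum, card_univ, Fintype.card_prod, Fintype.card_fin, Fintype.card_fin,
    smul_eq_mul] at b
  refine lt_of_mul_lt_mul_left (lt_of_le_of_lt b ?_) (Nat.zero_le _)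
  rw [← mul_assoc]
  refine Nat.mul_lt_mul_of_pos_right ?_ D.Qpos
  have h1 := D.Pmn
  have h2 := D.P64
  have h3 : D.P * D.P ≤ D.P ^ 5 := by
    rw [← sq]; exact Nat.pow_le_pow_right D.Ppos (by norm_num)
  nlinarith

theorem z0_cor {Y : Tab m n} (h : Y ∈ box D.R) : D.Z0 (D.cor Y) := by
  intro e he
  have := mem_box.1 h e
  rw [D.R_fr he] at this
  simp [cor, show Y e = 0 by omega]

theorem z0_low {ρ : Tab m n} (h : ρ ∈ box D.S) : D.Z0 ρ := by
  intro e he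
  have := mem_box.1 h e
  rw [D.S_fr he] at this
  omega

theorem En_le {Y : Tab m n} (h : Y ∈ box D.R) : D.En (D.cor Y) ≤ D.P ^ 11 := by
  have z : D.Z0 0 := fun _ _ => rfl
  have a1 := (D.lip z (D.z0_cor h)).1
  rw [zero_add, D.DD_eq z] at a1
  have e1 : row (0 : Tab m n) = 0 := by funext i; simp [row]
  have e2 : col (0 : Tab m n) = 0 := by funext i; simp [col]
  simp only [e1, e2, Pi.zero_apply, Nat.zero_sub, mul_zero, sum_const_zero, zero_add] at a1
  have a2 : D.u (D.i0, D.j0) * (D.N - (tot (0 : Tab m n) + D.r D.i0 + D.c D.j0))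
      ≤ D.P * (2 * D.Q) := by
    calc _ ≤ D.u (D.i0, D.j0) * (D.P * (D.kap (D.i0, D.j0) + D.P ^ 4)) :=
          Nat.mul_le_mul_left _ ((Nat.sub_le _ _).trans (D.N_le.trans
            (Nat.mul_le_mul_left _ (Nat.le_add_right _ _))))
      _ = D.P * ((D.kap (D.i0, D.j0) + D.P ^ 4) * D.u (D.i0, D.j0)) := by ring
      _ ≤ _ := Nat.mul_le_mul_left _ (D.u_hi _)
  have a : ∀ e ∈ (univ : Finset (Fin m × Fin n)),
      8 * D.P ^ 4 * (D.cor Y e * D.U e) ≤ D.P ^ 9 * (48 * D.Q) := by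
    intro e _
    have h1 := (mem_box.1 h e).le.trans (D.R_le e)
    calc _ = Y e * (8 * D.P ^ 4 * (D.S e * D.U e)) := by unfold cor; ring
      _ ≤ _ := Nat.mul_le_mul h1 (D.US_48 e)
  have b := sum_le_card_nsmul _ _ _ a
  rw [← mul_sum, card_univ, Fintype.card_prod, Fintype.card_fin, Fintype.card_fin,
    smul_eq_mul] at b
  refine Nat.div_le_of_le_mul ?_
  have c1 : 8 * D.P ^ 4 * D.DD (D.cor Y) ≤ 8 * D.P ^ 4 * (D.P * (2 * D.Q))
      + 8 * D.P ^ 4 * D.Lam (D.cor Y) := by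
    rw [← mul_add]; exact Nat.mul_le_mul_left _ (by omega)
  have h1 := D.Pmn
  have h2 := D.P64
  have c2 : m * n * (D.P ^ 9 * (48 * D.Q)) ≤ D.P * (D.P ^ 9 * (24 * D.Q)) := by
    calc _ = 2 * (m * n) * (D.P ^ 9 * (24 * D.Q)) := by ring
      _ ≤ _ := Nat.mul_le_mul_right _ h1
  have c3 : D.P ^ 5 ≤ D.P ^ 10 := Nat.pow_le_pow_right D.Ppos (by norm_num)
  have c4 : 40 * D.P ^ 10 ≤ D.P ^ 11 := by
    rw [pow_succ D.P 10, mul_comm]; exact Nat.mul_le_mul_left _ (by omega)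
  unfold Lam at c1
  calc _ ≤ 8 * D.P ^ 4 * (D.P * (2 * D.Q)) + D.P * (D.P ^ 9 * (24 * D.Q)) := by omega
    _ = D.Q * (16 * D.P ^ 5 + 24 * D.P ^ 10) := by ring
    _ ≤ _ := Nat.mul_le_mul_left _ (by omega)

theorem cor_up (Y : Tab m n) (e : Fin m × Fin n) :
    D.cor (Function.update Y e (Y e + 1)) = D.cor Y + Pi.single e (D.S e) := by
  funext x
  by_cases hx : x = e
  · subst hx; simp [cor, mul_add]
  · simp [cor, hx]

theorem En_up {Y : Tab m n} (h : Y ∈ box D.R) {e : Fin m × Fin n} (he : Y e + 1 < D.R e) :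
    D.En (D.cor (Function.update Y e (Y e + 1))) ≤ D.En (D.cor Y) + 48 ∧
      D.En (D.cor Y) ≤ D.En (D.cor (Function.update Y e (Y e + 1))) + 48 := by
  have z : D.Z0 (Pi.single e (D.S e)) := by
    intro x hx
    have : x ≠ e := by
      rintro rfl
      rw [D.R_fr hx] at he; omega
    simp [this]
  obtain ⟨a1, a2⟩ := D.lip (D.z0_cor h) z
  have e1 : D.Lam (Pi.single e (D.S e)) = D.S e * D.U e := by
    simp [Lam, Pi.single_apply]
  rw [e1] at a1 a2
  have b := D.US_48 e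
  rw [cor_up]
  unfold En
  have b1 := Nat.mul_le_mul_left (8 * D.P ^ 4) a1
  have b2 := Nat.mul_le_mul_left (8 * D.P ^ 4) a2
  rw [mul_add] at b1 b2
  constructor
  · rw [← Nat.add_mul_div_right _ _ D.Qpos]; exact Nat.div_le_div_right (by omega)
  · rw [← Nat.add_mul_div_right _ _ D.Qpos]; exact Nat.div_le_div_right (by omega)

theorem W_eq (Y : Tab m n) : D.W Y = D.pw (D.En (D.cor Y)) := (D.pw_nat _).symm

theorem W_pos (Y : Tab m n) : 0 < D.W Y := by rw [W_eq]; exact D.pw_pos _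

theorem W_le_one (Y : Tab m n) : D.W Y ≤ 1 := by
  rw [W_eq, ← D.pw_zero]; exact D.pw_anti (Nat.cast_nonneg _)

theorem cmp_W {Y ρ : Tab m n} (h : Y ∈ box D.R) (h' : ρ ∈ box D.S) :
    D.W Y ≤ (D.P : ℝ) ^ 2 * D.pw (D.Phi (D.cor Y + ρ)) ∧
      D.pw (D.Phi (D.cor Y + ρ)) ≤ D.P * D.W Y := by
  obtain ⟨a1, a2⟩ := D.lip (D.z0_cor h) (D.z0_low h')
  have b := D.block_small h'
  have b1 := Nat.mul_le_mul_left (8 * D.P ^ 4) a1
  have b2 := Nat.mul_le_mul_left (8 * D.P ^ 4) a2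
  rw [mul_add] at b1 b2
  have c1 := Nat.lt_div_mul_add (a := 8 * D.P ^ 4 * D.DD (D.cor Y)) D.Qpos
  have c2 := Nat.div_mul_le_self (8 * D.P ^ 4 * D.DD (D.cor Y)) D.Q
  have hQ : (0 : ℝ) < D.Q := by exact_mod_cast D.Qpos
  rw [W_eq]
  constructor
  · rw [← D.pw_neg_nat, ← pw_add]
    refine D.pw_anti ?_
    rw [neg_add_le_iff_le_add, Phi, div_le_iff₀ hQ]
    have : 8 * D.P ^ 4 * D.DD (D.cor Y + ρ) ≤ (2 + D.En (D.cor Y)) * D.Q := by
      unfold En; rw [add_mul]; omega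
    exact_mod_cast this
  · have := D.pw_neg_nat 1
    rw [pow_one] at this
    rw [← this, ← pw_add]
    refine D.pw_anti ?_
    rw [neg_add_le_iff_le_add, Phi, add_div' _ _ _ hQ.ne', le_div_iff₀ hQ]
    have : D.En (D.cor Y) * D.Q ≤ 1 * D.Q + 8 * D.P ^ 4 * D.DD (D.cor Y + ρ) := by
      unfold En; omega
    exact_mod_cast this

theorem W_one {Y ρ : Tab m n} (h : Y ∈ box D.R) (h' : ρ ∈ box D.S) (h0 : D.DD (D.cor Y + ρ) = 0) :
    D.W Y = 1 := by
  obtain ⟨-, a2⟩ := D.lip (D.z0_cor h) (D.z0_low h')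
  have b := D.block_small h'
  rw [h0, zero_add] at a2
  have b2 := Nat.mul_le_mul_left (8 * D.P ^ 4) a2
  have : D.En (D.cor Y) = 0 := Nat.div_eq_of_lt (by omega)
  simp [W, this]

theorem W_acc (Y Y' : Tab m n) : D.W Y * D.acc Y Y' = min (D.W Y) (D.W Y') := by
  have hP := D.PR
  have h1 : 1 / (D.P : ℝ) ≤ 1 := by rw [div_le_one (by linarith)]; linarith
  unfold W acc
  rcases le_total (D.En (D.cor Y)) (D.En (D.cor Y')) with h | h
  · rw [← pow_add, Nat.add_sub_cancel' h, min_eq_right (pow_le_pow_of_le_one (by positivity) h1 h)]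
  · rw [Nat.sub_eq_zero_of_le h, min_eq_left (pow_le_pow_of_le_one (by positivity) h1 h)]; simp

theorem acc_nonneg (Y Y' : Tab m n) : 0 ≤ D.acc Y Y' := by unfold acc; positivity

theorem acc_le_one (Y Y' : Tab m n) : D.acc Y Y' ≤ 1 := by
  have hP := D.PR
  exact pow_le_one₀ (by positivity) (by rw [div_le_one (by linarith)]; linarith)

theorem mv_mem {Y : Tab m n} (h : Y ∈ box D.R) (k : (Fin m × Fin n) × Bool) : D.mv k Y ∈ box D.R := by
  obtain ⟨e, b⟩ := k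
  refine mem_box.2 fun x => ?_
  have := mem_box.1 h x
  cases b
  · by_cases hx : x = e
    · subst hx; simp [mv]; omega
    · simp [mv, hx, this]
  · simp only [mv, cond_true]
    split_ifs with h1
    · by_cases hx : x = e
      · subst hx; simpa using h1
      · simp [hx, this]
    · exact this

theorem swap (F : Tab m n → Tab m n → ℝ) :
    ∑ x ∈ box D.R, ∑ k, F x (D.mv k x) = ∑ x ∈ box D.R, ∑ k, F (D.mv k x) x := by
  refine swap_of_inv _ D.mv (fun Y k => (k.1, bif k.2 then decide (¬ Y k.1 + 1 < D.R k.1)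
    else decide (0 < Y k.1))) (fun x hx k => D.mv_mem hx k) ?_ ?_ F
  · rintro Y hY ⟨e, _ | _⟩
    · have := mem_box.1 hY e
      by_cases h : 0 < Y e
      · simp [mv, h, show Y e - 1 + 1 = Y e by omega, this]
      · simp [mv, show Y e = 0 by omega]
    · by_cases h : Y e + 1 < D.R e
      · simp [mv, h]
      · simp [mv, h]
  · rintro Y hY ⟨e, _ | _⟩
    · have := mem_box.1 hY e
      by_cases h : 0 < Y e
      · simp [mv, h, show Y e - 1 + 1 = Y e by omega, this]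
      · simp [mv, show Y e = 0 by omega]
    · by_cases h : Y e + 1 < D.R e
      · simp [mv, h]
      · simp [mv, h]

end Inst

end Vale.Agent.P328
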