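import Vale.Agent.P317.Lor

/-! P328: the signed Lorentzian theorem for tensors with a down-closed support and a cone point. -/

namespace Vale.Agent.P328
open Finset Vale.Agent.P317

variable {Y : Type} [Fintype Y]

theorem stepZ {Q : Y → Y → ℝ} (hs : ∀ a b, Q a b = Q b a) (hq : ∀ a b, 0 ≤ Q a b) {v : Y → ℝ}
    (hv : ∀ y, 0 < v y) (r : Y → ℝ) (R : ℝ) (w0 : Y) (act : Y → Prop)
    (h1 : ∀ a, act a → 0 < Q w0 a) (h2 : ∀ a, ¬ act a → (∀ b, Q a b = 0) ∧ r a = 0)
    (hw0 : act w0)
    (h : ∀ (c : Y → ℝ) (t : ℝ), qf Q c c + 2 * t * dot r c - t ^ 2 * R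
      ≤ ∑ a, (∑ b, Q a b * c b + t * r a) ^ 2 / ((∑ b, Q a b * v b) / v a))
    (c : Y → ℝ) (t : ℝ) (hc : dot (fun a => ∑ b, Q a b * v b) c + dot r v * t = 0) :
    qf Q c c + 2 * t * dot r c - t ^ 2 * R ≤ 0 := by
  classical
  let D0 : Y → ℝ := fun a => (∑ b, Q a b * v b) / v a
  let D : Y → ℝ := fun a => if act a then D0 a else 1
  have hQv : ∀ a, act a → 0 < ∑ b, Q a b * v b := fun a ha =>
    lt_of_lt_of_le (mul_pos (hs a w0 ▸ h1 a ha) (hv w0))
      (single_le_sum (f := fun b => Q a b * v b) (fun b _ => mul_nonneg (hq a b) (hv b).le)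
        (mem_univ w0))
  have hD : ∀ a, 0 < D a := fun a => by
    simp only [D]
    split_ifs with ha
    · exact div_pos (hQv a ha) (hv a)
    · exact one_pos
  have hz : ∀ a, ¬ act a → ∀ x : Y → ℝ, ∑ b, Q a b * x b = 0 := fun a ha x => by
    simp [(h2 a ha).1]
  have hD0 : ∀ a, ¬ act a → D0 a = 0 := fun a ha => by simp only [D0, hz a ha, zero_div]
  have hDv : ∀ a, D0 a * v a = ∑ b, Q a b * v b := fun a => div_mul_cancel₀ _ (hv a).ne'
  have hDD : ∀ a, D a = D0 a + if act a then 0 else 1 := fun a => by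
    simp only [D]
    split_ifs with ha
    · simp
    · simp [hD0 a ha]
  have hsplit : ∀ x : Y → ℝ, ∑ a, D a * x a ^ 2
      = ∑ a, D0 a * x a ^ 2 + ∑ a, (if act a then 0 else 1) * x a ^ 2 := by
    intro x
    rw [← sum_add_distrib]
    exact sum_congr rfl fun a _ => by rw [hDD]; ring
  have hin : ∀ (x : Y → ℝ) a, 0 ≤ (if act a then (0 : ℝ) else 1) * x a ^ 2 := fun x a =>
    mul_nonneg (by split_ifs <;> norm_num) (sq_nonneg _)
  have hnn : ∀ (x : Y → ℝ) a b, 0 ≤ Q a b * v a * v b * (x a / v a - x b / v b) ^ 2 :=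
    fun x a b => mul_nonneg (mul_nonneg (mul_nonneg (hq a b) (hv a).le) (hv b).le) (sq_nonneg _)
  have hpsd : ∀ x : Y → ℝ, qf Q x x ≤ ∑ a, D a * x a ^ 2 := by
    intro x
    have k1 := Lo.diag_sub hs hv x
    have k2 : 0 ≤ ∑ a, ∑ b, Q a b * v a * v b * (x a / v a - x b / v b) ^ 2 :=
      sum_nonneg fun a _ => sum_nonneg fun b _ => hnn x a b
    have k3 : 0 ≤ ∑ a, (if act a then (0 : ℝ) else 1) * x a ^ 2 := sum_nonneg fun a _ => hin x a
    rw [hsplit]
    simp only [D0]
    linarith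
  let L : (Y → ℝ) →ₗ[ℝ] (Y → ℝ) :=
    { toFun := fun x a => D a * x a - ∑ b, Q a b * x b + D0 a * v a * ∑ b, D0 b * v b * x b
      map_add' := fun x y => by
        funext a
        simp only [Pi.add_apply, mul_add, sum_add_distrib]; ring
      map_smul' := fun k x => by
        funext a
        have e1 : ∑ b, Q a b * (k * x b) = k * ∑ b, Q a b * x b := by
          rw [mul_sum]; exact sum_congr rfl fun b _ => by ring
        have e2 : ∑ b, D0 b * v b * (k * x b) = k * ∑ b, D0 b * v b * x b := by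
          rw [mul_sum]; exact sum_congr rfl fun b _ => by ring
        simp only [Pi.smul_apply, smul_eq_mul, RingHom.id_apply, e1, e2]; ring }
  have hL : ∀ x a, L x a = D a * x a - ∑ b, Q a b * x b + D0 a * v a * ∑ b, D0 b * v b * x b :=
    fun _ _ => rfl
  have hpair : ∀ x y : Y → ℝ, ∑ a, y a * L x a = ∑ a, D a * (y a * x a) - qf Q y x
      + (∑ b, D0 b * v b * y b) * ∑ b, D0 b * v b * x b := by
    intro x y
    rw [Lo.qf_eq, sum_mul, ← sum_sub_distrib, ← sum_add_distrib]
    exact sum_congr rfl fun a _ => by rw [hL]; ring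
  have hvv : 0 < ∑ b, D0 b * v b * v b := by
    refine lt_of_lt_of_le ?_ (single_le_sum (f := fun b => D0 b * v b * v b) (fun b _ => ?_)
      (mem_univ w0))
    · simp only [hDv]; exact mul_pos (hQv w0 hw0) (hv w0)
    · simp only [hDv]
      exact mul_nonneg (sum_nonneg fun a _ => mul_nonneg (hq b a) (hv a).le) (hv b).le
  have hinj : Function.Injective L := by
    rw [injective_iff_map_eq_zero]
    intro x hx
    have k1 := hpair x x
    simp only [hx, Pi.zero_apply, mul_zero, sum_const_zero, ← sq] at k1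
    rw [hsplit] at k1
    have k2 : 0 ≤ ∑ a, ∑ b, Q a b * v a * v b * (x a / v a - x b / v b) ^ 2 :=
      sum_nonneg fun a _ => sum_nonneg fun b _ => hnn x a b
    have k3 : 0 ≤ ∑ a, (if act a then (0 : ℝ) else 1) * x a ^ 2 := sum_nonneg fun a _ => hin x a
    have k4 := Lo.diag_sub hs hv x
    have k5 := sq_nonneg (∑ b, D0 b * v b * x b)
    simp only [D0] at k1 k5
    have h3 : (∑ b, D0 b * v b * x b) ^ 2 = 0 := by simp only [D0]; linarith
    have h5 : ∑ a, ∑ b, Q a b * v a * v b * (x a / v a - x b / v b) ^ 2 = 0 := by linarith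
    have h5' : ∑ a, (if act a then (0 : ℝ) else 1) * x a ^ 2 = 0 := by linarith
    have h6 : ∀ b, act b → x b = x w0 / v w0 * v b := by
      intro b hb
      have a1 := (sum_eq_zero_iff_of_nonneg fun a _ => sum_nonneg fun b _ => hnn x a b).1 h5 w0
        (mem_univ _)
      have a2 := (sum_eq_zero_iff_of_nonneg fun b _ => hnn x w0 b).1 a1 b (mem_univ _)
      have a3 := (mul_eq_zero.1 a2).resolve_left
        (mul_pos (mul_pos (h1 b hb) (hv w0)) (hv b)).ne'
      have a4 : x w0 / v w0 = x b / v b := sub_eq_zero.1 (pow_eq_zero_iff two_ne_zero |>.1 a3)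
      rw [a4, div_mul_cancel₀ _ (hv b).ne']
    have h6' : ∀ b, ¬ act b → x b = 0 := by
      intro b hb
      have a1 := (sum_eq_zero_iff_of_nonneg fun a _ => hin x a).1 h5' b (mem_univ _)
      rw [if_neg hb, one_mul] at a1
      exact pow_eq_zero_iff two_ne_zero |>.1 a1
    have h7 : ∑ b, D0 b * v b * x b = x w0 / v w0 * ∑ b, D0 b * v b * v b := by
      rw [mul_sum]
      refine sum_congr rfl fun b _ => ?_
      by_cases hb : act b
      · rw [h6 b hb]; ring
      · rw [hD0 b hb]; ring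
    have h8 : x w0 / v w0 = 0 := by
      have := pow_eq_zero_iff two_ne_zero |>.1 h3
      rw [h7] at this
      exact (mul_eq_zero.1 this).resolve_right hvv.ne'
    funext b
    by_cases hb : act b
    · rw [h6 b hb, h8, zero_mul]; rfl
    · exact h6' b hb
  obtain ⟨x, hx⟩ := LinearMap.injective_iff_surjective.1 hinj fun a => D a * c a + t * r a
  have hxc : ∀ a, ¬ act a → x a = c a := by
    intro a ha
    have k1 := congrFun hx a
    rw [hL, hz a ha, hD0 a ha, (h2 a ha).2] at k1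
    refine mul_left_cancel₀ (hD a).ne' ?_
    linarith
  have h0 : ∑ b, D0 b * v b * x b = 0 := by
    have k1 := hpair x v
    have k2 : ∑ a, D a * (v a * x a) = qf Q v x + ∑ a, (if act a then 0 else 1) * (v a * c a) := by
      rw [Lo.qf_symm hs, Lo.qf_eq, ← sum_add_distrib]
      refine sum_congr rfl fun a _ => ?_
      rw [← hDv, hDD]
      by_cases ha : act a
      · simp only [if_pos ha]; ring
      · simp only [if_neg ha, hxc a ha]; ring
    have k3 : ∑ a, v a * L x a = dot (fun a => ∑ b, Q a b * v b) c + dot r v * t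
        + ∑ a, (if act a then 0 else 1) * (v a * c a) := by
      simp only [hx, dot, sum_mul, ← sum_add_distrib]
      exact sum_congr rfl fun a _ => by rw [← sum_mul, ← hDv, hDD]; ring
    rw [k3, hc, k2] at k1
    have : (∑ b, D0 b * v b * v b) * ∑ b, D0 b * v b * x b = 0 := by linarith
    exact (mul_eq_zero.1 this).resolve_left hvv.ne'
  let w : Y → ℝ := fun a => (∑ b, Q a b * x b + t * r a) / D a
  have hw : ∀ a, D a * w a = ∑ b, Q a b * x b + t * r a := fun a => mul_div_cancel₀ _ (hD a).ne'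
  have hcw : c = fun a => 1 * x a + (-1) * w a := by
    funext a
    have k1 := congrFun hx a
    rw [hL, h0] at k1
    have k2 := hw a
    refine mul_left_cancel₀ (hD a).ne' ?_
    linarith
  have k1 := h x t
  have k2 : ∑ a, (∑ b, Q a b * x b + t * r a) ^ 2 / ((∑ b, Q a b * v b) / v a)
      = ∑ a, D a * w a ^ 2 := by
    refine sum_congr rfl fun a _ => ?_
    by_cases ha : act a
    · rw [← hw a]
      have e : (∑ b, Q a b * v b) / v a = D a := by simp only [D, if_pos ha, D0]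
      rw [e]
      have := hD a
      field_simp
    · simp only [w, hz a ha, (h2 a ha).2]; simp
  have k3 : qf Q x w + t * dot r w = ∑ a, D a * w a ^ 2 := by
    rw [Lo.qf_symm hs, Lo.qf_eq, dot, mul_sum, ← sum_add_distrib]
    refine sum_congr rfl fun a _ => ?_
    rw [sq, ← mul_assoc (D a), hw a]; ring
  have k4 := hpsd w
  rw [hcw, Lo.qf_lin hs, Lo.dot_lin]
  linarith

/-- Support data. -/
structure Supp (w0 : Y) (good : Multiset Y → Prop) (G0 G1 G2 : Multiset Y → ℝ) : Prop where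
  down : ∀ a S, good (a ::ₘ S) → good S
  cone : ∀ S, good S → good (w0 ::ₘ S)
  pos : ∀ S, good S → 0 < G0 S
  zero : ∀ S, ¬ good S → G0 S = 0 ∧ G1 S = 0 ∧ G2 S = 0

omit [Fintype Y] in
theorem Supp.nonneg {w0 : Y} {good : Multiset Y → Prop} {G0 G1 G2 : Multiset Y → ℝ}
    (h : Supp w0 good G0 G1 G2) (S : Multiset Y) : 0 ≤ G0 S := by
  by_cases hS : good S
  · exact (h.pos S hS).le
  · exact (h.zero S hS).1.ge

omit [Fintype Y] in
theorem Supp.down_add {w0 : Y} {good : Multiset Y → Prop} {G0 G1 G2 : Multiset Y → ℝ}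
    (h : Supp w0 good G0 G1 G2) (T S : Multiset Y) : good (T + S) → good S := by
  induction T using Multiset.induction_on with
  | empty => simp
  | cons a T ih => intro hh; rw [Multiset.cons_add] at hh; exact ih (h.down _ _ hh)

omit [Fintype Y] in
theorem Supp.cone_add {w0 : Y} {good : Multiset Y → Prop} {G0 G1 G2 : Multiset Y → ℝ}
    (h : Supp w0 good G0 G1 G2) (k : ℕ) (S : Multiset Y) (hS : good S) :
    good (Multiset.replicate k w0 + S) := by
  induction k with
  | zero => simpa using hS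
  | succ k ih => rw [Multiset.replicate_succ, Multiset.cons_add]; exact h.cone _ ih

omit [Fintype Y] in
theorem Supp.link {w0 : Y} {good : Multiset Y → Prop} {G0 G1 G2 : Multiset Y → ℝ}
    (h : Supp w0 good G0 G1 G2) (a : Y) :
    Supp w0 (fun S => good (a ::ₘ S)) (fun S => G0 (a ::ₘ S)) (fun S => G1 (a ::ₘ S))
      (fun S => G2 (a ::ₘ S)) :=
  ⟨fun b S hb => h.down b _ (by rwa [Multiset.cons_swap]),
    fun S hS => by rw [Multiset.cons_swap]; exact h.cone _ hS,
    fun S hS => h.pos _ hS, fun S hS => h.zero _ hS⟩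

theorem mix_zero {ι : Type} [Fintype ι] [DecidableEq ι] (v : ι → Y → ℝ) {G : Multiset Y → ℝ}
    {S : Multiset Y} (h : ∀ T, G (T + S) = 0) : mix v G S = 0 :=
  sum_eq_zero fun σ _ => by rw [h, mul_zero]

theorem mix_posZ {ι : Type} [Fintype ι] [DecidableEq ι] {v : ι → Y → ℝ} (hv : ∀ i y, 0 < v i y)
    {w0 : Y} {good : Multiset Y → Prop} {G0 G1 G2 : Multiset Y → ℝ}
    (h : Supp w0 good G0 G1 G2) {S : Multiset Y} (hS : good S) : 0 < mix v G0 S := by
  refine lt_of_lt_of_le ?_ (single_le_sum (f := fun σ : ι → Y => (∏ i, v i (σ i)) * G0 (ms σ + S))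
    (fun σ _ => mul_nonneg (prod_nonneg fun i _ => (hv i _).le) (h.nonneg _))
    (mem_univ (fun _ => w0)))
  refine mul_pos (prod_pos fun i _ => hv i _) (h.pos _ ?_)
  have : ms (fun _ : ι => w0) = Multiset.replicate (Fintype.card ι) w0 := by
    simp [ms, Multiset.nsmul_singleton]
  rw [this]
  exact h.cone_add _ _ hS

theorem lor_mixZ_pos [DecidableEq Y] (w0 : Y) (k : ℕ) :
    ∀ (ι : Type) [Fintype ι] [DecidableEq ι], Fintype.card ι = k →
    ∀ (good : Multiset Y → Prop) (G0 G1 G2 : Multiset Y → ℝ), Supp w0 good G0 G1 G2 →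
    (∀ T, Lor (fun a b => G0 (a ::ₘ b ::ₘ T)) (fun a => G1 (a ::ₘ T)) (G2 T)) →
    ∀ v : ι → Y → ℝ, (∀ i y, 0 < v i y) →
    Lor (fun a b => mix v G0 (a ::ₘ b ::ₘ 0)) (fun a => mix v G1 (a ::ₘ 0)) (mix v G2 0) := by
  induction k with
  | zero =>
    intro ι _ _ hι good G0 G1 G2 _ hL v _
    have : IsEmpty ι := Fintype.card_eq_zero_iff.1 hι
    have e : ∀ G S, mix v G S = G S := fun G S => by simp [mix, ms]
    simp only [e]
    exact hL 0
  | succ k ih =>
    intro ι _ _ hι good G0 G1 G2 h0 hL v hv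
    by_cases hg : good 0
    swap
    · have z : ∀ T S, ¬ good (T + S) := fun T S hh =>
        hg (h0.down_add (T + S) 0 (by rwa [add_zero]))
      intro c z' t _
      have e0 : ∀ S, mix v G0 S = 0 := fun S => mix_zero v fun T => (h0.zero _ (z T S)).1
      have e1 : ∀ S, mix v G1 S = 0 := fun S => mix_zero v fun T => (h0.zero _ (z T S)).2.1
      simp [e0, e1, qf, dot]
    obtain ⟨e⟩ : Nonempty ι := Fintype.card_pos_iff.1 (by omega)
    have hJ : Fintype.card {j // j ≠ e} = k := by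
      rw [Fintype.card_subtype_compl, Fintype.card_subtype_eq]; omega
    let v' : {j // j ≠ e} → Y → ℝ := fun j => v j.1
    have hs : ∀ a b, mix v G0 (a ::ₘ b ::ₘ 0) = mix v G0 (b ::ₘ a ::ₘ 0) := fun a b => by
      rw [Multiset.cons_swap]
    have hq : ∀ a b, 0 ≤ mix v G0 (a ::ₘ b ::ₘ 0) := fun a b =>
      Lo.mix_nonneg (fun i y => (hv i y).le) h0.nonneg _
    have hbad : ∀ a, ¬ good (a ::ₘ 0) → ∀ T S, ¬ good (T + a ::ₘ S) := by
      intro a ha T S hh
      refine ha (h0.down_add (T + S) _ ?_)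
      rwa [Multiset.add_cons, add_zero, ← Multiset.add_cons]
    have hact1 : ∀ a, good (a ::ₘ 0) → 0 < mix v G0 (w0 ::ₘ a ::ₘ 0) := fun a ha =>
      mix_posZ hv h0 (h0.cone _ ha)
    refine lor_of_hyper _ _ _ hs hq _ _
      (stepZ hs hq (hv e) _ _ w0 (fun a => good (a ::ₘ 0)) hact1 (fun a ha =>
        ⟨fun b => mix_zero v fun T => (h0.zero _ (hbad a ha T _)).1,
          mix_zero v fun T => (h0.zero _ (hbad a ha T _)).2.1⟩) (h0.cone _ hg) fun c t => ?_)
    have IH : ∀ a, Lor (fun x y => mix v' G0 (a ::ₘ x ::ₘ y ::ₘ 0))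
        (fun x => mix v' G1 (a ::ₘ x ::ₘ 0)) (mix v' G2 (a ::ₘ 0)) := by
      intro a
      simp only [Lo.mix_cons v' _ a]
      refine ih _ hJ _ _ _ _ (h0.link a) (fun T => ?_) v' fun i y => hv _ y
      have := hL (a ::ₘ T)
      simp only [Multiset.cons_swap a]
      exact this
    have e0 : ∀ a (c : Y → ℝ), qf (fun x y => mix v' G0 (a ::ₘ x ::ₘ y ::ₘ 0)) c (v e)
        = ∑ b, mix v G0 (a ::ₘ b ::ₘ 0) * c b := by
      intro a c
      rw [Lo.qf_eq]
      refine sum_congr rfl fun b _ => ?_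
      rw [mix_split e v G0, mul_comm]
      congr 1
      refine sum_congr rfl fun y _ => ?_
      rw [mul_comm, Multiset.cons_swap y a, Multiset.cons_swap y b]
    have e1 : ∀ a, dot (fun x => mix v' G1 (a ::ₘ x ::ₘ 0)) (v e) = mix v G1 (a ::ₘ 0) := by
      intro a
      rw [mix_split e v G1]
      refine sum_congr rfl fun y _ => ?_
      rw [mul_comm, Multiset.cons_swap y a]
    have e2 : qf (fun a b => mix v G0 (a ::ₘ b ::ₘ 0)) c c
        + 2 * t * dot (fun a => mix v G1 (a ::ₘ 0)) c - t ^ 2 * mix v G2 0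
        = ∑ a, v e a * (qf (fun x y => mix v' G0 (a ::ₘ x ::ₘ y ::ₘ 0)) c c
          + 2 * t * dot (fun x => mix v' G1 (a ::ₘ x ::ₘ 0)) c - t ^ 2 * mix v' G2 (a ::ₘ 0)) := by
      have f1 : qf (fun a b => mix v G0 (a ::ₘ b ::ₘ 0)) c c
          = ∑ a, v e a * qf (fun x y => mix v' G0 (a ::ₘ x ::ₘ y ::ₘ 0)) c c := by
        simp only [qf, mix_split e v G0, mul_sum, sum_mul]
        rw [sum_comm (f := fun a x => ∑ y, v e a * (mix v' G0 (a ::ₘ x ::ₘ y ::ₘ 0) * c x * c y))]
        refine sum_congr rfl fun x _ => ?_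
        rw [sum_comm]
        exact sum_congr rfl fun y _ => sum_congr rfl fun a _ => by ring
      have f2 : dot (fun a => mix v G1 (a ::ₘ 0)) c
          = ∑ a, v e a * dot (fun x => mix v' G1 (a ::ₘ x ::ₘ 0)) c := by
        simp only [dot, mix_split e v G1, mul_sum, sum_mul]
        rw [sum_comm]
        exact sum_congr rfl fun x _ => sum_congr rfl fun a _ => by ring
      rw [f1, f2, mix_split e v G2, mul_sum, mul_sum, ← sum_add_distrib, ← sum_sub_distrib]
      exact sum_congr rfl fun a _ => by ring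
    rw [e2]
    refine sum_le_sum fun a _ => ?_
    by_cases ha : good (a ::ₘ 0)
    · have h1 := IH a c (v e) t fun y => (hv e y).le
      rw [e0, e0, e1] at h1
      have h2 : 0 < ∑ b, mix v G0 (a ::ₘ b ::ₘ 0) * v e b :=
        lt_of_lt_of_le (mul_pos (hs a w0 ▸ hact1 a ha) (hv e w0))
          (single_le_sum (f := fun b => mix v G0 (a ::ₘ b ::ₘ 0) * v e b)
            (fun b _ => mul_nonneg (hq a b) (hv e b).le) (mem_univ w0))
      rw [div_div_eq_mul_div, le_div_iff₀ h2, mul_assoc, mul_comm _ (v e a)]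
      exact mul_le_mul_of_nonneg_left h1 (hv e a).le
    · have z0 : ∀ S, mix v' G0 (a ::ₘ S) = 0 := fun S =>
        mix_zero v' fun T => (h0.zero _ (hbad a ha T _)).1
      have z1 : ∀ S, mix v' G1 (a ::ₘ S) = 0 := fun S =>
        mix_zero v' fun T => (h0.zero _ (hbad a ha T _)).2.1
      have z2 : ∀ S, mix v' G2 (a ::ₘ S) = 0 := fun S =>
        mix_zero v' fun T => (h0.zero _ (hbad a ha T _)).2.2
      have z3 : ∀ S, mix v G0 (a ::ₘ S) = 0 := fun S =>
        mix_zero v fun T => (h0.zero _ (hbad a ha T _)).1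
      simp only [z0, z1, z2, z3]
      simp [qf, dot]

/-- The signed Lorentzian theorem with zeros. -/
theorem lor_mixZ [DecidableEq Y] (w0 : Y) (ι : Type) [Fintype ι] [DecidableEq ι]
    (good : Multiset Y → Prop) (G0 G1 G2 : Multiset Y → ℝ) (h0 : Supp w0 good G0 G1 G2)
    (hL : ∀ T, Lor (fun a b => G0 (a ::ₘ b ::ₘ T)) (fun a => G1 (a ::ₘ T)) (G2 T))
    (v : ι → Y → ℝ) (hv : ∀ i y, 0 ≤ v i y) :
    Lor (fun a b => mix v G0 (a ::ₘ b ::ₘ 0)) (fun a => mix v G1 (a ::ₘ 0)) (mix v G2 0) := by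
  intro c z t hz
  let w : ℝ → ι → Y → ℝ := fun s i y => v i y + s
  have := Lo.nonneg_of_cont (F := fun s =>
    (qf (fun a b => mix (w s) G0 (a ::ₘ b ::ₘ 0)) c z
      + t * dot (fun a => mix (w s) G1 (a ::ₘ 0)) z) ^ 2
    - (qf (fun a b => mix (w s) G0 (a ::ₘ b ::ₘ 0)) c c
      + 2 * t * dot (fun a => mix (w s) G1 (a ::ₘ 0)) c - t ^ 2 * mix (w s) G2 0)
      * qf (fun a b => mix (w s) G0 (a ::ₘ b ::ₘ 0)) z z)
    (by simp only [qf, dot, mix, w]; fun_prop)
    (fun s hs _ => sub_nonneg.2 (lor_mixZ_pos w0 _ ι rfl good G0 G1 G2 h0 hL (w s)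
      (fun i y => add_pos_of_nonneg_of_pos (hv i y) hs) c z t hz))
  have e : w 0 = v := by funext i y; simp [w]
  rw [e] at this
  exact sub_nonneg.1 this

end Vale.Agent.P328
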