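import Vale.Agent.P328.RefC

/-! P328: setup phase, running time, and the final theorems. -/

namespace Vale.Agent.P328
open Finset Vale.Agent.P317

variable {m n k0 : ℕ}

theorem findN_spec (O : Bool → Set (Fin k0) → Prop) (r : Fin m → ℕ) (M : Mem) (h0 : M 0 0 = m)
    (h1 : M 1 0 = n) (h2 : ∀ i : Fin m, M 2 i.val = r i) (h7 : M 7 0 = 0) (h11 : M 11 0 = 0) :
    exec O findN M 7 0 = ∑ i, r i ∧ exec O findN M 11 0 = m * n := by
  have := forN_inv O 0 (.seq (asg 7 (.add (V 7) (.get 2 ix))) (asg 11 (.add (V 11) (V 1)))) m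
    (fun i M' => M' 1 0 = n ∧ M' 2 = M 2 ∧ M' 7 0 = ∑ x ∈ range i, M 2 x ∧ M' 11 0 = i * n)
    M h0 (by decide) (by decide)
    (fun i M' y h => ⟨by simpa using h.1, by rw [Mem.put_ne _ _ _ (by decide)]; exact h.2.1,
      by simpa using h.2.2⟩)
    (by
      intro i _ M' h35 ⟨a1, a2, a3, a4⟩
      refine ⟨by simp [exec, asg, a1], by rw [exec_frame _ _ _ 2 (by decide)]; exact a2, ?_, ?_⟩
      · simp [exec, asg, V, ix, Expr.val, h35, a2, a3, sum_range_succ]
      · simp [exec, asg, V, Expr.val, a1, a4, add_mul])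
    ⟨h1, rfl, by simp [h7], by simp [h11]⟩
  refine ⟨this.2.2.1.trans ?_, this.2.2.2⟩
  rw [Finset.sum_range]
  exact sum_congr rfl fun i _ => h2 i

theorem pow_le_of {a d i N : ℕ} (hN : d ≤ a * 2 ^ N) (h : i = 0 ∨ a * 2 ^ i < 2 * d) : i ≤ N := by
  rcases h with h | h
  · omega
  · by_contra hcon
    have : 2 ^ (N + 1) ≤ 2 ^ i := Nat.pow_le_pow_right (by norm_num) (by omega)
    have := Nat.mul_le_mul_left a this
    rw [pow_succ, ← mul_assoc] at this
    omega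

theorem phase0_tb (O : Bool → Set (Fin k0) → Prop) (r : Fin m → ℕ) (c : Fin n → ℕ) (ε : ℚ)
    (hε : 0 < ε) (A K : ℕ) (hA : ∑ i, r i ≤ 2 ^ A) (hK : ε.den ≤ ε.num.toNat * 2 ^ K) :
    TB O phase0 (tinput r c ε)
      ((m + k0 + 2) ^ findN.deg + 9 * (2 * (m * n) + m + n + A + K + 1024))
      (fun M => ∃ L k, Par0 r c L M ∧ 2 * (m * n) + m + n + k + 1024 ≤ 2 ^ L ∧
        2 ^ L ≤ 2 * (2 * (m * n) + m + n + A + K + 1024) ∧ ε.den ≤ ε.num.toNat * 2 ^ k) := by
  have t1 := (TB_static O [0] m findN (by decide) (tinput r c ε) (by simp [tinput])).det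
    (by decide)
  obtain ⟨f1, f2⟩ := findN_spec (n := n) O r (tinput r c ε) (by simp [tinput]) (by simp [tinput])
    (fun i => by simp [tinput]) (by simp [tinput]) (by simp [tinput])
  have a1 : Agree [7, 11, 35] (tinput r c ε) (exec O findN (tinput r c ε)) :=
    (exec_agree _ _ _).mono (by decide)
  generalize exec O findN (tinput r c ε) = M1 at *
  obtain ⟨T, hT⟩ : ∃ T, T = 2 * (m * n) + m + n + A + K + 1024 := ⟨_, rfl⟩
  have hTT : T ≤ 1 * 2 ^ T := by rw [one_mul]; exact Nat.lt_two_pow_self.le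
  refine (t1.seq (B' := 1 + (1 + (A + 1) * 3 + (1 + (K + 1) * 3 + (1 + (1 + (1 + (T + 1) * 3))))))
    fun M' h => ?_).mono (by omega) (fun _ h => h)
  subst h
  refine (TB.set O 46 (.lit 0) (.lit 1) M').seq fun M2 h => ?_
  have a2 : Agree [46] M' M2 := h ▸ agree_put _ _ _ _
  refine (dblLoop_tb O 46 12 7 (by decide) (by decide) (by decide) M2 1 (∑ i, r i) A one_pos
    (by simp [h, Expr.val]) (by rw [a2 _ (by decide), a1 _ (by decide)]; simp [tinput])
    (by rw [a2 _ (by decide), f1]) (by omega)).seq fun M3 ⟨a3, _, g2, g3⟩ => ?_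
  have g4 := pow_le_of (by rw [one_mul]; exact hA) g3
  have b3 : Agree [7, 11, 35, 46, 12] (tinput r c ε) M3 :=
    ((a1.mono (by decide)).trans (a2.mono (by decide))).trans (a3.mono (by decide))
  refine (dblLoop_tb O 4 8 5 (by decide) (by decide) (by decide) M3 ε.num.toNat ε.den K
    (rat_num_den ε hε).1 (by rw [b3 _ (by decide)]; simp [tinput])
    (by rw [b3 _ (by decide)]; simp [tinput]) (by rw [b3 _ (by decide)]; simp [tinput])
    hK).seq fun M4 ⟨a4, _, g5, g6⟩ => ?_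
  have g7 := pow_le_of hK g6
  refine (TB.set O 47 (.lit 0) _ M4).seq fun M5 h5 =>
    (TB.set O 10 (.lit 0) (.lit 1) M5).seq fun M6 h6 => ?_
  have a5 : Agree [47] M4 M5 := h5 ▸ agree_put _ _ _ _
  have a6 : Agree [10] M5 M6 := h6 ▸ agree_put _ _ _ _
  have e0 : M4 0 0 = m := by rw [a4 _ (by decide), b3 _ (by decide)]; simp [tinput]
  have e1 : M4 1 0 = n := by rw [a4 _ (by decide), b3 _ (by decide)]; simp [tinput]
  have e11 : M4 11 0 = m * n := by rw [a4 _ (by decide), a3 _ (by decide), a2 _ (by decide), f2]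
  have e12 : M4 12 0 = M3 12 0 := by rw [a4 _ (by decide)]
  refine (dblLoop_tb O 10 9 47 (by decide) (by decide) (by decide) M6 1
    (2 * (m * n) + m + n + M3 12 0 + M4 8 0 + 1024) T one_pos (by simp [h6, Expr.val])
    (by rw [a6 _ (by decide), a5 _ (by decide), a4 _ (by decide), b3 _ (by decide)]; simp [tinput])
    (by rw [a6 _ (by decide), h5]; simp [dbE, V, Expr.val, e0, e1, e11, e12]; omega)
    (by omega)).mono le_rfl fun M7 ⟨a7, g8, g9, g10⟩ => ?_
  have b7 : Agree [47, 10, 9, 4, 8] M3 M7 := (((a4.mono (by decide)).trans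
    (a5.mono (by decide))).trans (a6.mono (by decide))).trans (a7.mono (by decide))
  rw [one_mul] at g2 g8 g9
  refine ⟨M7 9 0, M4 8 0, ⟨?_, ?_, fun i => ?_, fun j => ?_, ?_, rfl, g8, ?_, ?_, by omega⟩,
    by omega, ?_, g5⟩
  · rw [b7 _ (by decide), b3 _ (by decide)]; simp [tinput]
  · rw [b7 _ (by decide), b3 _ (by decide)]; simp [tinput]
  · rw [b7 _ (by decide), b3 _ (by decide)]; simp [tinput]
  · rw [b7 _ (by decide), b3 _ (by decide)]; simp [tinput]
  · rw [b7 _ (by decide), a3 _ (by decide), a2 _ (by decide), f1]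
  · rw [b7 _ (by decide), a3 _ (by decide), a2 _ (by decide), f2]
  · exact g2.trans (Nat.pow_le_pow_right (by norm_num) (by omega))
  · rcases g10 with h | h
    · rw [h]; omega
    · omega

theorem phase1_det : phase1.det = true := by decide +kernel
theorem phase1_static : phase1.static [0, 1, 9, 10, 11] = true := by decide +kernel
theorem phase2_static : phase2.static [0, 1, 9, 10, 11, 29, 31, 32] = true := by decide +kernel

theorem time12 (r : Fin m → ℕ) (c : Fin n → ℕ) (L : ℕ) (hm : 0 < m) (hn : 0 < n)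
    (hsum : ∑ i, r i = ∑ j, c j) (hL : 2 * (m * n) + m + n + 64 ≤ 2 ^ L) {M : Mem}
    (hP : Par0 r c L M) :
    TB noOracle (.seq phase1 phase2) M (2 * (3 * (2 ^ L) ^ 140) ^ (phase1.deg + phase2.deg))
      (fun _ => True) := by
  obtain ⟨D, d1, d2, d3, hD, -⟩ := phase1_spec noOracle r c L hm hn hsum hL hP
  have hL' : L < 2 ^ L := Nat.lt_two_pow_self
  have dP : D.P = 2 ^ L := by rw [← d3]; rfl
  have p1 : ∀ j, j ≤ 140 → (2 ^ L) ^ j ≤ (2 ^ L) ^ 140 := fun j hj =>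
    Nat.pow_le_pow_right (by omega) hj
  have q1 := p1 1 (by norm_num)
  have q4 := p1 4 (by norm_num)
  have q11 := p1 11 (by norm_num)
  rw [pow_one] at q1
  have t1 := (TB_static noOracle [0, 1, 9, 10, 11] ((2 ^ L) ^ 140) phase1 phase1_static M (by
    simp only [List.mem_cons, List.not_mem_nil, or_false, forall_eq_or_imp, forall_eq,
      hP.r0, hP.r1, hP.r9, hP.r10, hP.r11]
    refine ⟨?_, ?_, ?_, ?_, ?_⟩ <;> omega)).det phase1_det
  have t2 := TB_static noOracle [0, 1, 9, 10, 11, 29, 31, 32] ((2 ^ L) ^ 140) phase2 phase2_static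
    (exec noOracle phase1 M) (by
      simp only [List.mem_cons, List.not_mem_nil, or_false, forall_eq_or_imp, forall_eq,
        hD.r0, hD.r1, hD.r9, hD.r10, hD.r11, hD.r29, hD.r31, hD.r32, dP, d3]
      refine ⟨?_, ?_, ?_, ?_, ?_, ?_, ?_, ?_⟩ <;> omega)
  refine (t1.seq (fun m' h => h ▸ t2)).mono ?_ (fun _ _ => trivial)
  generalize (2 ^ L) ^ 140 = B at *
  have b : B + 0 + 2 ≤ 3 * B := by omega
  have c1 : (B + 0 + 2) ^ phase1.deg ≤ (3 * B) ^ (phase1.deg + phase2.deg) :=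
    (Nat.pow_le_pow_left b _).trans (Nat.pow_le_pow_right (by omega) (by omega))
  have c2 : (B + 0 + 2) ^ phase2.deg ≤ (3 * B) ^ (phase1.deg + phase2.deg) :=
    (Nat.pow_le_pow_left b _).trans (Nat.pow_le_pow_right (by omega) (by omega))
  omega

theorem time_num (T P d0 d1 t c e : ℕ) (x : ℝ) (hx : 1 ≤ x) (he : 1 ≤ e) (hT : 1024 ≤ T)
    (b1 : (2 * T : ℝ) ≤ c * x ^ 2) (hP : P ≤ 2 * T)
    (ht : t ≤ T ^ d0 + 9 * T + 2 * (3 * P ^ e) ^ d1) :
    (t : ℝ) ≤ ((12 * (3 * c ^ e) ^ (d0 + d1 + 1) : ℕ) : ℝ) * x ^ (2 * e * (d0 + d1 + 1)) := by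
  have h0 : T ≤ 3 * (2 * T) ^ e := by
    have := Nat.le_self_pow (n := e) (by omega) (2 * T)
    omega
  have h1 : P ^ e ≤ (2 * T) ^ e := Nat.pow_le_pow_left hP e
  have k0 : T ^ d0 ≤ (3 * (2 * T) ^ e) ^ (d0 + d1 + 1) :=
    (Nat.pow_le_pow_left h0 _).trans (Nat.pow_le_pow_right (by omega) (by omega))
  have k1 : T ≤ (3 * (2 * T) ^ e) ^ (d0 + d1 + 1) :=
    h0.trans (Nat.le_self_pow (by omega) _)
  have k2 : (3 * P ^ e) ^ d1 ≤ (3 * (2 * T) ^ e) ^ (d0 + d1 + 1) :=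
    (Nat.pow_le_pow_left (by omega) _).trans (Nat.pow_le_pow_right (by omega) (by omega))
  have k3 : t ≤ 12 * (3 * (2 * T) ^ e) ^ (d0 + d1 + 1) := by omega
  have k4 : (t : ℝ) ≤ 12 * (3 * (2 * (T : ℝ)) ^ e) ^ (d0 + d1 + 1) := by exact_mod_cast k3
  refine k4.trans ?_
  push_cast
  calc 12 * (3 * (2 * (T : ℝ)) ^ e) ^ (d0 + d1 + 1)
      ≤ 12 * (3 * (c * x ^ 2) ^ e) ^ (d0 + d1 + 1) := by gcongr
    _ = _ := by
      rw [mul_pow (c : ℝ), ← mul_assoc 3, mul_pow _ ((x ^ 2) ^ e), ← pow_mul, ← pow_mul, mul_assoc,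
        mul_assoc 2]

theorem exists_bits (r : Fin m → ℕ) : ∃ A : ℕ, ∑ i, r i < 2 ^ A ∧
    (A : ℝ) ≤ ∑ i, Real.logb 2 (r i + 2) + 1 := by
  have h1 : ∀ s : Finset (Fin m), ∑ i ∈ s, r i + 1 ≤ ∏ i ∈ s, (r i + 2) := by
    intro s
    induction s using Finset.induction_on with
    | empty => simp
    | insert a s ha ih =>
      rw [sum_insert ha, prod_insert ha]
      refine le_trans ?_ (Nat.mul_le_mul_left _ ih)
      change r a + ∑ i ∈ s, r i + 1 ≤ _
      generalize ∑ i ∈ s, r i = S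
      nlinarith [Nat.zero_le (r a * S)]
  have h0 : 0 ≤ ∑ i, Real.logb 2 ((r i : ℝ) + 2) :=
    sum_nonneg fun i _ => Real.logb_nonneg (by norm_num) (by have : (0 : ℝ) ≤ r i := by positivity
                                                             linarith)
  refine ⟨⌈∑ i, Real.logb 2 ((r i : ℝ) + 2)⌉₊, ?_, (Nat.ceil_lt_add_one h0).le⟩
  have h2 := Nat.le_ceil (∑ i, Real.logb 2 ((r i : ℝ) + 2))
  generalize ⌈∑ i, Real.logb 2 ((r i : ℝ) + 2)⌉₊ = A at *
  rw [← Real.logb_prod _ (fun i => (r i : ℝ) + 2) (fun i _ => by positivity),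
    Real.logb_le_iff_le_rpow (by norm_num) (by positivity), Real.rpow_natCast] at h2
  have h3 : ∏ i, (r i + 2) ≤ 2 ^ A := by exact_mod_cast h2
  have := h1 univ
  omega

theorem exists_eps (ε : ℚ) (h0 : 0 < ε) (h1 : ε < 1) : ∃ K : ℕ, ε.den ≤ ε.num.toNat * 2 ^ K ∧
    (K : ℝ) ≤ 2 * Real.log (1 / (ε : ℝ)) + 1 := by
  obtain ⟨-, ea⟩ := rat_num_den ε h0
  have hR : (0 : ℝ) < ε := by exact_mod_cast h0
  have hR1 : (ε : ℝ) < 1 := by exact_mod_cast h1
  have hlog : 0 ≤ Real.log (1 / (ε : ℝ)) := Real.log_nonneg (by rw [le_div_iff₀ hR]; linarith)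
  refine ⟨⌈2 * Real.log (1 / (ε : ℝ))⌉₊, ?_, (Nat.ceil_lt_add_one (by positivity)).le⟩
  have h1 : 2 * Real.log (1 / (ε : ℝ)) ≤ ⌈2 * Real.log (1 / (ε : ℝ))⌉₊ := Nat.le_ceil _
  generalize ⌈2 * Real.log (1 / (ε : ℝ))⌉₊ = N at h1
  have h2 : Real.log (1 / (ε : ℝ)) ≤ Real.log (2 ^ N) := by
    rw [Real.log_pow]
    have := Real.log_two_gt_d9
    nlinarith
  have h3 : 1 / (ε : ℝ) ≤ 2 ^ N := (Real.log_le_log_iff (by positivity) (by positivity)).1 h2
  rw [div_le_iff₀ hR] at h3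
  have h4 : (ε.num.toNat : ℝ) = ε * ε.den := by exact_mod_cast ea
  have h5 : (ε.den : ℝ) ≤ ε.num.toNat * 2 ^ N := by
    rw [h4]
    have : (0 : ℝ) ≤ ε.den := by positivity
    nlinarith
  exact_mod_cast h5

theorem logs_nonneg (r : Fin m → ℕ) : 0 ≤ ∑ i, Real.logb 2 ((r i : ℝ) + 2) :=
  sum_nonneg fun i _ => Real.logb_nonneg (by norm_num)
    (by have : (0 : ℝ) ≤ r i := by positivity
        linarith)

theorem log_inv_nonneg (ε : ℚ) (h0 : 0 < ε) (h1 : ε < 1) : 0 ≤ Real.log (1 / (ε : ℝ)) := by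
  have hR : (0 : ℝ) < ε := by exact_mod_cast h0
  have hR1 : (ε : ℝ) < 1 := by exact_mod_cast h1
  exact Real.log_nonneg (by rw [le_div_iff₀ hR]; linarith)

theorem sampler_time : ∃ C d : ℕ, ∀ (m n : ℕ) (r : Fin m → ℕ) (c : Fin n → ℕ), 1 ≤ m → 1 ≤ n →
    ∑ i, r i = ∑ j, c j → ∀ ε : ℚ, 0 < ε → ε < 1 →
      ∀ s ∈ (sampler.run noOracle (tinput r c ε, 0)).support,
        (s.2 : ℝ) ≤ C * (len r c + Real.log (1 / (ε : ℝ)) + 1) ^ d := by
  refine ⟨12 * (3 * 2100 ^ 140) ^ (findN.deg + (phase1.deg + phase2.deg) + 1),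
    2 * 140 * (findN.deg + (phase1.deg + phase2.deg) + 1), ?_⟩
  intro m n r c hm hn hsum ε h0 h1 s hs
  obtain ⟨A, hA, hA'⟩ := exists_bits r
  obtain ⟨K, hK, hK'⟩ := exists_eps ε h0 h1
  obtain ⟨T, hT⟩ : ∃ T, T = 2 * (m * n) + m + n + A + K + 1024 := ⟨_, rfl⟩
  have t0 := phase0_tb noOracle r c ε h0 A K hA.le hK
  rw [← hT] at t0
  have t := t0.seq (B' := 2 * (3 * (2 * T) ^ 140) ^ (phase1.deg + phase2.deg))
    (q := .seq phase1 phase2) (Q' := fun _ => True) (fun M ⟨L, k, g1, g2, g3, _⟩ =>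
      (time12 r c L hm hn hsum (by omega) g1).mono
        (Nat.mul_le_mul_left _ (Nat.pow_le_pow_left
          (Nat.mul_le_mul_left _ (Nat.pow_le_pow_left g3 _)) _)) fun _ h => h)
  have ht := (t 0 s hs).1
  have hm' : (m + 0 + 2) ^ findN.deg ≤ T ^ findN.deg := Nat.pow_le_pow_left (by omega) _
  have l1 := logs_nonneg r
  have l2 := logs_nonneg c
  have l3 := log_inv_nonneg ε h0 h1
  have m0 : (0 : ℝ) ≤ m := by positivity
  have n0 : (0 : ℝ) ≤ n := by positivity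
  refine time_num T (2 * T) _ _ _ 2100 140 _ (by unfold len; linarith) (by norm_num) (by omega) ?_
    le_rfl (by omega)
  have hx : 1 ≤ len r c + Real.log (1 / (ε : ℝ)) + 1 := by unfold len; linarith
  have x1 : (m : ℝ) ≤ len r c + Real.log (1 / (ε : ℝ)) + 1 := by unfold len; linarith
  have x2 : (n : ℝ) ≤ len r c + Real.log (1 / (ε : ℝ)) + 1 := by unfold len; linarith
  have x3 : (A : ℝ) ≤ len r c + Real.log (1 / (ε : ℝ)) + 1 := by unfold len; linarith
  have x4 : (K : ℝ) ≤ 2 * (len r c + Real.log (1 / (ε : ℝ)) + 1) := by unfold len; linarith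
  generalize len r c + Real.log (1 / (ε : ℝ)) + 1 = x at *
  have x5 : (m : ℝ) * n ≤ x * x := mul_le_mul x1 x2 n0 (by linarith)
  have x6 : (T : ℝ) = 2 * (m * n) + m + n + A + K + 1024 := by exact_mod_cast hT
  have x7 : x ≤ x * x := le_mul_of_one_le_left (zero_le_one.trans hx) hx
  rw [x6, Nat.cast_ofNat, sq]
  linarith

open Classical in
theorem sampler_law (r : Fin m → ℕ) (c : Fin n → ℕ) (hm : 1 ≤ m) (hn : 1 ≤ n)
    (hsum : ∑ i, r i = ∑ j, c j) (ε : ℚ) (h0 : 0 < ε) (h1 : ε < 1) :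
    ex noOracle sampler (fun M => if toutput m n M ∉ tables r c then 1 else 0) (tinput r c ε) = 0 ∧
    ∀ A ⊆ tables r c,
      |ex noOracle sampler (fun M => if toutput m n M ∈ A then 1 else 0) (tinput r c ε)
        - A.card / (tables r c).card| ≤ ε := by
  obtain ⟨A, hA, -⟩ := exists_bits r
  obtain ⟨K, hK, -⟩ := exists_eps ε h0 h1
  obtain ⟨L, k, g1, g2, -, g4⟩ := (phase0_tb noOracle r c ε h0 A K hA.le hK).exec (by decide)
  obtain ⟨D, d1, d2, d3, hD, Z, hZ, h6⟩ := phase1_spec noOracle r c L hm hn hsum (by omega) g1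
  subst d1 d2 d3
  have key : ∀ (φ : Mem → ℝ) (ψ : Tab m n → ℝ),
      (∀ X ∈ tables D.r D.c, ∀ M, toutput m n M = X → φ M = ψ X) →
      ex noOracle sampler φ (tinput D.r D.c ε) = D.trial^[D.P ^ 4] ψ Z := by
    intro φ ψ h
    show ex noOracle phase0 (ex noOracle (.seq phase1 phase2) φ) _ = _
    rw [ex_det _ phase0 (by decide)]
    show ex noOracle phase1 (ex noOracle phase2 φ) _ = _
    rw [ex_det _ phase1 phase1_det]
    exact phase2_impl noOracle Z _ ⟨hD, hZ, h6⟩ φ ψ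
      fun X M hX _ => h X hX.2.1 M (funext fun e => hX.2.2 e)
  constructor
  · rw [key _ (fun _ => 0) (fun X hX M hM => by rw [hM, if_neg (not_not.2 hX)])]
    exact (D.markov_trial.iterate _).const 0 Z
  · intro B hB
    rw [key _ (fun X => if X ∈ B then 1 else 0) (fun X _ M hM => by rw [hM])]
    have := D.trial_bound (fun X => if X ∈ B then 1 else 0) (fun Y => by split_ifs <;> norm_num)
      (fun Y => by split_ifs <;> norm_num) Z
    rw [sum_boole, filter_mem_eq_inter, inter_eq_right.2 hB] at this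
    refine this.trans ?_
    have h3 : ((1 : ℝ) / 2) ^ k ≤ ε := by
      have h4 : (ε.num.toNat : ℝ) = ε * ε.den := by exact_mod_cast (rat_num_den ε h0).2
      have h5 : (ε.den : ℝ) ≤ ε.num.toNat * 2 ^ k := by exact_mod_cast g4
      have hd : (0 : ℝ) < ε.den := by exact_mod_cast ε.den_pos
      rw [h4] at h5
      rw [one_div, inv_pow, inv_le_iff_one_le_mul₀ (by positivity)]
      nlinarith
    exact (pow_le_pow_of_le_one (by norm_num) (by norm_num) (by unfold Inst.P; omega)).trans h3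

theorem tv_le {α : Type} (μ : PMF α) (s : Finset α) (ε : ℝ)
    (h : ∀ A ⊆ s, |(μ.toOuterMeasure A).toReal - A.card / s.card| ≤ ε) : tvUniform μ s ≤ ε := by
  classical
  have e : ∀ A : Finset α, (μ.toOuterMeasure A).toReal - A.card / s.card
      = ∑ x ∈ A, ((μ x).toReal - 1 / (s.card : ℝ)) := by
    intro A
    rw [PMF.toOuterMeasure_apply_finset, ENNReal.toReal_sum (fun x _ => μ.apply_ne_top x),
      sum_sub_distrib, sum_const, nsmul_eq_mul, mul_one_div]
  have h1 := h _ (filter_subset (fun x => 0 ≤ (μ x).toReal - 1 / (s.card : ℝ)) s)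
  have h2 := h _ (filter_subset (fun x => ¬ 0 ≤ (μ x).toReal - 1 / (s.card : ℝ)) s)
  rw [e] at h1 h2
  unfold tvUniform
  rw [← sum_filter_add_sum_filter_not s (fun x => 0 ≤ (μ x).toReal - 1 / (s.card : ℝ)),
    sum_congr rfl fun x hx => abs_of_nonneg (mem_filter.1 hx).2,
    sum_congr rfl fun x hx => abs_of_neg (not_le.1 (mem_filter.1 hx).2), sum_neg_distrib]
  have := (abs_le.1 h1).2
  have := (abs_le.1 h2).1
  linarith

open Classical in
theorem law_of (r : Fin m → ℕ) (c : Fin n → ℕ) (hm : 1 ≤ m) (hn : 1 ≤ n)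
    (hsum : ∑ i, r i = ∑ j, c j) (ε : ℚ) (h0 : 0 < ε) (h1 : ε < 1) (μ : PMF (Mem × ℕ))
    (hμ : ∀ G : Mem → Prop, (μ.toOuterMeasure {s | G s.1}).toReal =
      ex noOracle sampler (fun M => if G M then 1 else 0) (tinput r c ε)) :
    (∀ s ∈ μ.support, toutput m n s.1 ∈ tables r c) ∧
      tvUniform (μ.map fun s => toutput m n s.1) (tables r c) ≤ ε := by
  obtain ⟨l1, l2⟩ := sampler_law r c hm hn hsum ε h0 h1
  constructor
  · intro s hs
    have h2 := hμ fun M => toutput m n M ∉ tables r c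
    have h3 : (μ.toOuterMeasure {s | toutput m n s.1 ∉ tables r c}).toReal = 0 := by
      rw [h2]; convert l1
    have h4 : μ.toOuterMeasure {s | toutput m n s.1 ∉ tables r c} ≠ ⊤ := by
      rw [PMF.toOuterMeasure_apply]; exact μ.tsum_coe_indicator_ne_top _
    rw [ENNReal.toReal_eq_zero_iff, or_iff_left h4, PMF.toOuterMeasure_apply_eq_zero_iff] at h3
    by_contra hc
    exact Set.disjoint_left.1 h3 hs hc
  · refine tv_le _ _ _ fun A hA => ?_
    rw [PMF.toOuterMeasure_map_apply]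
    have h2 := hμ fun M => toutput m n M ∈ A
    have h3 := l2 A hA
    convert h3 using 3
    refine h2.trans ?_
    congr; funext M; congr

theorem main_theorem : ∃ (P : Prog) (C d : ℕ), ∀ (m n : ℕ) (r : Fin m → ℕ) (c : Fin n → ℕ),
    1 ≤ m → 1 ≤ n → ∑ i, r i = ∑ j, c j → ∀ ε : ℚ, 0 < ε → ε < 1 →
      (∀ s ∈ (P.run noOracle (tinput r c ε, 0)).support,
        (s.2 : ℝ) ≤ C * (len r c + Real.log (1 / (ε : ℝ)) + 1) ^ d ∧
          toutput m n s.1 ∈ tables r c) ∧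
      tvUniform ((P.run noOracle (tinput r c ε, 0)).map fun s => toutput m n s.1)
        (tables r c) ≤ ε := by
  obtain ⟨C, d, H⟩ := sampler_time
  refine ⟨sampler, C, d, fun m n r c hm hn hsum ε h0 h1 => ?_⟩
  obtain ⟨l1, l2⟩ := law_of r c hm hn hsum ε h0 h1 (sampler.run noOracle (tinput r c ε, 0))
    fun G => run_prob noOracle sampler G _
  exact ⟨fun s hs => ⟨H m n r c hm hn hsum ε h0 h1 s hs, l1 s hs⟩, l2⟩

theorem tinput_bits (r : Fin m → ℕ) (c : Fin n → ℕ) (hsum : ∑ i, r i = ∑ j, c j) (ε : ℚ)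
    (h1 : ε < 1) (A : ℕ) (hA : ∑ i, r i < 2 ^ A) :
    Bits (m + n + A + Nat.size ε.den) (tinput r c ε) := by
  have mono : ∀ a b : ℕ, a ≤ b → 2 ^ a ≤ 2 ^ b := fun a b h => Nat.pow_le_pow_right (by norm_num) h
  have h2 : ε.num < ε.den := Rat.num_lt_denom_iff.2 h1
  have a1 : m + n < 2 ^ (m + n + A + Nat.size ε.den) :=
    Nat.lt_two_pow_self.trans_le (mono _ _ (by omega))
  have a2 : ε.den < 2 ^ (m + n + A + Nat.size ε.den) :=
    (Nat.lt_size_self _).trans_le (mono _ _ (by omega))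
  have a3 : ∑ i, r i < 2 ^ (m + n + A + Nat.size ε.den) := hA.trans_le (mono _ _ (by omega))
  intro a i
  unfold tinput
  split_ifs with c1 c2 c3 c4
  · exact (single_le_sum (f := r) (fun _ _ => Nat.zero_le _) (mem_univ _)).trans_lt a3
  · omega
  · exact (single_le_sum (f := c) (fun _ _ => Nat.zero_le _) (mem_univ _)).trans_lt (hsum ▸ a3)
  all_goals omega

theorem main_bit : ∃ (P : Prog) (C d : ℕ), ∀ (m n : ℕ) (r : Fin m → ℕ) (c : Fin n → ℕ),
    1 ≤ m → 1 ≤ n → ∑ i, r i = ∑ j, c j → ∀ ε : ℚ, 0 < ε → ε < 1 →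
      (∀ s ∈ (P.runBit noOracle (tinput r c ε, 0)).support,
        (s.2 : ℝ) ≤ C * (len r c + Real.log (1 / (ε : ℝ)) + Nat.size ε.den + 1) ^ d ∧
          toutput m n s.1 ∈ tables r c) ∧
      tvUniform ((P.runBit noOracle (tinput r c ε, 0)).map fun s => toutput m n s.1)
        (tables r c) ≤ ε := by
  obtain ⟨C, d, H⟩ := sampler_time
  obtain ⟨z, hz⟩ : ∃ z, z = sampler.sz + 1 := ⟨_, rfl⟩
  refine ⟨sampler, C * (2 * (z + 1) * (z * C + z + 3)), 2 * d + 1,
    fun m n r c hm hn hsum ε h0 h1 => ?_⟩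
  obtain ⟨l1, l2⟩ := law_of r c hm hn hsum ε h0 h1 (sampler.runBit noOracle (tinput r c ε, 0))
    fun G => runBit_prob noOracle sampler G _
  refine ⟨fun s hs => ⟨?_, l1 s hs⟩, l2⟩
  obtain ⟨A, hA, hA'⟩ := exists_bits r
  obtain ⟨u, k1, -, k3⟩ := runBit_rel noOracle z (by omega) sampler (by omega) _
    (tinput r c ε, 0) (tinput_bits r c hsum ε h1 A hA) s hs
  have hu := H m n r c hm hn hsum ε h0 h1 _ (k1 0)
  simp only [zero_add] at hu k3
  have l1 := logs_nonneg r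
  have l2 := logs_nonneg c
  have l3 := log_inv_nonneg ε h0 h1
  have m0 : (0 : ℝ) ≤ m := by positivity
  have n0 : (0 : ℝ) ≤ n := by positivity
  have s1 : (0 : ℝ) ≤ Nat.size ε.den := by positivity
  refine (Nat.cast_le.2 k3).trans (bit_num u C _ d 0 _ _ _ (by unfold len; linarith) (by linarith)
    ?_ (by unfold len; push_cast; linarith) hu)
  push_cast
  unfold len
  linarith

end Vale.Agent.P328
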