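import Vale.Agent.P317.Chain

/-! P328: mixing of a reversible chain on a finite set from a Poincare inequality. -/

namespace Vale.Agent.P328
open Finset Vale.Agent.P317

variable {α M : Type} [Fintype M]

/-- One step of a Metropolis chain as an operator on functions. -/
def stp (θ : ℝ) (mv : M → α → α) (acc : α → α → ℝ) (f : α → ℝ) (x : α) : ℝ :=
  f x + θ * ∑ k, acc x (mv k x) * (f (mv k x) - f x)

/-- Dirichlet form. -/
def dir (B : Finset α) (mv : M → α → α) (W f : α → ℝ) : ℝ :=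
  ∑ x ∈ B, ∑ k, min (W x) (W (mv k x)) * (f x - f (mv k x)) ^ 2

theorem swap_of_inv (B : Finset α) (mv : M → α → α) (inv : α → M → M)
    (h0 : ∀ x ∈ B, ∀ k, mv k x ∈ B) (h1 : ∀ x ∈ B, ∀ k, mv (inv x k) (mv k x) = x)
    (h2 : ∀ x ∈ B, ∀ k, inv (mv k x) (inv x k) = k) (F : α → α → ℝ) :
    ∑ x ∈ B, ∑ k, F x (mv k x) = ∑ x ∈ B, ∑ k, F (mv k x) x := by
  rw [← sum_product', ← sum_product']
  refine sum_nbij' (fun p => (mv p.2 p.1, inv p.1 p.2)) (fun p => (mv p.2 p.1, inv p.1 p.2))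
    ?_ ?_ ?_ ?_ ?_
  · intro p hp; exact mem_product.2 ⟨h0 _ (mem_product.1 hp).1 _, mem_univ _⟩
  · intro p hp; exact mem_product.2 ⟨h0 _ (mem_product.1 hp).1 _, mem_univ _⟩
  · intro p hp; simp only [h1 _ (mem_product.1 hp).1, h2 _ (mem_product.1 hp).1]
  · intro p hp; simp only [h1 _ (mem_product.1 hp).1, h2 _ (mem_product.1 hp).1]
  · intro p hp; simp only [h1 _ (mem_product.1 hp).1]

theorem acc_le (θ : ℝ) (mv : M → α → α) (acc : α → α → ℝ) (hθ : 0 ≤ θ)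
    (hθ1 : θ * Fintype.card M ≤ 1 / 2) (h1 : ∀ x y, acc x y ≤ 1) (x : α) :
    θ * ∑ k, acc x (mv k x) ≤ 1 / 2 := by
  refine le_trans (mul_le_mul_of_nonneg_left ?_ hθ) hθ1
  refine (sum_le_sum fun k _ => h1 x _).trans (le_of_eq ?_)
  simp

theorem markov_stp (θ : ℝ) (mv : M → α → α) (acc : α → α → ℝ) (hθ : 0 ≤ θ)
    (hθ1 : θ * Fintype.card M ≤ 1 / 2) (h0 : ∀ x y, 0 ≤ acc x y) (h1 : ∀ x y, acc x y ≤ 1) :
    Markov (stp θ mv acc) := by
  refine ⟨fun f g σ => ?_, fun c f σ => ?_, fun f g hfg σ => ?_, fun σ => ?_⟩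
  · simp only [stp]
    have : ∀ k, acc σ (mv k σ) * (f (mv k σ) + g (mv k σ) - (f σ + g σ))
        = acc σ (mv k σ) * (f (mv k σ) - f σ) + acc σ (mv k σ) * (g (mv k σ) - g σ) :=
      fun k => by ring
    simp only [this, sum_add_distrib]
    ring
  · simp only [stp]
    have : ∀ k, acc σ (mv k σ) * (c * f (mv k σ) - c * f σ)
        = c * (acc σ (mv k σ) * (f (mv k σ) - f σ)) := fun k => by ring
    simp only [this, ← mul_sum]
    ring
  · unfold stp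
    have a1 : ∑ k, acc σ (mv k σ) * (g σ - f σ) * -1
        ≤ ∑ k, (acc σ (mv k σ) * (g (mv k σ) - g σ) - acc σ (mv k σ) * (f (mv k σ) - f σ)) :=
      sum_le_sum fun k _ => by nlinarith [h0 σ (mv k σ), hfg (mv k σ)]
    rw [sum_sub_distrib, ← sum_mul, ← sum_mul] at a1
    have a2 := acc_le θ mv acc hθ hθ1 h1 σ
    have a3 := mul_le_mul_of_nonneg_left a1 hθ
    have a4 := mul_le_mul_of_nonneg_right a2 (sub_nonneg.2 (hfg σ))
    nlinarith [hfg σ]
  · simp [stp]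

theorem mixing' (B : Finset α) (θ : ℝ) (mv : M → α → α) (acc : α → α → ℝ) (hθ : 0 ≤ θ)
    (hθ2 : θ ≤ 1) (hθ1 : θ * Fintype.card M ≤ 1 / 2) (h0 : ∀ x y, 0 ≤ acc x y)
    (h1 : ∀ x y, acc x y ≤ 1)
    (hsw : ∀ F : α → α → ℝ, ∑ x ∈ B, ∑ k, F x (mv k x) = ∑ x ∈ B, ∑ k, F (mv k x) x)
    (W : α → ℝ) (hW : ∀ σ, 0 ≤ W σ) (hacc : ∀ σ σ', W σ * acc σ σ' = min (W σ) (W σ'))
    (K : ℝ) (hK : 1 ≤ K)
    (hP : ∀ f : α → ℝ, (∑ σ ∈ B, W σ) * (∑ σ ∈ B, W σ * f σ ^ 2) - (∑ σ ∈ B, W σ * f σ) ^ 2 ≤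
      K * (∑ σ ∈ B, W σ) * dir B mv W f)
    (σ0 : α) (hB0 : σ0 ∈ B) (hσ0 : 0 < W σ0) (f : α → ℝ) (hf0 : ∀ σ, 0 ≤ f σ) (hf1 : ∀ σ, f σ ≤ 1)
    (T : ℕ) :
    ((stp θ mv acc)^[T] f σ0 - (∑ σ ∈ B, W σ * f σ) / (∑ σ ∈ B, W σ)) ^ 2 ≤
      (1 - θ / (2 * K)) ^ T * ((∑ σ ∈ B, W σ) / W σ0) := by
  have pair : ∀ f g : α → ℝ, 2 * ∑ σ ∈ B, W σ * (g σ * (stp θ mv acc f σ - f σ))
      = -θ * ∑ σ ∈ B, ∑ k, min (W σ) (W (mv k σ)) * ((g σ - g (mv k σ)) * (f σ - f (mv k σ))) := by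
    intro f g
    have e1 : ∑ σ ∈ B, W σ * (g σ * (stp θ mv acc f σ - f σ)) = θ * ∑ σ ∈ B, ∑ k,
        min (W σ) (W (mv k σ)) * (g σ * (f (mv k σ) - f σ)) := by
      rw [mul_sum]
      refine sum_congr rfl fun σ _ => ?_
      rw [stp, add_sub_cancel_left]
      simp only [mul_sum, ← hacc]
      exact sum_congr rfl fun m _ => by ring
    have e2 := hsw (fun σ σ' => min (W σ) (W σ') * (g σ * (f σ' - f σ)))
    have e3 : ∑ σ ∈ B, ∑ k, min (W σ) (W (mv k σ)) * ((g σ - g (mv k σ)) * (f σ - f (mv k σ)))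
        = -(∑ σ ∈ B, ∑ k, min (W σ) (W (mv k σ)) * (g σ * (f (mv k σ) - f σ))
          + ∑ σ ∈ B, ∑ k, min (W (mv k σ)) (W σ) * (g (mv k σ) * (f σ - f (mv k σ)))) := by
      rw [← sum_add_distrib, ← sum_neg_distrib]
      refine sum_congr rfl fun σ _ => ?_
      rw [← sum_add_distrib, ← sum_neg_distrib]
      refine sum_congr rfl fun m _ => ?_
      rw [min_comm (W (mv m σ))]
      ring
    rw [e1, e3, ← e2]
    ring
  have mean : ∀ f : α → ℝ, ∑ σ ∈ B, W σ * stp θ mv acc f σ = ∑ σ ∈ B, W σ * f σ := by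
    intro f
    have := pair f (fun _ => 1)
    simp only [one_mul, sub_self, zero_mul, mul_zero, sum_const_zero, mul_sub,
      sum_sub_distrib] at this
    linarith
  have nrm : ∀ f : α → ℝ, ∑ σ ∈ B, W σ * stp θ mv acc f σ ^ 2
      ≤ ∑ σ ∈ B, W σ * f σ ^ 2 - θ / 2 * dir B mv W f := by
    intro f
    have hd : dir B mv W f = ∑ σ ∈ B, ∑ k, min (W σ) (W (mv k σ))
        * ((f σ - f (mv k σ)) * (f σ - f (mv k σ))) := by
      simp only [dir, sq]
    have e1 := pair f f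
    rw [← hd] at e1
    have e2 : ∑ σ ∈ B, W σ * (stp θ mv acc f σ - f σ) ^ 2 ≤ θ / 2 * dir B mv W f := by
      rw [hd, mul_sum]
      refine sum_le_sum fun σ _ => ?_
      rw [stp, add_sub_cancel_left]
      have a1 := sum_sq_le_sum_mul_sum_of_sq_le_mul (univ : Finset M)
        (r := fun m => acc σ (mv m σ) * (f (mv m σ) - f σ))
        (f := fun m => acc σ (mv m σ))
        (g := fun m => acc σ (mv m σ) * (f (mv m σ) - f σ) ^ 2)
        (fun m _ => h0 _ _) (fun m _ => mul_nonneg (h0 _ _) (sq_nonneg _))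
        (fun m _ => le_of_eq (by ring))
      have a2 := acc_le θ mv acc hθ hθ1 h1 σ
      set A := ∑ m, acc σ (mv m σ)
      set C := ∑ m, acc σ (mv m σ) * (f (mv m σ) - f σ) ^ 2 with hC
      have hB0 : 0 ≤ C := sum_nonneg fun m _ => mul_nonneg (h0 _ _) (sq_nonneg _)
      have a3 : ∑ m, min (W σ) (W (mv m σ))
          * ((f σ - f (mv m σ)) * (f σ - f (mv m σ))) = W σ * C := by
        rw [hC, mul_sum]
        exact sum_congr rfl fun m _ => by rw [← hacc]; ring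
      rw [a3, mul_pow]
      have a4 := mul_le_mul_of_nonneg_left a1 (sq_nonneg θ)
      have a5 := mul_le_mul_of_nonneg_right a2 (mul_nonneg hθ hB0)
      have a6 : θ ^ 2 * (∑ m, acc σ (mv m σ) * (f (mv m σ) - f σ)) ^ 2 ≤ θ / 2 * C := by nlinarith
      have a7 := mul_le_mul_of_nonneg_left a6 (hW σ)
      linarith
    have e3 : ∑ σ ∈ B, W σ * stp θ mv acc f σ ^ 2 = ∑ σ ∈ B, W σ * f σ ^ 2
        + 2 * ∑ σ ∈ B, W σ * (f σ * (stp θ mv acc f σ - f σ))
        + ∑ σ ∈ B, W σ * (stp θ mv acc f σ - f σ) ^ 2 := by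
      rw [mul_sum, ← sum_add_distrib, ← sum_add_distrib]
      exact sum_congr rfl fun σ _ => by ring
    linarith
  have hM := markov_stp θ mv acc hθ hθ1 h0 h1
  have hZ : 0 < ∑ σ ∈ B, W σ := hσ0.trans_le (single_le_sum (f := W) (fun σ _ => hW σ) hB0)
  set Z := ∑ σ ∈ B, W σ with hZdef
  set c := (∑ σ ∈ B, W σ * f σ) / Z with hc
  have hρ : 0 ≤ 1 - θ / (2 * K) := by
    rw [sub_nonneg, div_le_one (by linarith)]; linarith
  have key : ∀ (T : ℕ) (g : α → ℝ), ∑ σ ∈ B, W σ * g σ = 0 →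
      ∑ σ ∈ B, W σ * (stp θ mv acc)^[T] g σ ^ 2
        ≤ (1 - θ / (2 * K)) ^ T * ∑ σ ∈ B, W σ * g σ ^ 2 := by
    intro T
    induction T with
    | zero => intro g _; simp
    | succ T ih =>
      intro g hg
      rw [Function.iterate_succ_apply, pow_succ, mul_assoc]
      refine (ih _ (by rw [mean, hg])).trans ?_
      refine mul_le_mul_of_nonneg_left ?_ (pow_nonneg hρ _)
      have a1 := nrm g
      have a2 := hP g
      rw [hg] at a2
      have a3 : ∑ σ ∈ B, W σ * g σ ^ 2 ≤ K * dir B mv W g := by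
        refine le_of_mul_le_mul_left ?_ hZ
        linarith
      have a4 : θ / (2 * K) * ∑ σ ∈ B, W σ * g σ ^ 2 ≤ θ / 2 * dir B mv W g := by
        have := mul_le_mul_of_nonneg_left a3 (by positivity : 0 ≤ θ / (2 * K))
        refine this.trans (le_of_eq ?_)
        field_simp
      linarith
  have hcen : ∑ σ ∈ B, W σ * (f σ + -c) = 0 := by
    simp only [mul_add, sum_add_distrib, ← sum_mul]
    rw [← hZdef, hc]; field_simp; ring
  have a1 := key T (fun σ => f σ + -c) hcen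
  have a2 : ∀ σ, (stp θ mv acc)^[T] (fun σ => f σ + -c) σ = (stp θ mv acc)^[T] f σ - c := by
    intro σ
    have b1 := (hM.iterate T).add f (fun _ => -c) σ
    have b2 := (hM.iterate T).const (-c) σ
    rw [b1, b2]; ring
  have hc0 : 0 ≤ c := div_nonneg (sum_nonneg fun σ _ => mul_nonneg (hW σ) (hf0 σ)) hZ.le
  have hc1 : c ≤ 1 := by
    rw [hc, div_le_one hZ]
    exact sum_le_sum fun σ _ => mul_le_of_le_one_right (hW σ) (hf1 σ)
  have a3 : ∑ σ ∈ B, W σ * (f σ + -c) ^ 2 ≤ Z :=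
    sum_le_sum fun σ _ => mul_le_of_le_one_right (hW σ) (by nlinarith [hf0 σ, hf1 σ])
  simp only [a2] at a1
  have a4 : W σ0 * ((stp θ mv acc)^[T] f σ0 - c) ^ 2
      ≤ ∑ σ ∈ B, W σ * ((stp θ mv acc)^[T] f σ - c) ^ 2 :=
    single_le_sum (f := fun σ => W σ * ((stp θ mv acc)^[T] f σ - c) ^ 2)
      (fun σ _ => mul_nonneg (hW σ) (sq_nonneg _)) hB0
  have a5 := mul_le_mul_of_nonneg_left a3 (pow_nonneg hρ T)
  rw [← mul_div_assoc, le_div_iff₀ hσ0]
  linarith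

/-- The variance form. -/
def vform (B : Finset α) (W f : α → ℝ) : ℝ :=
  (∑ σ ∈ B, W σ) * (∑ σ ∈ B, W σ * f σ ^ 2) - (∑ σ ∈ B, W σ * f σ) ^ 2

theorem vform_eq (B : Finset α) (W f : α → ℝ) :
    2 * vform B W f = ∑ x ∈ B, ∑ y ∈ B, W x * W y * (f x - f y) ^ 2 := by
  have e : ∀ x y, W x * W y * (f x - f y) ^ 2
      = W x * (W y * f y ^ 2) + (W x * f x ^ 2) * W y - 2 * ((W x * f x) * (W y * f y)) :=
    fun x y => by ring
  simp only [e, sum_sub_distrib, sum_add_distrib, ← mul_sum, ← sum_mul, vform]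
  ring

theorem vform_le (B : Finset α) (W W' f : α → ℝ) (C : ℝ) (h0 : ∀ x ∈ B, 0 ≤ W x)
    (h : ∀ x ∈ B, W x ≤ C * W' x) : vform B W f ≤ C ^ 2 * vform B W' f := by
  have a1 := vform_eq B W f
  have a2 := vform_eq B W' f
  have : ∑ x ∈ B, ∑ y ∈ B, W x * W y * (f x - f y) ^ 2
      ≤ C ^ 2 * ∑ x ∈ B, ∑ y ∈ B, W' x * W' y * (f x - f y) ^ 2 := by
    rw [mul_sum]
    refine sum_le_sum fun x hx => ?_
    rw [mul_sum]
    refine sum_le_sum fun y hy => ?_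
    have := mul_le_mul (h x hx) (h y hy) (h0 y hy) ((h0 x hx).trans (h x hx))
    nlinarith [mul_le_mul_of_nonneg_right this (sq_nonneg (f x - f y))]
  rw [← a1, ← a2] at this
  linarith

/-- Repeated trials that overwrite the stored value on success. -/
theorem trials {β : Type} {T : (β → ℝ) → β → ℝ} (hT : Markov T) (ψ : β → ℝ) (p U η : ℝ)
    (hp1 : p ≤ 1) (hη : 0 ≤ η) (hp0 : 0 ≤ p)
    (h : ∀ z, |T ψ z - (p * U + (1 - p) * ψ z)| ≤ η) (z0 : β) (h0 : |ψ z0 - U| ≤ 1) (j : ℕ) :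
    |T^[j] ψ z0 - U| ≤ (1 - p) ^ j + j * η := by
  induction j with
  | zero => simpa using h0
  | succ j ih =>
    have hj := hT.iterate j
    have up := hj.mono (T ψ) (fun z => (1 - p) * ψ z + (p * U + η))
      (fun z => by have := (abs_le.1 (h z)).2; linarith) z0
    have lo := hj.mono (fun z => (1 - p) * ψ z + (p * U - η)) (T ψ)
      (fun z => by have := (abs_le.1 (h z)).1; linarith) z0
    have e : ∀ k : ℝ, T^[j] (fun z => (1 - p) * ψ z + k) z0 = (1 - p) * T^[j] ψ z0 + k := by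
      intro k
      have a1 := hj.add (fun z => (1 - p) * ψ z) (fun _ => k) z0
      have a2 := hj.smul (1 - p) ψ z0
      have a3 := hj.const k z0
      exact a1.trans (by rw [a2, a3])
    simp only [e] at up lo
    rw [Function.iterate_succ_apply, pow_succ]
    obtain ⟨i1, i2⟩ := abs_le.1 ih
    have q := sub_nonneg.2 hp1
    have j1 := mul_le_mul_of_nonneg_left i1 q
    have j2 := mul_le_mul_of_nonneg_left i2 q
    have j3 : 0 ≤ p * (j * η) := by positivity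
    push_cast
    rw [abs_le]
    constructor <;> nlinarith

end Vale.Agent.P328
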