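import Vale.Agent.P328.Count
import Vale.Agent.P328.Mix

/-! P328: the abstract sampler. -/

namespace Vale.Agent.P328
open Finset Vale.Agent.P317

/-- Least number of doublings of `a` needed to reach `d`. -/
noncomputable def lg (a d : ℕ) : ℕ := sInf {k | d ≤ a * 2 ^ k}

theorem lg_spec {a : ℕ} (ha : 0 < a) (d : ℕ) : d ≤ a * 2 ^ lg a d := by
  have : {k | d ≤ a * 2 ^ k}.Nonempty :=
    ⟨d, Nat.lt_two_pow_self.le.trans (Nat.le_mul_of_pos_left _ ha)⟩
  exact Nat.sInf_mem this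

theorem lg_le {a d k : ℕ} (h : d ≤ a * 2 ^ k) : lg a d ≤ k := Nat.sInf_le h

theorem lt_lg {a d k : ℕ} (h : k < lg a d) : a * 2 ^ k < d := by
  by_contra hcon
  have := lg_le (not_lt.1 hcon)
  omega

theorem lg_min (a d : ℕ) : lg a d = 0 ∨ a * 2 ^ lg a d < 2 * d := by
  rcases Nat.eq_zero_or_pos (lg a d) with h | h
  · exact Or.inl h
  · right
    have := lt_lg (show lg a d - 1 < lg a d by omega)
    rw [show lg a d = lg a d - 1 + 1 by omega, pow_succ, ← mul_assoc]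
    omega

/-- An instance with its pivots and the size parameter. -/
structure Inst (m n : ℕ) where
  r : Fin m → ℕ
  c : Fin n → ℕ
  i0 : Fin m
  j0 : Fin n
  L : ℕ
  hsum : ∑ i, r i = ∑ j, c j
  hi0 : ∀ i, r i ≤ r i0
  hj0 : ∀ j, c j ≤ c j0
  hL : 2 * (m * n) + m + n + 64 ≤ 2 ^ L

variable {m n : ℕ}

abbrev Tab (m n : ℕ) : Type := Fin m × Fin n → ℕ

namespace Inst
variable (D : Inst m n)

def P : ℕ := 2 ^ D.L
def N : ℕ := ∑ i, D.r i
def kap (e : Fin m × Fin n) : ℕ := min (D.r e.1) (D.c e.2)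
def fr (e : Fin m × Fin n) : Prop := e.1 = D.i0 ∨ e.2 = D.j0
instance : DecidablePred D.fr := fun e => by unfold fr; infer_instance
def Q : ℕ := D.kap (D.i0, D.j0) + D.P ^ 4
noncomputable def sx (e : Fin m × Fin n) : ℕ := if D.fr e then 0 else lg (D.P ^ 9) (D.kap e + 1)
noncomputable def S (e : Fin m × Fin n) : ℕ := 2 ^ D.sx e
def R (e : Fin m × Fin n) : ℕ := if D.fr e then 1 else D.P ^ 9
noncomputable def u (e : Fin m × Fin n) : ℕ := 2 ^ lg (D.kap e + D.P ^ 4) D.Q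
def pA (X : Tab m n) (e : Fin m × Fin n) : ℕ :=
  if e.1 = D.i0 then (if e.2 = D.j0 then tot X + D.r D.i0 + D.c D.j0 else D.c e.2)
  else if e.2 = D.j0 then D.r e.1 else X e
def pB (X : Tab m n) (e : Fin m × Fin n) : ℕ :=
  if e.1 = D.i0 then (if e.2 = D.j0 then D.N else col X e.2)
  else if e.2 = D.j0 then row X e.1 else 0
def cmp (X : Tab m n) : Tab m n := fun e => D.pA X e - D.pB X e
def dfc (X : Tab m n) (e : Fin m × Fin n) : ℕ := D.pB X e - D.pA X e
noncomputable def DD (X : Tab m n) : ℕ := ∑ e, D.u e * D.dfc X e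
noncomputable def En (X : Tab m n) : ℕ := 8 * D.P ^ 4 * D.DD X / D.Q
noncomputable def cor (Y : Tab m n) : Tab m n := fun e => D.S e * Y e
noncomputable def W (Y : Tab m n) : ℝ := (1 / (D.P : ℝ)) ^ D.En (D.cor Y)
noncomputable def acc (Y Y' : Tab m n) : ℝ := (1 / (D.P : ℝ)) ^ (D.En (D.cor Y') - D.En (D.cor Y))
def mv (k : (Fin m × Fin n) × Bool) (Y : Tab m n) : Tab m n :=
  bif k.2 then (if Y k.1 + 1 < D.R k.1 then Function.update Y k.1 (Y k.1 + 1) else Y)
  else Function.update Y k.1 (Y k.1 - 1)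
noncomputable def step : (Tab m n → ℝ) → Tab m n → ℝ := stp (1 / (2 * D.P)) D.mv D.acc
noncomputable def low (ψ : Tab m n → ℝ) (X : Tab m n) : ℝ :=
  (∑ ρ ∈ box D.S, ψ (X + ρ)) / ∏ e, (D.S e : ℝ)
noncomputable def trial (ψ : Tab m n → ℝ) (Z : Tab m n) : ℝ :=
  D.step^[D.P ^ 140]
    (fun Y => D.low (fun X => if D.DD X = 0 then ψ (D.cmp X) else ψ Z) (D.cor Y)) 0

theorem P64 : 64 ≤ D.P := by have := D.hL; unfold P; omega
theorem Pmn : 2 * (m * n) ≤ D.P := by have := D.hL; unfold P; omega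
theorem Pmn' : m + n ≤ D.P := by have := D.hL; unfold P; omega
theorem Ppos : 0 < D.P := by have := D.P64; omega
theorem PR : (64 : ℝ) ≤ D.P := by exact_mod_cast D.P64
theorem Qpos : 0 < D.Q := by have := pow_pos D.Ppos 4; unfold Q; omega
theorem Spos (e : Fin m × Fin n) : 0 < D.S e := by unfold S; positivity
theorem Rpos (e : Fin m × Fin n) : 0 < D.R e := by
  unfold R; split_ifs; exacts [one_pos, pow_pos D.Ppos 9]
theorem R_le (e : Fin m × Fin n) : D.R e ≤ D.P ^ 9 := by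
  unfold R; split_ifs; exacts [pow_pos D.Ppos 9, le_rfl]
theorem upos (e : Fin m × Fin n) : 0 < D.u e := by unfold u; positivity

theorem S_fr {e : Fin m × Fin n} (h : D.fr e) : D.S e = 1 := by simp [S, sx, h]
theorem R_fr {e : Fin m × Fin n} (h : D.fr e) : D.R e = 1 := by simp [R, h]

theorem kap_lt {e : Fin m × Fin n} (h : ¬ D.fr e) : D.kap e < D.S e * D.R e := by
  have := lg_spec (pow_pos D.Ppos 9) (D.kap e + 1)
  simp only [S, sx, R, if_neg h]
  rw [mul_comm]; omega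

theorem S_small (e : Fin m × Fin n) : D.S e = 1 ∨ D.P ^ 9 * D.S e < 2 * (D.kap e + 1) := by
  by_cases h : D.fr e
  · exact Or.inl (D.S_fr h)
  · simp only [S, sx, if_neg h]
    rcases lg_min (D.P ^ 9) (D.kap e + 1) with h1 | h1
    · left; rw [h1]; rfl
    · exact Or.inr h1

theorem kap_le (e : Fin m × Fin n) : D.kap e ≤ D.kap (D.i0, D.j0) :=
  min_le_min (D.hi0 _) (D.hj0 _)
theorem kap_le1 (e : Fin m × Fin n) : D.kap e ≤ D.kap (e.1, D.j0) := min_le_min le_rfl (D.hj0 _)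
theorem kap_le2 (e : Fin m × Fin n) : D.kap e ≤ D.kap (D.i0, e.2) := min_le_min (D.hi0 _) le_rfl

theorem u_lo (e : Fin m × Fin n) : D.Q ≤ (D.kap e + D.P ^ 4) * D.u e :=
  lg_spec (by have := pow_pos D.Ppos 4; omega) _

theorem u_hi (e : Fin m × Fin n) : (D.kap e + D.P ^ 4) * D.u e ≤ 2 * D.Q := by
  unfold u
  rcases lg_min (D.kap e + D.P ^ 4) D.Q with h | h
  · rw [h]
    have := D.kap_le e
    unfold Q; omega
  · exact h.le

theorem u_16 (v : Fin m × Fin n) : 8 * D.P ^ 4 * D.u v ≤ 16 * D.Q := by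
  have := D.u_hi v
  rw [add_mul] at this
  rw [mul_assoc]; omega

theorem uS_small (v e : Fin m × Fin n) (h : D.kap e ≤ D.kap v) (hS : D.S e ≠ 1) :
    D.P ^ 5 * (8 * D.P ^ 4 * D.u v * D.S e) ≤ 32 * D.Q := by
  have h1 := (D.S_small e).resolve_left hS
  have h2 := D.u_hi v
  have h3 : 1 ≤ D.P ^ 4 := pow_pos D.Ppos 4
  have h4 : D.P ^ 9 * D.S e * D.u v ≤ 2 * (D.kap v + D.P ^ 4) * D.u v :=
    Nat.mul_le_mul_right _ (by omega)
  have e : D.P ^ 5 * (8 * D.P ^ 4 * D.u v * D.S e) = 8 * (D.P ^ 9 * D.S e * D.u v) := by ring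
  rw [e]
  rw [mul_assoc 2] at h4
  omega

theorem uS_16 (v e : Fin m × Fin n) (h : D.kap e ≤ D.kap v) :
    8 * D.P ^ 4 * D.u v * D.S e ≤ 16 * D.Q := by
  by_cases hS : D.S e = 1
  · rw [hS, mul_one]; exact D.u_16 v
  · have h1 := D.uS_small v e h hS
    have h2 : 2 ≤ D.P ^ 5 := le_trans (by have := D.P64; omega) (Nat.le_self_pow (by norm_num) _)
    have h3 := Nat.mul_le_mul_right (8 * D.P ^ 4 * D.u v * D.S e) h2
    omega

theorem N_le : D.N ≤ D.P * D.kap (D.i0, D.j0) := by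
  have h1 : D.N ≤ m * D.r D.i0 := by
    have := sum_le_card_nsmul univ D.r (D.r D.i0) (fun i _ => D.hi0 i)
    simpa [N] using this
  have h2 : D.N ≤ n * D.c D.j0 := by
    have := sum_le_card_nsmul univ D.c (D.c D.j0) (fun i _ => D.hj0 i)
    rw [← D.hsum] at this
    simpa [N] using this
  have := D.Pmn'
  unfold kap
  rcases le_total (D.r D.i0) (D.c D.j0) with h | h
  · rw [min_eq_left h]; exact h1.trans (Nat.mul_le_mul_right _ (by omega))
  · rw [min_eq_right h]; exact h2.trans (Nat.mul_le_mul_right _ (by omega))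

/-- The tables whose frozen cells vanish. -/
def Z0 (X : Tab m n) : Prop := ∀ e, D.fr e → X e = 0

theorem Z0.row {D : Inst m n} {X : Tab m n} (h : D.Z0 X) : row X D.i0 = 0 :=
  sum_eq_zero fun j _ => h _ (Or.inl rfl)
theorem Z0.col {D : Inst m n} {X : Tab m n} (h : D.Z0 X) : col X D.j0 = 0 :=
  sum_eq_zero fun j _ => h _ (Or.inr rfl)

/-- The fine box. -/
noncomputable def fine : Finset (Tab m n) := box fun e => D.S e * D.R e

theorem z0_of_fine {X : Tab m n} (h : X ∈ D.fine) : D.Z0 X := by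
  intro e he
  have := mem_box.1 h e
  rw [D.S_fr he, D.R_fr he] at this
  omega

theorem DD_eq {X : Tab m n} (h : D.Z0 X) : D.DD X = ∑ i, D.u (i, D.j0) * (row X i - D.r i)
    + ∑ j, D.u (D.i0, j) * (col X j - D.c j)
    + D.u (D.i0, D.j0) * (D.N - (tot X + D.r D.i0 + D.c D.j0)) := by
  have e : ∀ e : Fin m × Fin n, D.u e * D.dfc X e
      = (if e.2 = D.j0 then D.u (e.1, D.j0) * (row X e.1 - D.r e.1) else 0)
        + (if e.1 = D.i0 then D.u (D.i0, e.2) * (col X e.2 - D.c e.2) else 0)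
        + (if e = (D.i0, D.j0) then
          D.u (D.i0, D.j0) * (D.N - (tot X + D.r D.i0 + D.c D.j0)) else 0) := by
    rintro ⟨i, j⟩
    by_cases h1 : i = D.i0 <;> by_cases h2 : j = D.j0 <;>
      simp [dfc, pA, pB, h1, h2, h.row, h.col]
  simp only [DD, e, sum_add_distrib, sum_ite_eq', mem_univ, if_true]
  rw [Fintype.sum_prod_type, Fintype.sum_prod_type_right]
  simp

theorem sum_fine (H : Tab m n → ℝ) :
    ∑ X ∈ D.fine, H X = ∑ Y ∈ box D.R, ∑ ρ ∈ box D.S, H (D.cor Y + ρ) := by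
  rw [← sum_product']
  symm
  refine sum_nbij' (fun p => D.cor p.1 + p.2) (fun X => (fun e => X e / D.S e, fun e => X e % D.S e))
    ?_ ?_ ?_ ?_ (fun _ _ => rfl)
  · intro p hp
    obtain ⟨h1, h2⟩ := mem_product.1 hp
    refine mem_box.2 fun e => ?_
    have a1 := mem_box.1 h1 e
    have a2 := mem_box.1 h2 e
    have := Nat.mul_le_mul_left (D.S e) (Nat.succ_le_of_lt a1)
    simp only [cor, Pi.add_apply]
    rw [Nat.mul_succ] at this
    omega
  · intro X hX
    refine mem_product.2 ⟨mem_box.2 fun e => ?_, mem_box.2 fun e => Nat.mod_lt _ (D.Spos e)⟩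
    exact Nat.div_lt_of_lt_mul (mem_box.1 hX e)
  · intro p hp
    obtain ⟨h1, h2⟩ := mem_product.1 hp
    refine Prod.ext (funext fun e => ?_) (funext fun e => ?_)
    · simp only [cor, Pi.add_apply]
      rw [Nat.mul_add_div (D.Spos e), Nat.div_eq_of_lt (mem_box.1 h2 e), add_zero]
    · simp only [cor, Pi.add_apply]
      rw [Nat.mul_add_mod, Nat.mod_eq_of_lt (mem_box.1 h2 e)]
  · intro X _
    funext e
    exact Nat.div_add_mod _ _

end Inst

end Vale.Agent.P328
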