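import Vale.Agent.P328.Lip

/-! P328: the Poincare inequality for the coarse chain. -/

namespace Vale.Agent.P328
open Finset Vale.Agent.P317

variable {m n : ℕ}

theorem sec_pow {x : ℝ} (hx : 0 < x) (g : ℕ → ℕ) (c d : ℕ) (h : g c + g (c + 2) = 2 * g (c + 1) + d) :
    sec (fun k => x ^ g k) c = x ^ d := by
  unfold sec
  rw [← pow_add, h, ← pow_mul, pow_add, mul_comm 2]
  field_simp

theorem sec_pow_le {x γ : ℝ} (hx : 0 < x) (hx1 : x ≤ 1) (hγ : γ ≤ x) (g : ℕ → ℕ) (c : ℕ)
    (h1 : 2 * g (c + 1) ≤ g c + g (c + 2)) (h2 : g c + g (c + 2) ≤ 2 * g (c + 1) + 1) :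
    γ ≤ sec (fun k => x ^ g k) c ∧ sec (fun k => x ^ g k) c ≤ 1 := by
  rcases h1.eq_or_lt with h | h
  · rw [sec_pow hx g c 0 (by omega), pow_zero]; exact ⟨hγ.trans hx1, le_rfl⟩
  · rw [sec_pow hx g c 1 (by omega), pow_one]; exact ⟨hγ, hx1⟩

def psi (S k : ℕ) : ℕ := ∑ t ∈ range k, t / S

theorem psi_sec (S c : ℕ) :
    psi S c + psi S (c + 2) = 2 * psi S (c + 1) + if S ∣ c + 1 then 1 else 0 := by
  simp only [psi, sum_range_succ, Nat.succ_div]
  omega

theorem psi_le {S R k : ℕ} (h : k < S * R) : psi S k ≤ S * (R * R) := by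
  have : ∀ t ∈ range k, t / S ≤ R := fun t ht =>
    (Nat.div_lt_of_lt_mul ((mem_range.1 ht).trans h)).le
  have h2 := sum_le_card_nsmul _ _ _ this
  rw [card_range, smul_eq_mul] at h2
  exact h2.trans (by rw [← mul_assoc]; exact Nat.mul_le_mul_right _ h.le)

theorem card_top {E : Type} [Fintype E] [DecidableEq E] (S : E → ℕ) (e : E) :
    ((box S).filter fun ρ => ρ e + 1 = S e).card * S e ≤ ∏ x, S x := by
  have : ((box S).filter fun ρ => ρ e + 1 = S e)
      ⊆ Fintype.piFinset (Function.update (fun x => range (S x)) e {S e - 1}) := by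
    intro ρ hρ
    obtain ⟨h1, h2⟩ := mem_filter.1 hρ
    refine Fintype.mem_piFinset.2 fun x => ?_
    by_cases hx : x = e
    · subst hx; simp; omega
    · simp [hx, mem_box.1 h1 x]
  have h2 := card_le_card this
  rw [Fintype.card_piFinset, ← mul_prod_erase _ _ (mem_univ e), Function.update_self,
    card_singleton, one_mul] at h2
  rw [← mul_prod_erase _ _ (mem_univ e), mul_comm]
  refine Nat.mul_le_mul_left _ (h2.trans (le_of_eq (prod_congr rfl fun x hx => ?_)))
  rw [Function.update_of_ne (ne_of_mem_erase hx), card_range]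

namespace Inst
variable (D : Inst m n)

noncomputable def q (X : Tab m n) : Tab m n := fun e => X e / D.S e
noncomputable def V : ℝ := ∏ e, (D.S e : ℝ)

theorem V_pos : 0 < D.V := prod_pos fun e _ => by exact_mod_cast D.Spos e

theorem q_cor (Y : Tab m n) {ρ : Tab m n} (h : ρ ∈ box D.S) : D.q (D.cor Y + ρ) = Y := by
  funext e
  simp only [q, cor, Pi.add_apply]
  rw [Nat.mul_add_div (D.Spos e), Nat.div_eq_of_lt (mem_box.1 h e), add_zero]

theorem card_S : ((box D.S).card : ℝ) = D.V := by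
  simp [box, V]

theorem sum_q (H : Tab m n → ℝ) : ∑ X ∈ D.fine, H (D.q X) = D.V * ∑ Y ∈ box D.R, H Y := by
  rw [sum_fine, mul_sum]
  refine sum_congr rfl fun Y _ => ?_
  rw [sum_congr rfl fun ρ hρ => by rw [D.q_cor Y hρ], sum_const, nsmul_eq_mul, card_S]

theorem cmp_q {X : Tab m n} (h : X ∈ D.fine) :
    D.W (D.q X) ≤ (D.P : ℝ) ^ 2 * D.pw (D.Phi X) ∧ D.pw (D.Phi X) ≤ D.P * D.W (D.q X) := by
  have h1 : D.q X ∈ box D.R := mem_box.2 fun e => Nat.div_lt_of_lt_mul (mem_box.1 h e)
  have h2 : (fun e => X e % D.S e) ∈ box D.S := mem_box.2 fun e => Nat.mod_lt _ (D.Spos e)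
  have := D.cmp_W h1 h2
  rwa [show D.cor (D.q X) + (fun e => X e % D.S e) = X from
    funext fun e => Nat.div_add_mod _ _] at this

theorem poincare (f : Tab m n → ℝ) :
    vform (box D.R) D.W f ≤ (D.P : ℝ) ^ 106 * (∑ Y ∈ box D.R, D.W Y) * dir (box D.R) D.mv D.W f := by
  have hP := D.PR
  set p : ℝ := (D.P : ℝ) with hp
  have p0 : 0 < p := by linarith
  let κ : Tab m n := fun e => D.S e * D.R e - 1
  have hκ : ∀ e, κ e + 1 = D.S e * D.R e := fun e =>
    Nat.sub_add_cancel (Nat.mul_pos (D.Spos e) (D.Rpos e))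
  have hfine : box (fun e => κ e + 1) = D.fine := by simp only [hκ, fine]
  set b0 : ℝ := 1 / (2 * p ^ 19) with hb0
  have b0pos : 0 < b0 := by positivity
  have p19 : 1 ≤ p ^ 19 := one_le_pow₀ (by linarith)
  have b0le : b0 ≤ 1 / 2 := by
    rw [hb0]; exact one_div_le_one_div_of_le (by norm_num) (by linarith)
  have S1 : ∀ e, (1 : ℝ) ≤ D.S e := fun e => by exact_mod_cast D.Spos e
  have bS : ∀ e, b0 / D.S e ≤ 1 / 2 := fun e => (div_le_self b0pos.le (S1 e)).trans b0le
  have bS0 : ∀ e, 0 < b0 / D.S e := fun e => div_pos b0pos (by linarith [S1 e])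
  let χ : Fin m × Fin n → ℕ → ℝ := fun e k => (1 - b0 / D.S e) ^ psi (D.S e) k
  let μ : Tab m n → ℝ := fun X => (∏ e, χ e (X e)) * (∏ i, D.th (i, D.j0) ^ (row X i - D.r i))
    * D.th (D.i0, D.j0) ^ (D.N - (tot X + D.r D.i0 + D.c D.j0))
    * ∏ j, D.th (D.i0, j) ^ (col κ j - D.c j - col (fun e => κ e - X e) j)
  let δ : Tab m n → Fin m × Fin n → ℝ := fun X e =>
    if D.S e ∣ X e + 1 ∧ X e < κ e then p ^ 32 * D.S e / b0
      * (f (Function.update (D.q X) e (D.q X e + 1)) - f (D.q X)) ^ 2 else 0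
  have hδ : ∀ X e, 0 ≤ δ X e := fun X e => by
    simp only [δ]; split_ifs <;> positivity
  have tp : ∀ e, 0 < D.th e := fun e => D.pw_pos _
  have hbl := bl_table κ χ (fun i s => D.th (i, D.j0) ^ (s - D.r i))
    (fun s => D.th (D.i0, D.j0) ^ (D.N - (s + D.r D.i0 + D.c D.j0)))
    (fun j s => D.th (D.i0, j) ^ (col κ j - D.c j - s))
    (fun e c => if D.S e ∣ c + 1 then b0 / D.S e else 0) (D.pw 16) (D.pw_pos _).le
    (fun e c => pow_pos (by linarith [bS e]) _) (fun _ _ => pow_pos (tp _) _)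
    (fun _ => pow_pos (tp _) _) (fun _ _ => pow_pos (tp _) _)
    (fun e c => by split_ifs; exacts [(bS0 e).le, le_rfl])
    (fun e c => by split_ifs <;> linarith [bS e])
    (fun e c => by
      rw [sec_pow (by linarith [bS e]) _ c _ (psi_sec _ c)]
      split_ifs <;> simp)
    (fun i c => sec_pow_le (tp _) (D.th_le_one _) (D.le_th _) _ c (by omega) (by omega))
    (fun c => sec_pow_le (tp _) (D.th_le_one _) (D.le_th _) _ c (by omega) (by omega))
    (fun i c => sec_pow_le (tp _) (D.th_le_one _) (D.le_th _) _ c (by omega) (by omega))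
    μ (fun _ => rfl) (fun X => f (D.q X)) δ hδ (by
      intro X e he
      by_cases hd : D.S e ∣ X e + 1
      · have e1 : D.q (Function.update X e (X e + 1)) = Function.update (D.q X) e (D.q X e + 1) := by
          funext x
          by_cases hx : x = e
          · subst hx; simp [q, Nat.succ_div, hd]
          · simp [q, hx]
        have e2 : D.pw 16 ^ 2 * p ^ 32 = 1 := by
          have := D.pw_nat 16
          rw [Nat.cast_ofNat] at this
          rw [this, ← hp]; field_simp
        simp only [δ, hd, he, and_self, if_true, e1]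
        refine le_of_eq ?_
        have := S1 e
        rw [show ∀ y : ℝ, D.pw 16 ^ 2 * (b0 / D.S e) * (p ^ 32 * D.S e / b0 * y)
          = D.pw 16 ^ 2 * p ^ 32 * y from fun y => by field_simp, e2, one_mul]
      · have e1 : D.q (Function.update X e (X e + 1)) = D.q X := by
          funext x
          by_cases hx : x = e
          · subst hx; simp [q, Nat.succ_div, hd]
          · simp [q, hx]
        simp [e1, hd])
  rw [hfine] at hbl
  have hμ : ∀ X ∈ D.fine, μ X = (∏ e, χ e (X e)) * D.pw (D.Phi X) := by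
    intro X hX
    have e1 : D.Phi X = ∑ i, D.wv (i, D.j0) * (row X i - D.r i : ℕ)
        + D.wv (D.i0, D.j0) * (D.N - (tot X + D.r D.i0 + D.c D.j0) : ℕ)
        + ∑ j, D.wv (D.i0, j) * (col X j - D.c j : ℕ) := by
      rw [Phi, D.DD_eq (D.z0_of_fine hX)]
      simp only [wv, Nat.cast_add, Nat.cast_sum, Nat.cast_mul, mul_add, add_div, mul_sum, sum_div]
      rw [add_right_comm]
      congr 1
      · congr 1
        · exact sum_congr rfl fun _ _ => by ring
        · ring
      · exact sum_congr rfl fun _ _ => by ring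
    have e2 : ∀ j, col κ j - D.c j - col (fun e => κ e - X e) j = col X j - D.c j := by
      intro j
      have : col (fun e => κ e - X e) j + col X j = col κ j := by
        simp only [col, ← sum_add_distrib]
        refine sum_congr rfl fun i _ => ?_
        have := mem_box.1 hX (i, j)
        have := hκ (i, j)
        omega
      omega
    rw [e1, pw_add, pw_add, pw_sum, pw_sum]
    simp only [pw_mul, μ, e2, th]
    ring
  have hχ1 : ∀ X : Tab m n, ∏ e, χ e (X e) ≤ 1 := fun X =>
    prod_le_one (fun e _ => pow_nonneg (by linarith [bS e]) _)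
      (fun e _ => pow_le_one₀ (by linarith [bS e]) (by linarith [bS0 e]))
  have hχ2 : ∀ X ∈ D.fine, 1 / 2 ≤ ∏ e, χ e (X e) := by
    intro X hX
    have a1 : ∀ e, 1 - 1 / (2 * p) ≤ χ e (X e) := by
      intro e
      have c1 := one_add_mul_le_pow (a := -(b0 / D.S e)) (by linarith [bS e]) (psi (D.S e) (X e))
      rw [← sub_eq_add_neg] at c1
      refine le_trans ?_ c1
      have c2 : (psi (D.S e) (X e) : ℝ) ≤ D.S e * p ^ 18 := by
        have := psi_le (mem_box.1 hX e)
        have h3 : D.R e * D.R e ≤ D.P ^ 18 := by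
          rw [show 18 = 9 + 9 by norm_num, pow_add]; exact Nat.mul_le_mul (D.R_le e) (D.R_le e)
        rw [hp]
        exact_mod_cast this.trans (Nat.mul_le_mul_left _ h3)
      have c3 := mul_le_mul_of_nonneg_right c2 (bS0 e).le
      have c4 : D.S e * p ^ 18 * (b0 / D.S e) = 1 / (2 * p) := by
        have := S1 e
        rw [hb0]; field_simp
      linarith
    have a0 : 1 / (2 * p) ≤ 1 := by rw [div_le_one (by linarith)]; linarith
    have a2 : (1 - 1 / (2 * p)) ^ (m * n) ≤ ∏ e, χ e (X e) := by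
      have := prod_le_prod (s := univ) (f := fun _ => 1 - 1 / (2 * p)) (fun _ _ => by linarith)
        (fun e _ => a1 e)
      simpa using this
    have a3 := one_add_mul_le_pow (a := -(1 / (2 * p))) (by linarith) (m * n)
    rw [← sub_eq_add_neg] at a3
    have a4 : ((m * n : ℕ) : ℝ) * (1 / (2 * p)) ≤ 1 / 2 := by
      rw [mul_one_div, div_le_div_iff₀ (by linarith) (by norm_num), hp]
      have := D.Pmn
      exact_mod_cast (by omega : m * n * 2 ≤ 1 * (2 * D.P))
    linarith
  have c1 : ∀ X ∈ D.fine, D.W (D.q X) ≤ 2 * p ^ 2 * μ X := by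
    intro X hX
    rw [hμ X hX]
    have := mul_le_mul_of_nonneg_right (hχ2 X hX)
      (mul_pos (pow_pos p0 2) (D.pw_pos (D.Phi X))).le
    linarith [(D.cmp_q hX).1]
  have c2 : ∀ X ∈ D.fine, μ X ≤ p * D.W (D.q X) := by
    intro X hX
    rw [hμ X hX]
    have := mul_le_mul_of_nonneg_right (hχ1 X) (D.pw_pos (D.Phi X)).le
    linarith [(D.cmp_q hX).2]
  have μ0 : ∀ X ∈ D.fine, 0 ≤ μ X := fun X hX => by
    rw [hμ X hX]; exact mul_nonneg (by linarith [hχ2 X hX]) (D.pw_pos _).le
  have v1 := vform_le D.fine (fun X => D.W (D.q X)) μ (fun X => f (D.q X)) (2 * p ^ 2)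
    (fun X _ => (D.W_pos _).le) c1
  have v2 : vform D.fine (fun X => D.W (D.q X)) (fun X => f (D.q X))
      = D.V ^ 2 * vform (box D.R) D.W f := by
    unfold vform
    rw [D.sum_q D.W, D.sum_q (fun Y => D.W Y * f Y ^ 2), D.sum_q (fun Y => D.W Y * f Y)]
    ring
  set Z := ∑ Y ∈ box D.R, D.W Y with hZ
  have Z0 : 0 ≤ Z := sum_nonneg fun Y _ => (D.W_pos Y).le
  have v3 : ∑ X ∈ D.fine, μ X ≤ p * (D.V * Z) := by
    rw [hZ, ← D.sum_q D.W, mul_sum]; exact sum_le_sum c2
  have v4 : ∑ X ∈ D.fine, μ X * ∑ e, δ X e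
      ≤ p * (D.V * (2 * p ^ 99) * dir (box D.R) D.mv D.W f) := by
    refine (sum_le_sum fun X hX => mul_le_mul_of_nonneg_right (c2 X hX)
      (sum_nonneg fun e _ => hδ X e)).trans ?_
    simp only [mul_assoc p]
    rw [← mul_sum]
    refine mul_le_mul_of_nonneg_left ?_ p0.le
    rw [sum_fine, dir, mul_sum]
    refine sum_le_sum fun Y hY => ?_
    rw [Fintype.sum_prod_type (f := fun k => min (D.W Y) (D.W (D.mv k Y))
      * (f Y - f (D.mv k Y)) ^ 2), mul_sum]
    simp only [mul_sum (s := univ) (f := δ _)]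
    rw [sum_comm]
    refine sum_le_sum fun e _ => ?_
    rw [Fintype.sum_bool]
    have n1 : 0 ≤ min (D.W Y) (D.W (D.mv (e, false) Y)) * (f Y - f (D.mv (e, false) Y)) ^ 2 :=
      mul_nonneg (le_min (D.W_pos _).le (D.W_pos _).le) (sq_nonneg _)
    set G := min (D.W Y) (D.W (D.mv (e, true) Y)) * (f Y - f (D.mv (e, true) Y)) ^ 2 with hG
    have n2 : 0 ≤ G := mul_nonneg (le_min (D.W_pos _).le (D.W_pos _).le) (sq_nonneg _)
    have t1 : ∀ ρ ∈ box D.S, D.W (D.q (D.cor Y + ρ)) * δ (D.cor Y + ρ) e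
        ≤ if ρ e + 1 = D.S e then D.S e * (2 * p ^ 99) * G else 0 := by
      intro ρ hρ
      simp only [δ, D.q_cor Y hρ]
      by_cases hc : D.S e ∣ (D.cor Y + ρ) e + 1 ∧ (D.cor Y + ρ) e < κ e
      · obtain ⟨h1, h2⟩ := hc
        have h3 := mem_box.1 hρ e
        simp only [cor, Pi.add_apply] at h1 h2
        have h4 : ρ e + 1 = D.S e := by
          rw [add_assoc, Nat.dvd_add_right (dvd_mul_right _ _)] at h1
          exact le_antisymm h3 (Nat.le_of_dvd (by omega) h1)
        have h5 : Y e + 1 < D.R e := by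
          refine lt_of_mul_lt_mul_left (a := D.S e) ?_ (Nat.zero_le _)
          have := hκ e
          rw [mul_add]; omega
        have h6 : D.mv (e, true) Y = Function.update Y e (Y e + 1) := by simp [mv, h5]
        rw [if_pos ⟨h1 |> fun h => by simpa only [cor, Pi.add_apply] using h,
          by simpa only [cor, Pi.add_apply] using h2⟩, if_pos h4, hG, h6]
        have h7 : D.W Y ≤ p ^ 48 * min (D.W Y) (D.W (Function.update Y e (Y e + 1))) := by
          rw [mul_min_of_nonneg _ _ (by positivity)]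
          refine le_min (le_mul_of_one_le_left (D.W_pos _).le (one_le_pow₀ (by linarith))) ?_
          rw [W_eq, W_eq, hp, ← D.pw_neg_nat, ← pw_add]
          refine D.pw_anti ?_
          have : ((D.En (D.cor (Function.update Y e (Y e + 1))) : ℕ) : ℝ)
              ≤ (D.En (D.cor Y) + 48 : ℕ) := by exact_mod_cast (D.En_up hY h5).1
          push_cast at this ⊢
          linarith
        have h8 := mul_le_mul_of_nonneg_right h7 (show 0 ≤ p ^ 32 * D.S e / b0
          * (f (Function.update Y e (Y e + 1)) - f Y) ^ 2 by positivity)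
        refine h8.trans (le_of_eq ?_)
        rw [hb0]
        field_simp
        ring
      · rw [if_neg hc, mul_zero]
        split_ifs <;> positivity
    refine (sum_le_sum t1).trans ?_
    rw [← sum_filter, sum_const, nsmul_eq_mul]
    have t2 : (((box D.S).filter fun ρ => ρ e + 1 = D.S e).card : ℝ) * D.S e ≤ D.V := by
      rw [V]; exact_mod_cast card_top D.S e
    have t3 := mul_le_mul_of_nonneg_right t2 (show 0 ≤ 2 * p ^ 99 * G by positivity)
    have t4 := mul_nonneg (show 0 ≤ D.V * (2 * p ^ 99) by have := D.V_pos; positivity) n1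
    nlinarith
  have d0 : 0 ≤ dir (box D.R) D.mv D.W f := sum_nonneg fun Y _ => sum_nonneg fun k _ =>
    mul_nonneg (le_min (D.W_pos _).le (D.W_pos _).le) (sq_nonneg _)
  have v5 := mul_le_mul v3 v4 (sum_nonneg fun X hX => mul_nonneg (μ0 X hX)
    (sum_nonneg fun e _ => hδ X e)) (by have := D.V_pos; positivity)
  have v6 : vform D.fine μ (fun X => f (D.q X)) ≤ _ := hbl.trans v5
  have v7 := v1.trans (mul_le_mul_of_nonneg_left v6 (sq_nonneg _))
  rw [v2] at v7
  refine le_of_mul_le_mul_left (v7.trans ?_) (pow_pos D.V_pos 2)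
  have e : (2 * p ^ 2) ^ 2 * (p * (D.V * Z) * (p * (D.V * (2 * p ^ 99) * dir (box D.R) D.mv D.W f)))
      = D.V ^ 2 * ((8 * p ^ 105) * Z * dir (box D.R) D.mv D.W f) := by ring
  rw [e]
  refine mul_le_mul_of_nonneg_left (mul_le_mul_of_nonneg_right
    (mul_le_mul_of_nonneg_right ?_ Z0) d0) (sq_nonneg _)
  rw [pow_succ p 105, mul_comm]
  exact mul_le_mul_of_nonneg_left (by linarith) (by positivity)

end Inst

end Vale.Agent.P328
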