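import Vale.Agent.P328.Code

/-! P328: specifications of the energy routines and of one step. -/

namespace Vale.Agent.P328
open Finset Vale.Agent.P317

variable {m n k0 : ℕ} (O : Bool → Set (Fin k0) → Prop) {D : Inst m n}

theorem sums_spec {X : Tab m n} {M : Mem} (hP : Par D M) (hX : RT 21 X M) :
    (∀ i : Fin m, exec O sums M 22 i.val = row X i) ∧
      (∀ j : Fin n, exec O sums M 23 j.val = col X j) ∧ exec O sums M 24 0 = tot X := by
  simp only [sums, exec_seq]
  set M1 := exec O (forN 0 (.set 22 (V 35) (.lit 0))) M with hM1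
  set M2 := exec O (forN 1 (.set 23 (V 35) (.lit 0))) M1 with hM2
  have a1 : Agree [22, 35] M M1 := (exec_agree _ _ _).mono (by decide)
  have a2 : Agree [23, 35] M1 M2 := (exec_agree _ _ _).mono (by decide)
  have z1 : ∀ x < m, M1 22 x = 0 := by
    have := fill_spec O 0 22 M (by decide) (by decide); rwa [hP.r0] at this
  have z2 : ∀ x < n, M2 23 x = 0 := by
    have := fill_spec O 1 23 M1 (by decide) (by decide); rwa [a1 1 (by decide), hP.r1] at this
  have a3 : Agree [22, 23, 24, 35] M (exec O (asg 24 (.lit 0)) M2) :=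
    agree_exec ((a1.mono (by decide)).trans (a2.mono (by decide))) _ _ (by decide)
  have := forN_inv O 11 accum (m * n)
    (fun i M' => Agree [22, 23, 24, 35] M M' ∧
      (∀ a : Fin m, M' 22 a.val = psum (fun e => if e.1 = a then X e else 0) i) ∧
      (∀ b : Fin n, M' 23 b.val = psum (fun e => if e.2 = b then X e else 0) i) ∧
      M' 24 0 = psum X i)
    (exec O (asg 24 (.lit 0)) M2) (by rw [a3 11 (by decide)]; exact hP.r11) (by decide) (by decide)
    (fun i M' x h => ⟨agree_put' h.1 (by simp) _ _, by simpa using h.2⟩)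
    (by
      intro i hi M' h35 ⟨h1, h2, h3, h4⟩
      have e15 : M' 15 i = (cell hi).1.val := by
        rw [h1 15 (by decide), ← hP.r15, enc_cell]
      have e16 : M' 16 i = (cell hi).2.val := by
        rw [h1 16 (by decide), ← hP.r16, enc_cell]
      have e21 : M' 21 i = X (cell hi) := by rw [h1 21 (by decide), ← hX, enc_cell]
      refine ⟨agree_exec h1 _ _ (by decide), fun a => ?_, fun b => ?_, ?_⟩
      · rw [psum_succ _ hi, ← h2]
        by_cases ha : (cell hi).1 = a
        · simp [accum, exec, asg, rI, cJ, ix, V, Expr.val, h35, e15, e21, ha]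
        · have : a.val ≠ (cell hi).1.val := fun h => ha (Fin.ext h.symm)
          simp [accum, exec, asg, rI, cJ, ix, V, Expr.val, h35, e15, ha, this]
      · rw [psum_succ _ hi, ← h3]
        by_cases ha : (cell hi).2 = b
        · simp [accum, exec, asg, rI, cJ, ix, V, Expr.val, h35, e16, e21, ha]
        · have : b.val ≠ (cell hi).2.val := fun h => ha (Fin.ext h.symm)
          simp [accum, exec, asg, rI, cJ, ix, V, Expr.val, h35, e16, ha, this]
      · rw [psum_succ _ hi, ← h4]
        simp [accum, exec, asg, rI, cJ, ix, V, Expr.val, h35, e21])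
    ⟨a3, fun a => by simp [exec, asg, psum_zero, a2 22 (by decide), z1 _ a.2],
      fun b => by simp [exec, asg, psum_zero, z2 _ b.2], by simp [exec, asg, psum_zero, Expr.val]⟩
  obtain ⟨-, h2, h3, h4⟩ := this
  refine ⟨fun i => ?_, fun j => ?_, ?_⟩
  · rw [h2, psum_all, Fintype.sum_prod_type_right]; simp [row]
  · rw [h3, psum_all, Fintype.sum_prod_type]; simp [col]
  · rw [h4, psum_all, tot]

theorem scale_spec {M : Mem} {a d K : ℕ} (ha : 0 < a) (h37 : M 37 0 = a) (h28 : M 28 0 = d)
    (h10 : M 10 0 = K) (hK : d ≤ a * 2 ^ K) :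
    exec O scale M 38 0 = 2 ^ lg a d * M 38 0 := by
  obtain ⟨i, hi, M', hM', ⟨h1, h2, h3, h4⟩, h5⟩ := loop_guard O (V 10) (ltE (V 37) (V 28))
    (.seq (asg 38 (dbE (V 38))) (asg 37 (dbE (V 37))))
    (fun i M' => M' 28 0 = d ∧ M' 37 0 = a * 2 ^ i ∧ M' 38 0 = 2 ^ i * M 38 0 ∧ i ≤ lg a d) K M h10
    (by
      intro i _ M' ⟨a1, a2, a3, a4⟩ hc
      simp only [ltE, V, Expr.val, a1, a2] at hc
      refine ⟨by simp [exec, asg, a1], ?_, ?_, lt_lg_iff ha (by omega)⟩
      · simp [exec, asg, dbE, V, Expr.val, a2]; ring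
      · simp [exec, asg, dbE, V, Expr.val, a3]; ring)
    ⟨h28, by simp [h37], by simp, Nat.zero_le _⟩
  have e : i = lg a d := by
    refine le_antisymm h4 ?_
    rcases h5 with h5 | h5
    · rw [h5]; exact lg_le hK
    · simp only [ltE, V, Expr.val, h1, h2] at h5
      exact lg_le (by omega)
  rw [scale, hM', ← e]
  exact h3

theorem Q_le (hN : ∑ i, D.r i ≤ 2 ^ 2 ^ D.L) (e : Fin m × Fin n) :
    D.Q ≤ (D.kap e + D.P ^ 4) * 2 ^ D.P := by
  have h1 : D.kap (D.i0, D.j0) ≤ 2 ^ D.P :=
    (min_le_left _ _).trans ((single_le_sum (f := D.r) (fun _ _ => Nat.zero_le _)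
      (mem_univ D.i0)).trans hN)
  have h2 : 2 ≤ D.P ^ 4 := le_trans (by have := D.P64; omega) (Nat.le_self_pow (by norm_num) _)
  have h3 : 2 ≤ 2 ^ D.P := by
    have := D.Ppos
    calc 2 = 2 ^ 1 := rfl
      _ ≤ _ := Nat.pow_le_pow_right (by norm_num) this
  unfold Inst.Q
  nlinarith [Nat.zero_le (D.kap e * 2 ^ D.P)]

theorem pickAB_spec {X : Tab m n} {M : Mem} (hP : Par D M) (hX : RT 21 X M)
    (h22 : ∀ i : Fin m, M 22 i.val = row X i) (h23 : ∀ j : Fin n, M 23 j.val = col X j)
    (h24 : M 24 0 = tot X) (e : Fin m × Fin n) (h35 : M 35 0 = enc e) :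
    exec O pickAB M 39 0 = D.pA X e ∧ exec O pickAB M 40 0 = D.pB X e := by
  have e15 := hP.r15 e
  have e16 := hP.r16 e
  unfold pickAB Inst.pA Inst.pB
  by_cases h1 : e.1 = D.i0 <;> by_cases h2 : e.2 = D.j0
  · rw [exec_ite_zero _ _ _ (by simp [neE, rI, ix, V, Expr.val, h35, e15, hP.r13, h1]),
      exec_ite_zero _ _ _ (by simp [neE, cJ, ix, V, Expr.val, h35, e16, hP.r14, h2])]
    simp [ab, exec, asg, V, Expr.val, h1, h2, h24, hP.r13, hP.r14, hP.r2, hP.r3, hP.r7, Inst.N]
  · have : e.2.val ≠ D.j0.val := fun h => h2 (Fin.ext h)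
    rw [exec_ite_zero _ _ _ (by simp [neE, rI, ix, V, Expr.val, h35, e15, hP.r13, h1]),
      exec_ite_ne _ _ _ (by simp [neE, cJ, ix, V, Expr.val, h35, e16, hP.r14]; omega)]
    simp [ab, exec, asg, cJ, ix, V, Expr.val, h1, h2, h35, e16, hP.r3, h23]
  · have : e.1.val ≠ D.i0.val := fun h => h1 (Fin.ext h)
    rw [exec_ite_ne _ _ _ (by simp [neE, rI, ix, V, Expr.val, h35, e15, hP.r13]; omega),
      exec_ite_zero _ _ _ (by simp [neE, cJ, ix, V, Expr.val, h35, e16, hP.r14, h2])]
    simp [ab, exec, asg, rI, ix, V, Expr.val, h1, h2, h35, e15, hP.r2, h22]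
  · have : e.1.val ≠ D.i0.val := fun h => h1 (Fin.ext h)
    have : e.2.val ≠ D.j0.val := fun h => h2 (Fin.ext h)
    rw [exec_ite_ne _ _ _ (by simp [neE, rI, ix, V, Expr.val, h35, e15, hP.r13]; omega),
      exec_ite_ne _ _ _ (by simp [neE, cJ, ix, V, Expr.val, h35, e16, hP.r14]; omega)]
    simp [ab, exec, asg, ix, V, Expr.val, h1, h2, h35, hX e]

def wDef : List ℕ := [22, 23, 24, 25, 26, 35, 37, 38, 39, 40]

theorem defic_spec {X : Tab m n} {M : Mem} (hP : Par D M) (hX : RT 21 X M) :
    exec O defic M 26 0 = D.DD X ∧ RT 25 (D.cmp X) (exec O defic M) := by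
  simp only [defic, exec_seq]
  obtain ⟨s1, s2, s3⟩ := sums_spec O hP hX
  have a1 : Agree [22, 23, 24, 35] M (exec O sums M) := (exec_agree _ _ _).mono (by decide)
  set M1 := exec O sums M
  have hP1 : Par D M1 := hP.agree a1 (by decide)
  have hX1 : RT 21 X M1 := hX.agree a1 (by decide)
  have := forN_inv O 11 cellD (m * n)
    (fun i M' => Agree [25, 26, 35, 37, 38, 39, 40] M1 M' ∧
      M' 26 0 = psum (fun e => D.u e * D.dfc X e) i ∧ ∀ e, enc e < i → M' 25 (enc e) = D.cmp X e)
    (exec O (asg 26 (.lit 0)) M1) (by simpa [exec, asg] using hP1.r11) (by decide) (by decide)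
    (fun i M' x h => ⟨agree_put' h.1 (by simp) _ _, by simpa using h.2⟩)
    (by
      intro i hi M' h35 ⟨h1, h2, h3⟩
      refine ⟨agree_exec h1 _ _ (by decide), ?_⟩
      have hP' : Par D M' := hP1.agree h1 (by decide)
      obtain ⟨p1, p2⟩ := pickAB_spec O hP' (hX1.agree h1 (by decide))
        (by rw [h1 22 (by decide)]; exact s1) (by rw [h1 23 (by decide)]; exact s2)
        (by rw [h1 24 (by decide)]; exact s3) (cell hi) (by rw [enc_cell]; exact h35)
      have a2 : Agree [39, 40] M' (exec O pickAB M') := (exec_agree _ _ _).mono (by decide)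
      simp only [cellD, exec_seq]
      set M2 := exec O pickAB M'
      have e35 : M2 35 0 = i := by rw [a2 35 (by decide)]; exact h35
      have e17 : M2 17 i = D.kap (cell hi) + D.P ^ 4 := by
        rw [a2 17 (by decide), ← hP'.r17, enc_cell]
      set M3 := exec O (asg 37 (.get 17 ix)) (exec O (asg 38 (.sub (V 40) (V 39)))
        (exec O (.set 25 ix (.sub (V 39) (V 40))) M2)) with hM3
      have sc := scale_spec O (M := M3) (a := D.kap (cell hi) + D.P ^ 4) (d := D.Q) (K := D.P)
        (by have := pow_pos D.Ppos 4; omega)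
        (by simp [hM3, exec, asg, ix, V, Expr.val, e35, e17])
        (by simp [hM3, exec, asg, a2 28 (by decide), hP'.r28])
        (by simp [hM3, exec, asg, a2 10 (by decide), hP'.r10, Inst.P]) (Q_le hP.hN _)
      have a4 : Agree [37, 38] M3 (exec O scale M3) := (exec_agree _ _ _).mono (by decide)
      refine ⟨?_, fun e he => ?_⟩
      · rw [psum_succ _ hi, ← h2]
        simp only [exec, asg, V, Expr.val, Mem.put_apply, and_self, if_true]
        rw [sc, a4 26 (by decide)]
        simp [hM3, exec, asg, V, Expr.val, a2 26 (by decide), p1, p2, Inst.u, Inst.dfc]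
      · rw [exec_frame _ _ _ 25 (by decide), a4 25 (by decide)]
        by_cases hc : enc e = i
        · rw [(enc_eq_iff hi e).1 hc]
          simp [hM3, exec, asg, ix, V, Expr.val, e35, enc_cell, p1, p2, Inst.cmp]
        · simp [hM3, exec, asg, ix, V, Expr.val, e35, hc, a2 25 (by decide), h3 e (by omega)])
    ⟨agree_exec (Agree.refl _ _) _ _ (by decide), by simp [exec, asg, psum_zero, Expr.val],
      by simp⟩
  exact ⟨by rw [this.2.1, psum_all, Inst.DD], fun e => this.2.2 e (enc_lt e)⟩

theorem divide_spec {M : Mem} (hP : Par D M) {X : Tab m n} (h26 : M 26 0 = D.DD X)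
    (hE : D.En X ≤ D.P ^ 11) : exec O divide M 27 0 = D.En X := by
  simp only [divide, exec_seq]
  set M1 := exec O (rep (dbl 46 9) 4) (exec O (asg 46 (dbE (dbE (dbE (V 26))))) M) with hM1
  have e46 : M1 46 0 = 8 * D.P ^ 4 * D.DD X := by
    rw [hM1, rep_spec O 46 9 (by decide) (by decide)]
    simp [exec, asg, dbE, V, Expr.val, h26, hP.r9, Inst.P]; ring
  have a1 : Agree [46, 34] M M1 :=
    agree_exec (agree_exec (Agree.refl _ _) _ _ (by decide)) _ _ (by decide)
  have hQ := D.Qpos
  obtain ⟨i, hi, M', hM', ⟨h1, h2, h3⟩, h5⟩ := loop_guard O (V 31)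
    (ltE (V 28) (.add (V 46) (.lit 1))) (.seq (asg 46 (.sub (V 46) (V 28))) (inc 27))
    (fun i M' => M' 28 0 = D.Q ∧ M' 46 0 + D.Q * i = 8 * D.P ^ 4 * D.DD X ∧ M' 27 0 = i) (D.P ^ 11)
    (exec O (asg 27 (.lit 0)) M1) (by simp [exec, asg, V, Expr.val, a1 31 (by decide), hP.r31])
    (by
      intro i _ M' ⟨a1, a2, a3⟩ hc
      simp only [ltE, V, Expr.val, a1] at hc
      refine ⟨by simp [exec, inc, asg, a1], ?_, by simp [exec, inc, asg, V, Expr.val, a3]⟩
      simp [exec, inc, asg, V, Expr.val, a1, mul_add]; omega)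
    ⟨by simp [exec, asg, a1 28 (by decide), hP.r28], by simp [exec, asg, e46],
      by simp [exec, asg, Expr.val]⟩
  have e : i = D.En X := by
    have le1 : i ≤ D.En X := by
      unfold Inst.En
      rw [Nat.le_div_iff_mul_le hQ, mul_comm i]; omega
    refine le_antisymm le1 ?_
    rcases h5 with h5 | h5
    · omega
    · simp only [ltE, V, Expr.val, h1] at h5
      unfold Inst.En
      rw [← Nat.lt_succ_iff, Nat.div_lt_iff_lt_mul hQ, Nat.succ_mul i, mul_comm i]; omega
  rw [hM', h3, e]

def wEn : List ℕ := wDef ++ [27, 34, 46]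

theorem energy_spec {Y : Tab m n} {M : Mem} (hP : Par D M) (hY : Y ∈ box D.R)
    (hX : RT 21 (D.cor Y) M) : exec O energy M 27 0 = D.En (D.cor Y) := by
  rw [energy, exec_seq]
  exact divide_spec O (hP.agree (exec_agree _ _ _) (by decide)) (defic_spec O hP hX).1 (D.En_le hY)

theorem propose_spec {Y : Tab m n} {M : Mem} (hP : Par D M) (hX : RT 21 (D.cor Y) M)
    (e : Fin m × Fin n) (b : Bool) (h41 : M 41 0 = enc e) (h42 : M 42 0 = b.toNat) :
    RT 21 (D.cor (D.mv (e, b) Y)) (exec O propose M) := by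
  have upd : ∀ y, RT 21 (D.cor (Function.update Y e y)) (M.put 21 (enc e) (D.S e * y)) := by
    intro y x
    by_cases hx : x = e
    · subst hx; simp [Inst.cor]
    · simp [Inst.cor, hx, enc_inj, hX x]
  unfold propose
  cases b
  · rw [exec_ite_zero _ _ _ (by simp [V, Expr.val, h42])]
    simp only [exec, xk, sk, V, Expr.val, h41, hX e, hP.r18, Inst.mv, cond_false]
    rw [show D.cor Y e - D.S e = D.S e * (Y e - 1) by simp [Inst.cor, Nat.mul_sub]]
    exact upd _
  · rw [exec_ite_ne _ _ _ (by simp [V, Expr.val, h42])]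
    have hS := D.Spos e
    have iff : D.S e * Y e + D.S e < D.S e * D.R e ↔ Y e + 1 < D.R e := by
      rw [← Nat.mul_succ, Nat.mul_lt_mul_left hS]
    by_cases h : Y e + 1 < D.R e
    · rw [exec_ite_ne _ _ _ (by
        simp only [ltE, xk, sk, V, Expr.val, h41, hX e, hP.r18, hP.r20, Inst.cor]
        have := iff.2 h; omega)]
      simp only [exec, xk, sk, V, Expr.val, h41, hX e, hP.r18, Inst.mv, cond_true, if_pos h]
      exact upd _
    · rw [exec_ite_zero _ _ _ (by
        simp only [ltE, xk, sk, V, Expr.val, h41, hX e, hP.r18, hP.r20, Inst.cor]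
        have := mt iff.1 h; omega)]
      simp only [Inst.mv, cond_true, if_neg h]
      exact hX.agree (exec_agree _ _ _) (by decide)

theorem shift_spec {M : Mem} {L K : ℕ} (h9 : M 9 0 = L) (h10 : M 10 0 = K) (hK : M 47 0 ≤ K) :
    exec O shift M 43 0 = M 43 0 * (2 ^ L) ^ M 47 0 := by
  obtain ⟨i, hi, M', hM', ⟨h1, h2, h3⟩, h5⟩ := loop_guard O (V 10) (V 47)
    (.seq (dbl 43 9) (asg 47 (.sub (V 47) (.lit 1))))
    (fun i M' => M' 9 0 = L ∧ M' 43 0 = M 43 0 * (2 ^ L) ^ i ∧ M' 47 0 + i = M 47 0) K M h10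
    (by
      intro i _ M' ⟨a1, a2, a3⟩ hc
      simp only [V, Expr.val] at hc
      refine ⟨by rw [exec_frame _ _ _ 9 (by decide)]; exact a1, ?_, ?_⟩
      · rw [exec_seq, exec_frame _ _ _ 43 (by decide), dbl_spec, a1, a2]; ring
      · have : exec O (dbl 43 9) M' 47 = M' 47 := exec_frame _ _ _ 47 (by decide)
        rw [exec_seq, asg, exec_set]
        simp [V, Expr.val, this]; omega)
    ⟨h9, by simp, by simp⟩
  have e : i = M 47 0 := by
    rcases h5 with h5 | h5
    · omega
    · simp only [V, Expr.val] at h5; omega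
  rw [shift, hM', h2, e]

theorem mv_En {Y : Tab m n} (hY : Y ∈ box D.R) (k : (Fin m × Fin n) × Bool) :
    D.En (D.cor (D.mv k Y)) - D.En (D.cor Y) ≤ 48 := by
  obtain ⟨e, _ | _⟩ := k
  · simp only [Inst.mv, cond_false]
    by_cases h : Y e = 0
    · rw [show Y e - 1 = Y e by omega, Function.update_eq_self]; omega
    · have hm := D.mv_mem hY (e, false)
      simp only [Inst.mv, cond_false] at hm
      have := (D.En_up hm (e := e) (by have := mem_box.1 hY e; simp; omega)).2
      rw [Function.update_self, Function.update_idem, show Y e - 1 + 1 = Y e by omega,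
        Function.update_eq_self] at this
      omega
  · simp only [Inst.mv, cond_true]
    split_ifs with h
    · have := (D.En_up hY h).1; omega
    · omega

theorem tryMove_spec {Y : Tab m n} {M : Mem} (hP : Par D M) (hY : Y ∈ box D.R)
    (hX : RT 21 (D.cor Y) M) (e : Fin m × Fin n) (b : Bool) (h41 : M 41 0 = enc e)
    (h42 : M 42 0 = b.toNat) :
    RT 21 (D.cor (if M 43 0 * D.P ^ (D.En (D.cor (D.mv (e, b) Y)) - D.En (D.cor Y)) < 2 ^ D.P
      then D.mv (e, b) Y else Y)) (exec O tryMove M) := by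
  simp only [tryMove, exec_seq]
  have s1 := energy_spec O hP hY hX
  have a1 : Agree wEn M (exec O energy M) := (exec_agree _ _ _).mono (by decide)
  set M1 := exec O energy M
  set M2 := exec O (asg 45 xk) (exec O (asg 44 (V 27)) M1) with hM2
  have a2 : Agree (wEn ++ [44, 45]) M M2 :=
    agree_exec (agree_exec (a1.mono (by decide)) _ _ (by decide)) _ _ (by decide)
  have e44 : M2 44 0 = D.En (D.cor Y) := by simp [hM2, exec, asg, V, Expr.val, s1]
  have e45 : M2 45 0 = D.cor Y e := by
    simp [hM2, exec, asg, xk, V, Expr.val, a1 41 (by decide), a1 21 (by decide), h41, hX e]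
  have s3 := propose_spec O (hP.agree a2 (by decide)) (hX.agree a2 (by decide)) e b
    (by rw [a2 41 (by decide)]; exact h41) (by rw [a2 42 (by decide)]; exact h42)
  have a3 : Agree [21, 34] M2 (exec O propose M2) := (exec_agree _ _ _).mono (by decide)
  set M3 := exec O propose M2
  have hP3 : Par D M3 := (hP.agree a2 (by decide)).agree a3 (by decide)
  have s4 := energy_spec O hP3 (D.mv_mem hY (e, b)) s3
  have a4 : Agree wEn M3 (exec O energy M3) := (exec_agree _ _ _).mono (by decide)
  set M4 := exec O energy M3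
  set M5 := exec O (asg 47 (.sub (V 27) (V 44))) M4 with hM5
  have a5 : Agree (47 :: wEn) M3 M5 := agree_exec (a4.mono (by decide)) _ _ (by decide)
  have hP5 : Par D M5 := hP3.agree a5 (by decide)
  have e47 : M5 47 0 = D.En (D.cor (D.mv (e, b) Y)) - D.En (D.cor Y) := by
    simp [hM5, exec, asg, V, Expr.val, s4, a4 44 (by decide), a3 44 (by decide), e44]
  have s6 := shift_spec O hP5.r9 hP5.r10 (by
    have := mv_En hY (e, b); have := hP.hP; omega)
  have a6 : Agree [43, 47] M5 (exec O shift M5) := (exec_agree _ _ _).mono (by decide)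
  set M6 := exec O shift M5
  have e43 : M5 43 0 = M 43 0 := by rw [a5 43 (by decide), a3 43 (by decide), a2 43 (by decide)]
  rw [e47, e43] at s6
  have e36 : M6 36 0 = 2 ^ D.P := by rw [a6 36 (by decide)]; exact hP5.r36
  have s7 : RT 21 (D.cor (D.mv (e, b) Y)) M6 := (s3.agree a5 (by decide)).agree a6 (by decide)
  split_ifs with h
  · rw [exec_ite_ne _ _ _ (by
      simp only [ltE, V, Expr.val, s6, e36]; unfold Inst.P at h ⊢; omega)]
    exact s7.agree (exec_agree _ _ _) (by decide)
  · rw [exec_ite_zero _ _ _ (by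
      simp only [ltE, V, Expr.val, s6, e36]; unfold Inst.P at h ⊢; omega)]
    have e41 : M6 41 0 = enc e := by
      rw [a6 41 (by decide), a5 41 (by decide), a3 41 (by decide), a2 41 (by decide), h41]
    have e45' : M6 45 0 = D.cor Y e := by
      rw [a6 45 (by decide), a5 45 (by decide), a3 45 (by decide), e45]
    intro x
    by_cases hx : x = e
    · subst hx; simp [exec, V, Expr.val, e41, e45']
    · simp only [exec, V, Expr.val, e41, Mem.put_apply, enc_inj, hx, and_false, if_false, s7 x]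
      cases b
      · simp [Inst.cor, Inst.mv, hx]
      · simp only [Inst.cor, Inst.mv, cond_true]
        split_ifs <;> simp [hx]

end Vale.Agent.P328
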