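import Vale.Agent.P328.RefA

/-! P328: refinement of the randomized parts. -/

namespace Vale.Agent.P328
open Finset Vale.Agent.P317

variable {m n k0 : ℕ} (O : Bool → Set (Fin k0) → Prop) {D : Inst m n}

theorem L48 {L : ℕ} (h : 1024 ≤ 2 ^ L) : L * 48 ≤ 2 ^ L := by
  have h10 : 10 ≤ L := by
    by_contra hc
    have : 2 ^ L ≤ 2 ^ 9 := Nat.pow_le_pow_right (by norm_num) (by omega)
    omega
  obtain ⟨k, rfl⟩ := Nat.exists_eq_add_of_le h10
  have := Nat.lt_two_pow_self (n := k)
  rw [pow_add]; omega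

noncomputable def res (D : Inst m n) (Y : Tab m n) (k : ℕ) (b : Bool) (r : ℕ) : Tab m n :=
  if hk : k < m * n then
    (if r * D.P ^ (D.En (D.cor (D.mv (cell hk, b) Y)) - D.En (D.cor Y)) < 2 ^ D.P
      then D.mv (cell hk, b) Y else Y)
  else Y

theorem res_mem {Y : Tab m n} (hY : Y ∈ box D.R) (k : ℕ) (b : Bool) (r : ℕ) :
    res D Y k b r ∈ box D.R := by
  unfold res
  split_ifs
  exacts [D.mv_mem hY _, hY, hY]

theorem res_avg (hP : 1024 ≤ 2 ^ D.L) {Y : Tab m n} (hY : Y ∈ box D.R) (ψ : Tab m n → ℝ) :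
    (∑ k ∈ range (2 ^ D.L), ((∑ r ∈ range (2 ^ D.P), ψ (res D Y k false r)) / 2 ^ D.P
      + (∑ r ∈ range (2 ^ D.P), ψ (res D Y k true r)) / 2 ^ D.P) / 2) / 2 ^ D.L = D.step ψ Y := by
  have inner : ∀ k b, (∑ r ∈ range (2 ^ D.P), ψ (res D Y k b r)) / 2 ^ D.P
      = ψ Y + if hk : k < m * n then D.acc Y (D.mv (cell hk, b) Y) * (ψ (D.mv (cell hk, b) Y) - ψ Y)
        else 0 := by
    intro k b
    unfold res
    by_cases hk : k < m * n
    · simp only [dif_pos hk, Inst.acc]
      have h1 := mv_En hY (cell hk, b)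
      generalize D.mv (cell hk, b) Y = Y' at *
      generalize D.En (D.cor Y') - D.En (D.cor Y) = d at *
      have h2 : D.L * d ≤ D.P := (Nat.mul_le_mul_left _ h1).trans (L48 hP)
      obtain ⟨e, he⟩ := Nat.exists_eq_add_of_le h2
      have h3 : 2 ^ D.P = 2 ^ e * D.P ^ d := by
        conv_lhs => rw [he]
        rw [pow_add, pow_mul, mul_comm]; rfl
      have h4 : 0 < D.P ^ d := pow_pos D.Ppos d
      have hle : 2 ^ e ≤ 2 ^ D.P := Nat.pow_le_pow_right (by norm_num) (by omega)
      have h3' : (2 : ℝ) ^ D.P = 2 ^ e * (D.P : ℝ) ^ d := by exact_mod_cast h3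
      rw [← Finset.sum_range_add_sum_Ico _ hle,
        Finset.sum_congr rfl (g := fun _ => ψ Y') (by
          intro r hr
          rw [if_pos (by rw [h3]; exact Nat.mul_lt_mul_of_pos_right (mem_range.1 hr) h4)]),
        Finset.sum_congr rfl (s₁ := Ico _ _) (g := fun _ => ψ Y) (by
          intro r hr
          rw [if_neg (by rw [h3, not_lt]; exact Nat.mul_le_mul_right _ (mem_Ico.1 hr).1)])]
      simp only [sum_const, card_range, Nat.card_Ico, nsmul_eq_mul, Nat.cast_sub hle]
      push_cast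
      rw [h3', one_div, inv_pow]
      have := D.PR
      field_simp
      ring
    · simp [dif_neg hk]
  simp only [inner]
  have hle : m * n ≤ 2 ^ D.L := by have := D.hL; omega
  have e : ∀ k, ((ψ Y + if hk : k < m * n then
      D.acc Y (D.mv (cell hk, false) Y) * (ψ (D.mv (cell hk, false) Y) - ψ Y) else 0)
      + (ψ Y + if hk : k < m * n then
      D.acc Y (D.mv (cell hk, true) Y) * (ψ (D.mv (cell hk, true) Y) - ψ Y) else 0)) / 2
      = ψ Y + (if hk : k < m * n then (fun x : Fin (m * n) => ∑ b,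
        D.acc Y (D.mv (finProdFinEquiv.symm x, b) Y) * (ψ (D.mv (finProdFinEquiv.symm x, b) Y) - ψ Y))
          ⟨k, hk⟩ else 0) / 2 := by
    intro k
    split_ifs with hk
    · simp only [Fintype.sum_bool, cell]; ring
    · ring
  simp only [e]
  rw [sum_add_distrib, ← sum_div, sum_range_dite hle (fun x : Fin (m * n) => ∑ b,
    D.acc Y (D.mv (finProdFinEquiv.symm x, b) Y) * (ψ (D.mv (finProdFinEquiv.symm x, b) Y) - ψ Y)),
    Equiv.sum_comp finProdFinEquiv.symm
    (fun e => ∑ b, D.acc Y (D.mv (e, b) Y) * (ψ (D.mv (e, b) Y) - ψ Y))]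
  simp only [Inst.step, stp, Fintype.sum_prod_type (α₂ := Bool), sum_const, card_range,
    nsmul_eq_mul, Inst.P]
  push_cast
  field_simp

def wStep : List ℕ := wEn ++ [21, 41, 42, 43, 44, 45, 47]

theorem step_impl : Impl O wStep stepP (fun Y M => Par D M ∧ Y ∈ box D.R ∧ RT 21 (D.cor Y) M)
    (fun Y M => Par D M ∧ Y ∈ box D.R ∧ RT 21 (D.cor Y) M) D.step := by
  intro Y M ⟨hP, hY, hX⟩ φ ψ hφ
  rw [← res_avg hP.hP hY ψ]
  simp only [stepP, ex]
  refine rnd_impl _ 41 9 D.L (by decide) (by decide) (by decide) () M hP.r9 _ _ ?_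
  intro k M1 hk a1
  have key : ∀ b : Bool, ex O (rnd 43 10) (ex O stepDet φ) (M1.put 42 0 b.toNat)
      = (∑ r ∈ range (2 ^ D.P), ψ (res D Y k b r)) / 2 ^ D.P := by
    intro b
    refine rnd_impl _ 43 10 D.P (by decide) (by decide) (by decide) () _
      (by simp [a1 10 (by decide), hP.r10, Inst.P]) _ _ ?_
    intro r M3 hr a3
    have a : Agree [41, 42, 43, 34] M M3 :=
      (agree_put' (a1.mono (by decide)) (by decide) _ _).trans (a3.mono (by decide))
    have e41 : M3 41 0 = k := by rw [a3 41 (by decide)]; simpa using hk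
    have e42 : M3 42 0 = b.toNat := by rw [a3 42 (by decide)]; simp
    have hP3 : Par D M3 := hP.agree a (by decide)
    have hX3 : RT 21 (D.cor Y) M3 := hX.agree a (by decide)
    have a5 : Agree wStep M3 (exec O stepDet M3) := (exec_agree _ _ _).mono (by decide)
    rw [ex_det _ _ (by decide)]
    refine hφ _ _ ⟨hP3.agree a5 (by decide), res_mem hY _ _ _, ?_⟩ ((a.mono (by decide)).trans a5)
    unfold stepDet res
    by_cases hk : k < m * n
    · rw [exec_ite_ne _ _ _ (by simp only [ltE, V, Expr.val, e41, hP3.r11]; omega), dif_pos hk, ← hr]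
      exact tryMove_spec O hP3 hY hX3 _ b (by rw [enc_cell]; exact e41) e42
    · rw [exec_ite_zero _ _ _ (by simp only [ltE, V, Expr.val, e41, hP3.r11]; omega), dif_neg hk]
      exact hX3.agree (exec_agree _ _ _) (by decide)
  simp only [Expr.val]
  rw [← key false, ← key true]
  rfl

theorem lowLoop_impl (c K : ℕ) (hc : c ≤ K) :
    Impl O [34, 43, 47] lowLoop (fun (_ : Unit) M => M 10 0 = K ∧ M 47 0 = c ∧ M 43 0 = 0)
      (fun (r : ℕ) M => M 43 0 = r ∧ r < 2 ^ c) (fun ψ _ => (∑ r ∈ range (2 ^ c), ψ r) / 2 ^ c) := by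
  have h2 : ∀ i < c, Impl O [34, 43, 47] (.seq (.coin 34 (.lit 0))
      (.seq (asg 43 (.add (.add (V 43) (V 43)) (V 34))) (asg 47 (.sub (V 47) (.lit 1)))))
      (fun (r : ℕ) M => M 10 0 = K ∧ M 47 0 + i = c ∧ M 43 0 = r ∧ r < 2 ^ i)
      (fun (r : ℕ) M => M 10 0 = K ∧ M 47 0 + (i + 1) = c ∧ M 43 0 = r ∧ r < 2 ^ (i + 1))
      (fun (φ : ℕ → ℝ) (r : ℕ) => (φ (r + r) + φ (r + r + 1)) / 2) := by
    intro i hi r M ⟨h, h', h'', hr⟩ φ ψ hφ
    have ag : ∀ a b d, Agree [34, 43, 47] M (((M.put 34 0 a).put 43 0 b).put 47 0 d) := fun a b d =>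
      agree_put' (agree_put' (agree_put' (Agree.refl _ _) (by decide) _ _) (by decide) _ _)
        (by decide) _ _
    simp only [ex, asg, V, Expr.val]
    rw [hφ (r + r) _ (by simp [h, h'', pow_succ]; omega) (ag _ _ _),
      hφ (r + r + 1) _ (by simp [h, h'', pow_succ]; omega) (ag _ _ _)]
  have h3 := Impl.loopG (V 10) (V 47) K c hc
    (fun i (r : ℕ) M => M 10 0 = K ∧ M 47 0 + i = c ∧ M 43 0 = r ∧ r < 2 ^ i)
    (fun a M h => h.1) (fun i hi a M h => by have := h.2.1; simp only [V, Expr.val]; omega)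
    (fun a M h => by have := h.2.1; simp only [V, Expr.val]; omega) h2
  intro u M hM φ ψ hφ
  have := h3 0 M ⟨hM.1, hM.2.1, hM.2.2, one_pos⟩ φ ψ (fun b M' hb => hφ b M' hb.2.2)
  rw [lowLoop, this]
  simp only [bit_iter]
  simp

noncomputable def lowOp (D : Inst m n) (ψ : Tab m n × ℕ → ℝ) (x : Tab m n × ℕ) : ℝ :=
  if h : x.2 < m * n then
    (∑ r ∈ range (D.S (cell h)), ψ (x.1 + Pi.single (cell h) r, x.2 + 1)) / D.S (cell h)
  else ψ x

theorem sum_box_split {E : Type} [Fintype E] [DecidableEq E] (t : E → ℕ) (e : E) (F : (E → ℕ) → ℝ) :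
    ∑ ρ ∈ box t, F ρ
      = ∑ r ∈ range (t e), ∑ ρ ∈ box (Function.update t e 1), F (Pi.single e r + ρ) := by
  rw [← sum_product']
  have z : ∀ ρ ∈ box (Function.update t e 1), ρ e = 0 := fun ρ hρ => by
    have := mem_box.1 hρ e
    simpa using this
  symm
  refine sum_nbij' (fun p => Pi.single e p.1 + p.2) (fun ρ => (ρ e, Function.update ρ e 0))
    ?_ ?_ ?_ ?_ (fun _ _ => rfl)
  · intro p hp
    obtain ⟨h1, h2⟩ := mem_product.1 hp
    refine mem_box.2 fun x => ?_
    by_cases hx : x = e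
    · subst hx; simpa [z _ h2] using h1
    · simpa [hx] using mem_box.1 h2 x
  · intro ρ hρ
    refine mem_product.2 ⟨mem_range.2 (mem_box.1 hρ e), mem_box.2 fun x => ?_⟩
    by_cases hx : x = e
    · subst hx; simp
    · simpa [hx] using mem_box.1 hρ x
  · intro p hp
    obtain ⟨h1, h2⟩ := mem_product.1 hp
    refine Prod.ext (by simp [z _ h2]) (funext fun x => ?_)
    by_cases hx : x = e
    · subst hx; simp [z _ h2]
    · simp [hx]
  · intro ρ _
    funext x
    by_cases hx : x = e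
    · subst hx; simp
    · simp [hx]

theorem lowOp_iter (ψ : Tab m n × ℕ → ℝ) (j : ℕ) : ∀ i X, i + j = m * n →
    (lowOp D)^[j] ψ (X, i) = (∑ ρ ∈ box (fun e => if enc e < i then 1 else D.S e), ψ (X + ρ, m * n))
      / ∏ e, ((if enc e < i then 1 else D.S e : ℕ) : ℝ) := by
  induction j with
  | zero =>
    intro i X hi
    simp only [Nat.add_zero] at hi; subst hi
    have : box (fun _ : Fin m × Fin n => 1) = {0} := by
      ext ρ; simp [mem_box, funext_iff]
    simp [enc_lt, this]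
  | succ j ih =>
    intro i X hi
    have h : i < m * n := by omega
    have e1 : Function.update (fun e => if enc e < i then 1 else D.S e) (cell h) 1
        = fun e => if enc e < i + 1 then 1 else D.S e := by
      funext x
      by_cases hx : x = cell h
      · subst hx; simp [enc_cell]
      · have := mt (enc_eq_iff h x).1 hx
        rw [Function.update_of_ne hx]
        exact if_congr (by omega) rfl rfl
    have e2 : ∏ e, ((if enc e < i then 1 else D.S e : ℕ) : ℝ)
        = (∏ e, ((if enc e < i + 1 then 1 else D.S e : ℕ) : ℝ)) * D.S (cell h) := by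
      rw [← prod_erase_mul _ _ (mem_univ (cell h)), ← prod_erase_mul _ _ (mem_univ (cell h))]
      simp only [enc_cell, lt_irrefl, if_false, Nat.lt_succ_self, if_true, Nat.cast_one, mul_one]
      congr 1
      refine prod_congr rfl fun x hx => ?_
      have := mt (enc_eq_iff h x).1 (ne_of_mem_erase hx)
      congr 1
      exact if_congr (by omega) rfl rfl
    rw [Function.iterate_succ_apply', lowOp, dif_pos h, sum_box_split _ (cell h), e1, e2]
    simp only [ih (i + 1) _ (by omega), enc_cell, lt_irrefl, if_false, ← sum_div, div_div, add_assoc]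

theorem low_impl : Impl O [21, 34, 35, 43, 47] lowP (fun X M => Par D M ∧ RT 21 X M ∧ D.Z0 X)
    (fun X M => RT 21 X M ∧ D.Z0 X) D.low := by
  have h2 : ∀ i < m * n, Impl O [21, 34, 35, 43, 47] lowCell
      (fun (x : Tab m n × ℕ) M => Par D M ∧ (RT 21 x.1 M ∧ D.Z0 x.1) ∧ M 35 0 = i ∧ x.2 = i)
      (fun (x : Tab m n × ℕ) M => Par D M ∧ (RT 21 x.1 M ∧ D.Z0 x.1) ∧ M 35 0 = i + 1 ∧ x.2 = i + 1)
      (lowOp D) := by
    intro i hi ⟨X, i'⟩ M ⟨hP, ⟨hX, hz⟩, h35, hi'⟩ φ ψ hφ
    simp only at hi' hX hz; subst hi'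
    have e19 : M 19 i' = D.sx (cell hi) := by rw [← hP.r19, enc_cell]
    have sxle : D.sx (cell hi) ≤ D.P := by
      unfold Inst.sx
      split_ifs
      · exact Nat.zero_le _
      · refine lg_le ?_
        have h1 : D.kap (cell hi) ≤ 2 ^ D.P :=
          (min_le_left _ _).trans ((single_le_sum (f := D.r) (fun _ _ => Nat.zero_le _)
            (mem_univ _)).trans hP.hN)
        have h2 : 2 ≤ D.P ^ 9 :=
          le_trans (by have := D.P64; omega) (Nat.le_self_pow (by norm_num) _)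
        have := Nat.mul_le_mul_right (2 ^ D.P) h2
        have : 0 < 2 ^ D.P := by positivity
        omega
    simp only [lowCell, ex, asg, lowOp, dif_pos hi, Inst.S]
    push_cast
    refine lowLoop_impl O _ D.P sxle () _ ⟨by simp [hP.r10, Inst.P], by
      simp [ix, V, Expr.val, h35, e19], by simp [Expr.val]⟩ _ _ ?_
    intro r M' ⟨hr, hr'⟩ a1
    have a : Agree [34, 43, 47] M M' :=
      (agree_put' (agree_put' (Agree.refl _ _) (by decide) _ _) (by decide) _ _).trans a1
    have e35 : M' 35 0 = i' := by rw [a 35 (by decide)]; exact h35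
    simp only [inc, asg, ex]
    have a2 := agree_put' (agree_put' (a.mono (W' := [21, 34, 35, 43, 47]) (by decide))
      (a := 21) (by decide) (ix.val M') (((Expr.get 21 ix).add (V 43)).val M')) (a := 35)
      (by decide)
    refine hφ _ _ ⟨hP.agree (a2 _ _) (by decide), ⟨fun e => ?_, fun e he => ?_⟩, ?_, rfl⟩ (a2 _ _)
    · by_cases he : e = cell hi
      · subst he
        have := hX (cell hi)
        rw [enc_cell] at this
        simp [ix, V, Expr.val, e35, enc_cell, hr, a 21 (by decide), this]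
      · have := mt (enc_eq_iff hi e).1 he
        simp [ix, V, Expr.val, e35, this, he, a 21 (by decide), hX e]
    · by_cases hc : e = cell hi
      · subst hc
        rw [Inst.sx, if_pos he] at hr'
        simp [hz _ he]; omega
      · simp [hz _ he, hc]
    · simp [V, Expr.val, e35]
  have h3 := Impl.loop (V 11) (m * n)
    (fun i (x : Tab m n × ℕ) M => Par D M ∧ (RT 21 x.1 M ∧ D.Z0 x.1) ∧ M 35 0 = i ∧ x.2 = i)
    (fun a M h => h.1.r11) h2
  intro X M ⟨hP, hX, hz⟩ φ ψ hφ
  simp only [lowP, ex, asg, Expr.val]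
  have a1 : Agree [35] M (M.put 35 0 0) := agree_put _ _ _ _
  have := h3 (X, 0) (M.put 35 0 0) ⟨hP.agree a1 (by decide), ⟨hX.agree a1 (by decide), hz⟩,
    by simp, rfl⟩ φ (fun x => ψ x.1) (fun b M' hb a2 => hφ b.1 M' hb.2.1 ((a1.mono (by decide)).trans a2))
  refine Eq.trans this ?_
  refine (lowOp_iter _ _ 0 X (by omega)).trans ?_
  simp [Inst.low]

theorem store_spec {X Z : Tab m n} {M : Mem} (hP : Par D M) (hX : RT 21 X M) (hZ : RT 6 Z M) :
    RT 6 (if D.DD X = 0 then D.cmp X else Z) (exec O store M) := by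
  obtain ⟨s1, s2⟩ := defic_spec O hP hX
  have a1 : Agree wDef M (exec O defic M) := (exec_agree _ _ _).mono (by decide)
  rw [store, exec_seq]
  set M1 := exec O defic M
  split_ifs with h
  · rw [exec_ite_zero _ _ _ (by simp [V, Expr.val, s1, h])]
    have := forN_inv O 11 (.set 6 ix (.get 25 ix)) (m * n)
      (fun i M' => M' 25 = M1 25 ∧ ∀ x < i, M' 6 x = M1 25 x) M1
      (by rw [a1 11 (by decide)]; exact hP.r11) (by decide) (by decide)
      (fun i M' x h => ⟨by rw [Mem.put_ne _ _ _ (by decide)]; exact h.1, by simpa using h.2⟩)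
      (by
        intro i _ M' h35 ⟨h1, h2⟩
        refine ⟨by rw [exec_frame _ _ _ 25 (by decide)]; exact h1, fun x hx => ?_⟩
        by_cases hc : x = i
        · simp [exec, ix, V, Expr.val, h35, hc, h1]
        · simp [exec, ix, V, Expr.val, h35, hc, h2 x (by omega)])
      ⟨rfl, by simp⟩
    intro e
    rw [this.2 _ (enc_lt e)]; exact s2 e
  · rw [exec_ite_ne _ _ _ (by simp [V, Expr.val, s1, h])]
    exact (hZ.agree a1 (by decide)).agree (exec_agree _ _ _) (by decide)

def wTrial : List ℕ := 6 :: wStep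

theorem trial_impl : Impl O wTrial trialP
    (fun Z M => Par D M ∧ Z ∈ tables D.r D.c ∧ RT 6 Z M)
    (fun Z M => Par D M ∧ Z ∈ tables D.r D.c ∧ RT 6 Z M) D.trial := by
  intro Z M ⟨hP, hZ, h6⟩ φ ψ hφ
  have hl := Impl.loop (V 32) (D.P ^ 140)
    (fun _ Y M => Par D M ∧ Y ∈ box D.R ∧ RT 21 (D.cor Y) M)
    (fun a M h => h.1.r32) (fun _ _ => step_impl O)
  simp only [trialP, ex]
  rw [ex_det _ (forN _ _) (by decide)]
  have a1 : Agree [21, 35] M (exec O (forN 11 (.set 21 (V 35) (.lit 0))) M) :=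
    (exec_agree _ _ _).mono (by decide)
  refine hl 0 _ ⟨hP.agree a1 (by decide), D.zero_mem, fun e => ?_⟩ _ _ ?_
  · rw [fill_spec O 11 21 M (by decide) (by decide) _ (by rw [hP.r11]; exact enc_lt e)]
    simp [Inst.cor]
  · intro Y M2 ⟨hP2, hY, hX2⟩ a2
    have a : Agree wStep M M2 := (a1.mono (by decide)).trans a2
    refine low_impl O _ M2 ⟨hP2, hX2, D.z0_cor hY⟩ _ _ ?_
    intro X M3 ⟨hX3, hz⟩ a3
    have a' : Agree wStep M M3 := a.trans (a3.mono (by decide))
    have a4 : Agree wTrial M3 (exec O store M3) := (exec_agree _ _ _).mono (by decide)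
    have hP3 : Par D M3 := hP.agree a' (by decide)
    rw [ex_det _ store (by decide), ← apply_ite ψ]
    refine hφ _ _ ⟨hP3.agree a4 (by decide), ?_, store_spec O hP3 hX3 (h6.agree a' (by decide))⟩
      ((a'.mono (by decide)).trans a4)
    split_ifs with h
    exacts [D.cmp_mem hz h, hZ]

theorem phase2_impl : Impl O wTrial phase2
    (fun Z M => Par D M ∧ Z ∈ tables D.r D.c ∧ RT 6 Z M)
    (fun Z M => Par D M ∧ Z ∈ tables D.r D.c ∧ RT 6 Z M) (fun ψ => D.trial^[D.P ^ 4] ψ) :=
  Impl.loop (V 29) (D.P ^ 4) (fun _ Z M => Par D M ∧ Z ∈ tables D.r D.c ∧ RT 6 Z M)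
    (fun _ _ h => h.1.r29) (fun _ _ => trial_impl O)

end Vale.Agent.P328
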