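import Vale.Agent.P328.RefB

/-! P328: specification of the deterministic setup. -/

namespace Vale.Agent.P328
open Finset Vale.Agent.P317

variable {m n k0 : ℕ} (O : Bool → Set (Fin k0) → Prop)

theorem argmax_spec (k a x N : ℕ) (hN : 0 < N) (M : Mem) (hk : M k 0 = N) (f : Fin N → ℕ)
    (hf : ∀ i : Fin N, M a i.val = f i) (h1 : k ≠ 35) (h2 : k ≠ x) (h3 : a ≠ x) (h4 : a ≠ 34)
    (h5 : a ≠ 35) (h6 : x ≠ 35) (h7 : x ≠ 34) :
    ∃ i0 : Fin N, exec O (argmax k a x) M x 0 = i0.val ∧ ∀ i, f i ≤ f i0 := by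
  have := forN_inv O k (.ite (ltE (.get a (V x)) (.get a ix)) (asg x ix) skip) N
    (fun i M' => M' a = M a ∧ M' x 0 < N ∧ ∀ j < i, M a j ≤ M a (M' x 0))
    (exec O (asg x (.lit 0)) M) (by simp [exec, asg, h2, hk]) h1
    (by simp [Prog.wr, asg, skip, h6.symm])
    (fun i M' y h => ⟨by rw [Mem.put_ne _ _ _ h5]; exact h.1, by simpa [h6] using h.2⟩)
    (by
      intro i hi M' h35 ⟨a1, a2, a3⟩
      by_cases hc : M a (M' x 0) < M a i
      · rw [exec_ite_ne _ _ _ (by simp only [ltE, ix, V, Expr.val, a1, h35]; omega)]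
        refine ⟨by rw [exec_frame _ _ _ a (by simp [asg, Prog.wr, h3])]; exact a1, ?_, ?_⟩
        · simp [exec, asg, ix, V, Expr.val, h35, hi]
        · intro j hj
          simp only [exec, asg, ix, V, Expr.val, h35, Mem.put_apply, and_self, if_true]
          rcases Nat.lt_succ_iff_lt_or_eq.1 hj with h | h
          · exact (a3 j h).trans hc.le
          · rw [h]
      · rw [exec_ite_zero _ _ _ (by simp only [ltE, ix, V, Expr.val, a1, h35]; omega)]
        rw [exec_frame _ _ _ a (by simp [skip, asg, Prog.wr, h4]),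
          exec_frame _ _ _ x (by simp [skip, asg, Prog.wr, h7])]
        refine ⟨a1, a2, fun j hj => ?_⟩
        rcases Nat.lt_succ_iff_lt_or_eq.1 hj with h | h
        · exact a3 j h
        · rw [h]; omega)
    ⟨by rw [exec_frame _ _ _ a (by simp [asg, Prog.wr, h3])], by simp [exec, asg, Expr.val, hN],
      by simp⟩
  refine ⟨⟨_, this.2.1⟩, rfl, fun i => ?_⟩
  rw [← hf, ← hf]
  exact this.2.2 i.val i.2

theorem indexP_spec (hn : 0 < n) (M : Mem) (h1 : M 1 0 = n) (h11 : M 11 0 = m * n)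
    (e : Fin m × Fin n) :
    exec O indexP M 15 (enc e) = e.1.val ∧ exec O indexP M 16 (enc e) = e.2.val := by
  have := forN_inv O 11 (.seq (.set 15 ix (V 37)) (.seq (.set 16 ix (V 38)) (.seq (inc 38)
      (.ite (neE (V 38) (V 1)) skip (.seq (asg 38 (.lit 0)) (inc 37)))))) (m * n)
    (fun i M' => M' 1 0 = n ∧ M' 37 0 * n + M' 38 0 = i ∧ M' 38 0 < n ∧
      ∀ x < i, M' 15 x = x / n ∧ M' 16 x = x % n)
    (exec O (asg 38 (.lit 0)) (exec O (asg 37 (.lit 0)) M)) (by simp [exec, asg, h11]) (by decide)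
    (by decide) (fun i M' y h => by simpa using h)
    (by
      intro i _ M' h35 ⟨a1, a2, a3, a4⟩
      have d1 : i / n = M' 37 0 := by
        rw [← a2, mul_comm, Nat.mul_add_div hn, Nat.div_eq_of_lt a3, add_zero]
      have d2 : i % n = M' 38 0 := by rw [← a2, mul_comm, Nat.mul_add_mod, Nat.mod_eq_of_lt a3]
      have key : ∀ M'' : Mem, M'' 15 = (M'.put 15 i (M' 37 0)) 15 →
          M'' 16 = (M'.put 16 i (M' 38 0)) 16 →
          ∀ x < i + 1, M'' 15 x = x / n ∧ M'' 16 x = x % n := by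
        intro M'' e1 e2 x hx
        rw [e1, e2]
        by_cases hc : x = i
        · simp [hc, d1, d2]
        · simpa [hc] using a4 x (by omega)
      simp only [exec_seq]
      by_cases hc : M' 38 0 + 1 = n
      · rw [exec_ite_zero _ _ _ (by simp [neE, exec, inc, asg, V, Expr.val, a1, hc])]
        refine ⟨by simp [exec, inc, asg, a1], ?_, by simp [exec, inc, asg, Expr.val, hn],
          key _ ?_ ?_⟩
        · simp [exec, inc, asg, V, Expr.val, add_mul]; omega
        · funext x; simp [exec, inc, asg, ix, V, Expr.val, h35]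
        · funext x; simp [exec, inc, asg, ix, V, Expr.val, h35]
      · rw [exec_ite_ne _ _ _ (by simp [neE, exec, inc, asg, V, Expr.val, a1]; omega)]
        refine ⟨by simp [exec, inc, skip, asg, a1], ?_, ?_, key _ ?_ ?_⟩
        · simp [exec, inc, skip, asg, V, Expr.val]; omega
        · simp [exec, inc, skip, asg, V, Expr.val]; omega
        · funext x; simp [exec, inc, skip, asg, ix, V, Expr.val, h35]
        · funext x; simp [exec, inc, skip, asg, ix, V, Expr.val, h35])
    ⟨by simp [exec, asg, h1], by simp [exec, asg, Expr.val], by simp [exec, asg, Expr.val, hn],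
      by simp⟩
  have h := this.2.2.2 _ (enc_lt e)
  rw [indexP, exec_seq, exec_seq, h.1, h.2, enc, mul_comm, Nat.mul_add_div hn,
    Nat.div_eq_of_lt e.2.2, Nat.mul_add_mod, Nat.mod_eq_of_lt e.2.2]
  exact ⟨rfl, rfl⟩

theorem grow_spec {M : Mem} {a d K : ℕ} (ha : 0 < a) (h37 : M 37 0 = a) (h38 : M 38 0 = d)
    (h39 : M 39 0 = 1) (h40 : M 40 0 = 0) (h10 : M 10 0 = K) (hK : d ≤ a * 2 ^ K) :
    exec O grow M 37 0 = a * 2 ^ lg a d ∧ exec O grow M 39 0 = 2 ^ lg a d ∧
      exec O grow M 40 0 = lg a d := by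
  obtain ⟨i, hi, M', hM', ⟨h1, h2, h3, h3', h4⟩, h5⟩ := loop_guard O (V 10) (ltE (V 37) (V 38))
    (.seq (asg 37 (dbE (V 37))) (.seq (asg 39 (dbE (V 39))) (inc 40)))
    (fun i M' => M' 38 0 = d ∧ M' 37 0 = a * 2 ^ i ∧ M' 39 0 = 2 ^ i ∧ M' 40 0 = i ∧ i ≤ lg a d)
    K M h10
    (by
      intro i _ M' ⟨a1, a2, a3, a3', a4⟩ hc
      simp only [ltE, V, Expr.val, a1, a2] at hc
      refine ⟨by simp [exec, inc, asg, a1], ?_, ?_, ?_, lt_lg_iff ha (by omega)⟩
      · simp [exec, inc, asg, dbE, V, Expr.val, a2]; ring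
      · simp [exec, inc, asg, dbE, V, Expr.val, a3]; ring
      · simp [exec, inc, asg, dbE, V, Expr.val, a3'])
    ⟨h38, by simp [h37], by simp [h39], h40, Nat.zero_le _⟩
  have e : i = lg a d := by
    refine le_antisymm h4 ?_
    rcases h5 with h5 | h5
    · rw [h5]; exact lg_le hK
    · simp only [ltE, V, Expr.val, h1, h2] at h5
      exact lg_le (by omega)
  rw [grow, hM', ← e]
  exact ⟨h2, h3, h3'⟩

theorem cellInit_spec (D : Inst m n) {M : Mem} (hP : Par0 D.r D.c D.L M) (h13 : M 13 0 = D.i0.val)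
    (h14 : M 14 0 = D.j0.val) (h29 : M 29 0 = D.P ^ 4) (h30 : M 30 0 = D.P ^ 9)
    (e : Fin m × Fin n) (h15 : M 15 (enc e) = e.1.val) (h16 : M 16 (enc e) = e.2.val)
    (h35 : M 35 0 = enc e) :
    exec O cellInit M 17 = (M.put 17 (enc e) (D.kap e + D.P ^ 4)) 17 ∧
    exec O cellInit M 18 = (M.put 18 (enc e) (D.S e)) 18 ∧
    exec O cellInit M 19 = (M.put 19 (enc e) (D.sx e)) 19 ∧
    exec O cellInit M 20 = (M.put 20 (enc e) (D.S e * D.R e)) 20 := by
  simp only [cellInit, exec_seq]
  set M1 := exec O (asg 38 (.lit 0)) (exec O (asg 37 (.lit 1))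
    (exec O (.set 17 ix (.add (V 46) (V 29))) (exec O (asg 46 (minE (.get 2 rI) (.get 3 cJ))) M)))
    with hM1
  have ek : D.r e.1 - (D.r e.1 - D.c e.2) = D.kap e := by unfold Inst.kap; omega
  have e1 : M1 = (((M.put 46 0 (D.kap e)).put 17 (enc e) (D.kap e + D.P ^ 4)).put 37 0 1).put
      38 0 0 := by
    simp [hM1, exec, asg, minE, rI, cJ, ix, V, Expr.val, h35, h15, h16, hP.r2, hP.r3, ek, h29]
  set M2 := exec O (.ite (neE rI (V 13)) (.ite (neE cJ (V 14))
    (.seq (asg 37 (V 30)) (asg 38 (.add (V 46) (.lit 1)))) skip) skip) M1 with hM2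
  have a2 : Agree [37, 38, 34] M1 M2 := (exec_agree _ _ _).mono (by decide)
  have e2 : M2 37 0 = D.R e ∧ lg (M2 37 0) (M2 38 0) = D.sx e ∧ M2 38 0 ≤ M2 37 0 * 2 ^ D.P := by
    have l0 : lg 1 0 = 0 := Nat.le_zero.1 (lg_le (Nat.zero_le _))
    by_cases h1 : e.1 = D.i0
    · rw [hM2, exec_ite_zero _ _ _ (by simp [e1, neE, rI, ix, V, Expr.val, h35, h15, h13, h1])]
      simp [e1, exec, skip, asg, Inst.R, Inst.sx, Inst.fr, h1, l0]
    · have : e.1.val ≠ D.i0.val := fun h => h1 (Fin.ext h)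
      rw [hM2, exec_ite_ne _ _ _ (by simp [e1, neE, rI, ix, V, Expr.val, h35, h15, h13]; omega)]
      by_cases h2 : e.2 = D.j0
      · rw [exec_ite_zero _ _ _ (by simp [e1, neE, cJ, ix, V, Expr.val, h35, h16, h14, h2])]
        simp [e1, exec, skip, asg, Inst.R, Inst.sx, Inst.fr, h2, l0]
      · have : e.2.val ≠ D.j0.val := fun h => h2 (Fin.ext h)
        rw [exec_ite_ne _ _ _ (by simp [e1, neE, cJ, ix, V, Expr.val, h35, h16, h14]; omega)]
        have b1 : D.kap e ≤ 2 ^ D.P :=
          (min_le_left _ _).trans ((single_le_sum (f := D.r) (fun _ _ => Nat.zero_le _)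
            (mem_univ _)).trans hP.hN)
        have b2 : 2 ≤ D.P ^ 9 :=
          le_trans (by have := D.P64; omega) (Nat.le_self_pow (by norm_num) _)
        have := Nat.mul_le_mul_right (2 ^ D.P) b2
        have : 0 < 2 ^ D.P := by positivity
        simp [e1, exec, asg, V, Expr.val, Inst.R, Inst.sx, Inst.fr, h1, h2, h30]
        omega
  set M3 := exec O (asg 40 (.lit 0)) (exec O (asg 39 (.lit 1)) M2) with hM3
  obtain ⟨g1, g2, g3⟩ := grow_spec O (M := M3) (a := M2 37 0) (d := M2 38 0) (K := D.P)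
    (by rw [e2.1]; exact D.Rpos e) (by simp [hM3, exec, asg]) (by simp [hM3, exec, asg])
    (by simp [hM3, exec, asg, Expr.val]) (by simp [hM3, exec, asg, Expr.val])
    (by simp [hM3, exec, asg, a2 10 (by decide), e1, hP.r10, Inst.P]) e2.2.2
  rw [e2.2.1] at g1 g2 g3
  rw [e2.1] at g1
  have a4 : Agree [37, 38, 34, 39, 40] M1 (exec O grow M3) :=
    agree_exec (agree_exec (agree_exec (a2.mono (by decide)) _ _ (by decide)) _ _ (by decide)) _ _
      (by decide)
  set M4 := exec O grow M3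
  have e35 : M4 35 0 = enc e := by rw [a4 35 (by decide)]; simp [e1, h35]
  refine ⟨?_, ?_, ?_, ?_⟩ <;> funext x
  · simp [exec, a4 17 (by decide), e1]
  · simp [exec, ix, V, Expr.val, e35, g2, a4 18 (by decide), e1, Inst.S]
  · simp [exec, ix, V, Expr.val, e35, g3, a4 19 (by decide), e1]
  · simp [exec, ix, V, Expr.val, e35, g1, a4 20 (by decide), e1, Inst.S, mul_comm]

theorem copy_spec (k a b : ℕ) (M : Mem) (hk : k ≠ 35) (ha : a ≠ 35) (hb : b ≠ 35) (hab : b ≠ a) :
    ∀ x < M k 0, exec O (forN k (.set a ix (.get b ix))) M a x = M b x := by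
  have := forN_inv O k (.set a ix (.get b ix)) (M k 0)
    (fun i M' => M' b = M b ∧ ∀ x < i, M' a x = M b x) M rfl hk (by simp [Prog.wr, ha.symm])
    (fun i M' x h => ⟨by rw [Mem.put_ne _ _ _ hb]; exact h.1, by simpa [ha] using h.2⟩)
    (by
      intro i _ M' h35 ⟨h1, h2⟩
      refine ⟨by rw [exec_frame _ _ _ b (by simp [Prog.wr, hab])]; exact h1, fun x hx => ?_⟩
      by_cases hc : x = i
      · simp [exec, ix, V, Expr.val, h35, hc, h1]
      · simp [exec, ix, V, Expr.val, h35, hc, h2 x (by omega)])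
    ⟨rfl, by simp⟩
  exact this.2

theorem psum_congr {f g : Fin m × Fin n → ℕ} {i : ℕ} (h : ∀ e, enc e < i → f e = g e) :
    psum f i = psum g i :=
  sum_congr rfl fun e _ => by split_ifs with he; exacts [h e he, rfl]

theorem greedy_spec {D : Inst m n} {M : Mem} (hP : Par D M) :
    ∃ Z ∈ tables D.r D.c, RT 6 Z (exec O greedy M) := by
  simp only [greedy, exec_seq]
  set M1 := exec O (forN 0 (.set 22 ix (.get 2 ix))) M with hM1
  set M2 := exec O (forN 1 (.set 23 ix (.get 3 ix))) M1 with hM2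
  have a1 : Agree [22, 35] M M1 := (exec_agree _ _ _).mono (by decide)
  have a2 : Agree [23, 35] M1 M2 := (exec_agree _ _ _).mono (by decide)
  have z1 := copy_spec O 0 22 2 M (by decide) (by decide) (by decide) (by decide)
  have z2 := copy_spec O 1 23 3 M1 (by decide) (by decide) (by decide) (by decide)
  rw [hP.r0, ← hM1] at z1
  rw [a1 1 (by decide), a1 3 (by decide), hP.r1, ← hM2] at z2
  have a3 : Agree [22, 23, 6, 46, 35] M M2 := (a1.mono (by decide)).trans (a2.mono (by decide))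
  have := forN_inv O 11 fillCell (m * n)
    (fun i M' => Agree [22, 23, 6, 46, 35] M M' ∧
      (∀ a : Fin m, M' 22 a.val + psum (fun e : Fin m × Fin n => if e.1 = a then M' 6 (enc e) else 0) i = D.r a) ∧
      (∀ b : Fin n, M' 23 b.val + psum (fun e : Fin m × Fin n => if e.2 = b then M' 6 (enc e) else 0) i = D.c b) ∧
      ∀ e : Fin m × Fin n, enc e < i → M' 22 e.1.val = 0 ∨ M' 23 e.2.val = 0)
    M2 (by rw [a3 11 (by decide)]; exact hP.r11) (by decide) (by decide)
    (fun i M' x h => ⟨agree_put' h.1 (by simp) _ _, by simpa using h.2⟩)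
    (by
      intro i hi M' h35 ⟨h1, h2, h3, h4⟩
      have e15 : M' 15 i = (cell hi).1.val := by rw [h1 15 (by decide), ← hP.r15, enc_cell]
      have e16 : M' 16 i = (cell hi).2.val := by rw [h1 16 (by decide), ← hP.r16, enc_cell]
      set x := M' 22 (cell hi).1.val - (M' 22 (cell hi).1.val - M' 23 (cell hi).2.val) with hx
      have e0 : exec O fillCell M' = (((M'.put 46 0 x).put 6 i x).put 22 (cell hi).1.val
          (M' 22 (cell hi).1.val - x)).put 23 (cell hi).2.val (M' 23 (cell hi).2.val - x) := by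
        simp [fillCell, exec, asg, minE, rI, cJ, ix, V, Expr.val, h35, e15, e16, hx]
      refine ⟨agree_exec h1 _ _ (by decide), fun a => ?_, fun b => ?_, fun e he => ?_⟩
      · rw [psum_succ _ hi, ← h2 a, psum_congr (g := fun e : Fin m × Fin n => if e.1 = a then M' 6 (enc e) else 0)
          (fun e he => by simp [e0, he.ne]), e0]
        by_cases ha : (cell hi).1 = a
        · subst ha; simp [enc_cell]; omega
        · have : a.val ≠ (cell hi).1.val := fun h => ha (Fin.ext h.symm)
          simp [ha, this]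
      · rw [psum_succ _ hi, ← h3 b, psum_congr (g := fun e : Fin m × Fin n => if e.2 = b then M' 6 (enc e) else 0)
          (fun e he => by simp [e0, he.ne]), e0]
        by_cases ha : (cell hi).2 = b
        · subst ha; simp [enc_cell]; omega
        · have : b.val ≠ (cell hi).2.val := fun h => ha (Fin.ext h.symm)
          simp [ha, this]
      · rw [e0]
        simp only [Mem.put_apply, true_and]
        norm_num
        rcases Nat.lt_succ_iff_lt_or_eq.1 he with h | h
        · have := h4 e h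
          split_ifs with c1 c2 c2
          · rw [c1, c2] at this; omega
          · rw [c1] at this; omega
          · rw [c2] at this; omega
          · exact this
        · rw [(enc_eq_iff hi e).1 h]
          simp only [if_true]; omega)
    ⟨a3, fun a => by rw [psum_zero, a2 22 (by decide), z1 _ a.2, hP.r2, add_zero],
      fun b => by rw [psum_zero, z2 _ b.2, hP.r3, add_zero], by simp⟩
  obtain ⟨-, h2, h3, h4⟩ := this
  set M3 := exec O (forN 11 fillCell) M2
  refine ⟨fun e => M3 6 (enc e), ?_, fun _ => rfl⟩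
  set Z : Tab m n := fun e => M3 6 (enc e) with hZ
  have g2 : ∀ a, M3 22 a.val + row Z a = D.r a := fun a => by
    rw [← h2 a, psum_all, Fintype.sum_prod_type_right]; simp [row, hZ]
  have g3 : ∀ a, M3 23 a.val + col Z a = D.c a := fun a => by
    rw [← h3 a, psum_all, Fintype.sum_prod_type]; simp [col, hZ]
  have s1 := sum_congr rfl fun a (_ : a ∈ univ) => g2 a
  have s2 := sum_congr rfl fun a (_ : a ∈ univ) => g3 a
  rw [sum_add_distrib, sum_row] at s1
  rw [sum_add_distrib, sum_col, ← D.hsum] at s2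
  replace s1 : ∑ a : Fin m, M3 22 a.val + tot Z = ∑ i, D.r i := s1
  replace s2 : ∑ a : Fin n, M3 23 a.val + tot Z = ∑ i, D.r i := s2
  have z3 : ∀ a : Fin m, M3 22 a.val = 0 := by
    intro a
    by_contra hc
    have : ∑ b : Fin n, M3 23 b.val = 0 :=
      sum_eq_zero fun b _ => (h4 (a, b) (enc_lt _)).resolve_left hc
    have h5 := single_le_sum (f := fun a : Fin m => M3 22 a.val) (fun _ _ => Nat.zero_le _)
      (mem_univ a)
    omega
  have z4 : ∀ b : Fin n, M3 23 b.val = 0 := by
    intro b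
    have h5 := single_le_sum (f := fun a : Fin n => M3 23 a.val) (fun _ _ => Nat.zero_le _)
      (mem_univ b)
    simp only [z3, sum_const_zero] at s1
    omega
  exact mem_tables.2 ⟨funext fun a => by have := g2 a; rw [z3] at this; omega,
    funext fun a => by have := g3 a; rw [z4] at this; omega⟩

theorem consts_spec {L : ℕ} {M : Mem} (h9 : M 9 0 = L) (h10 : M 10 0 = 2 ^ L) :
    Agree [29, 30, 31, 32, 36, 34] M (exec O consts M) ∧
      exec O consts M 29 0 = (2 ^ L) ^ 4 ∧ exec O consts M 30 0 = (2 ^ L) ^ 9 ∧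
      exec O consts M 31 0 = (2 ^ L) ^ 11 ∧ exec O consts M 32 0 = (2 ^ L) ^ 140 ∧
      exec O consts M 36 0 = 2 ^ 2 ^ L := by
  rw [consts, exec_seq, exec_seq, exec_seq, exec_seq, exec_seq]
  have b1 := pw_agree O 29 1 4 M
  have p1 := pw_spec O 29 1 4 (by decide) (by decide) M
  generalize exec O (pw 29 1 4) M = M1 at *
  have b2 := pw_agree O 30 1 9 M1
  have p2 := pw_spec O 30 1 9 (by decide) (by decide) M1
  generalize exec O (pw 30 1 9) M1 = M2 at *
  have b3 := pw_agree O 31 1 11 M2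
  have p3 := pw_spec O 31 1 11 (by decide) (by decide) M2
  generalize exec O (pw 31 1 11) M2 = M3 at *
  have b4 := pw_agree O 32 1 140 M3
  have p4 := pw_spec O 32 1 140 (by decide) (by decide) M3
  generalize exec O (pw 32 1 140) M3 = M4 at *
  have b5 : Agree [36] M4 (exec O (dbl 36 10) (exec O (asg 36 (.lit 1)) M4)) :=
    agree_exec (agree_exec (Agree.refl _ _) _ _ (by decide)) _ _ (by decide)
  rw [h9, one_mul] at p1
  rw [b1 9 (by decide), h9, one_mul] at p2
  rw [b2 9 (by decide), b1 9 (by decide), h9, one_mul] at p3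
  rw [b3 9 (by decide), b2 9 (by decide), b1 9 (by decide), h9, one_mul] at p4
  refine ⟨?_, ?_, ?_, ?_, ?_, ?_⟩
  · exact ((((b1.mono (by decide)).trans (b2.mono (by decide))).trans (b3.mono (by decide))).trans
      (b4.mono (by decide))).trans (b5.mono (by decide))
  · rw [b5 _ (by decide), b4 _ (by decide), b3 _ (by decide), b2 _ (by decide), p1]
  · rw [b5 _ (by decide), b4 _ (by decide), b3 _ (by decide), p2]
  · rw [b5 _ (by decide), b4 _ (by decide), p3]
  · rw [b5 _ (by decide), p4]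
  · rw [dbl_spec]
    simp [exec, asg, Expr.val, b4 10 (by decide), b3 10 (by decide), b2 10 (by decide),
      b1 10 (by decide), h10]

theorem phase1_spec (r : Fin m → ℕ) (c : Fin n → ℕ) (L : ℕ) (hm : 0 < m) (hn : 0 < n)
    (hsum : ∑ i, r i = ∑ j, c j) (hL : 2 * (m * n) + m + n + 64 ≤ 2 ^ L) {M : Mem}
    (hP : Par0 r c L M) : ∃ D : Inst m n, D.r = r ∧ D.c = c ∧ D.L = L ∧
      Par D (exec O phase1 M) ∧ ∃ Z ∈ tables r c, RT 6 Z (exec O phase1 M) := by
  rw [phase1, exec_seq, exec_seq, exec_seq, exec_seq, exec_seq, exec_seq]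
  obtain ⟨a1, c1⟩ := consts_spec O hP.r9 hP.r10
  generalize exec O consts M = M1 at *
  have hP1 : Par0 r c L M1 := hP.agree a1 (by decide)
  obtain ⟨i0, i1, i2⟩ := argmax_spec O 0 2 13 m hm M1 hP1.r0 r hP1.r2 (by decide) (by decide)
    (by decide) (by decide) (by decide) (by decide) (by decide)
  have a2 : Agree [13, 34, 35] M1 (exec O (argmax 0 2 13) M1) := (exec_agree _ _ _).mono (by decide)
  generalize exec O (argmax 0 2 13) M1 = M2 at *
  have hP2 : Par0 r c L M2 := hP1.agree a2 (by decide)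
  obtain ⟨j0, j1, j2⟩ := argmax_spec O 1 3 14 n hn M2 hP2.r1 c hP2.r3 (by decide) (by decide)
    (by decide) (by decide) (by decide) (by decide) (by decide)
  have a3 : Agree [14, 34, 35] M2 (exec O (argmax 1 3 14) M2) := (exec_agree _ _ _).mono (by decide)
  generalize exec O (argmax 1 3 14) M2 = M3 at *
  have hP3 : Par0 r c L M3 := hP2.agree a3 (by decide)
  have k1 := indexP_spec O hn M3 hP3.r1 hP3.r11
  have a4 : Agree [15, 16, 34, 35, 37, 38] M3 (exec O indexP M3) :=
    (exec_agree _ _ _).mono (by decide)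
  generalize exec O indexP M3 = M4 at *
  have hP4 : Par0 r c L M4 := hP3.agree a4 (by decide)
  obtain ⟨D, d1, d2, d3, d4, d5⟩ : ∃ D : Inst m n, D.r = r ∧ D.c = c ∧ D.L = L ∧ D.i0 = i0 ∧
      D.j0 = j0 := ⟨⟨r, c, i0, j0, L, hsum, i2, j2, hL⟩, rfl, rfl, rfl, rfl, rfl⟩
  subst d1 d2 d3 d4 d5
  have dP : 2 ^ D.L = D.P := rfl
  rw [dP] at c1
  have e13 : M4 13 0 = D.i0.val := by rw [a4 _ (by decide), a3 _ (by decide), i1]
  have e14 : M4 14 0 = D.j0.val := by rw [a4 _ (by decide), j1]
  have ag : ∀ a ∈ [29, 30, 31, 32, 36], M4 a = M1 a := fun a ha => by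
    rw [a4 a (by revert a; decide), a3 a (by revert a; decide), a2 a (by revert a; decide)]
  set M5 := exec O (asg 28 (.add (minE (.get 2 (V 13)) (.get 3 (V 14))) (V 29))) M4 with hM5
  have a5 : Agree [28] M4 M5 := (exec_agree _ _ _).mono (by decide)
  have e28 : M5 28 0 = D.Q := by
    simp [hM5, exec, asg, minE, V, Expr.val, e13, e14, hP4.r2, hP4.r3, ag 29 (by decide), c1.1,
      Inst.Q, Inst.kap]
    omega
  have hP5 : Par0 D.r D.c D.L M5 := hP4.agree a5 (by decide)
  have := forN_inv O 11 cellInit (m * n)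
    (fun i M' => Agree [17, 18, 19, 20, 34, 35, 37, 38, 39, 40, 46] M5 M' ∧
      ∀ e : Fin m × Fin n, enc e < i → M' 17 (enc e) = D.kap e + D.P ^ 4 ∧ M' 18 (enc e) = D.S e ∧
        M' 19 (enc e) = D.sx e ∧ M' 20 (enc e) = D.S e * D.R e)
    M5 hP5.r11 (by decide) (by decide)
    (fun i M' x h => ⟨agree_put' h.1 (by simp) _ _, by simpa using h.2⟩)
    (by
      intro i hi M' h35 ⟨h1, h2⟩
      refine ⟨agree_exec h1 _ _ (by decide), fun e he => ?_⟩
      obtain ⟨q1, q2, q3, q4⟩ := cellInit_spec O D (hP5.agree h1 (by decide))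
        (by rw [h1 _ (by decide), a5 _ (by decide), e13])
        (by rw [h1 _ (by decide), a5 _ (by decide), e14])
        (by rw [h1 _ (by decide), a5 _ (by decide), ag _ (by decide), c1.1])
        (by rw [h1 _ (by decide), a5 _ (by decide), ag _ (by decide), c1.2.1]) (cell hi)
        (by rw [h1 _ (by decide), a5 _ (by decide), (k1 _).1])
        (by rw [h1 _ (by decide), a5 _ (by decide), (k1 _).2]) (by rw [enc_cell]; exact h35)
      rw [q1, q2, q3, q4]
      by_cases hc : e = cell hi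
      · subst hc; simp
      · have := mt (enc_eq_iff hi e).1 hc
        simpa [enc_inj, hc] using h2 e (by omega))
    ⟨Agree.refl _ _, by simp⟩
  obtain ⟨a6, h6⟩ := this
  generalize exec O (forN 11 cellInit) M5 = M6 at *
  have hP6 : Par D M6 := by
    refine ⟨hP5.agree a6 (by decide), ?_, ?_, fun e => ?_, fun e => ?_,
      fun e => (h6 e (enc_lt e)).1, fun e => (h6 e (enc_lt e)).2.1,
      fun e => (h6 e (enc_lt e)).2.2.1, fun e => (h6 e (enc_lt e)).2.2.2, ?_, ?_, ?_, ?_, ?_⟩
    · rw [a6 _ (by decide), a5 _ (by decide), e13]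
    · rw [a6 _ (by decide), a5 _ (by decide), e14]
    · rw [a6 _ (by decide), a5 _ (by decide), (k1 _).1]
    · rw [a6 _ (by decide), a5 _ (by decide), (k1 _).2]
    · rw [a6 _ (by decide), e28]
    · rw [a6 _ (by decide), a5 _ (by decide), ag _ (by decide), c1.1]
    · rw [a6 _ (by decide), a5 _ (by decide), ag _ (by decide), c1.2.2.1]
    · rw [a6 _ (by decide), a5 _ (by decide), ag _ (by decide), c1.2.2.2.1]
    · rw [a6 _ (by decide), a5 _ (by decide), ag _ (by decide), c1.2.2.2.2]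
  exact ⟨D, rfl, rfl, rfl, hP6.agree (exec_agree _ _ _) (by decide), greedy_spec O hP6⟩

end Vale.Agent.P328
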