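import Vale.Agent.P317.BridgeB

/-! P328: program-building utilities (adapted from P317). -/

namespace Vale.Agent.P328
open Finset Vale.Agent.P317

variable {n : ℕ}

def V (a : ℕ) : Expr := .get a (.lit 0)
def asg (a : ℕ) (e : Expr) : Prog := .set a (.lit 0) e
def skip : Prog := asg 34 (.lit 0)
def inc (a : ℕ) : Prog := asg a (.add (V a) (.lit 1))
/-- Nonzero iff `a < b`. -/
def ltE (a b : Expr) : Expr := .sub b a
/-- Nonzero iff `a ≠ b`. -/
def neE (a b : Expr) : Expr := .add (.sub a b) (.sub b a)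
/-- For index (array 35) from 0 to (array k) - 1. -/
def forN (k : ℕ) (body : Prog) : Prog :=
  .seq (asg 35 (.lit 0)) (.loop (V k) (.lit 1) (.seq body (inc 35)))
/-- Uniform random number with (array k) bits. -/
def rnd (x k : ℕ) : Prog :=
  .seq (asg x (.lit 0))
    (.loop (V k) (.lit 1) (.seq (.coin 34 (.lit 0)) (asg x (.add (.add (V x) (V x)) (V 34)))))
/-- Multiply by two to the power (array k). -/
def dbl (x k : ℕ) : Prog := .loop (V k) (.lit 1) (asg x (.add (V x) (V x)))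
def rep (p : Prog) : ℕ → Prog
  | 0 => skip
  | j + 1 => .seq p (rep p j)
/-- Set `x` to `c * P ^ j`. -/
def pw (x c j : ℕ) : Prog := .seq (asg x (.lit c)) (rep (dbl x 9) j)
/-- Invariant rule for `forN`; the invariant must not depend on arrays 35 (stated as stability). -/
theorem forN_inv (O : Bool → Set (Fin n) → Prop) (k : ℕ) (body : Prog) (N : ℕ)
    (I : ℕ → Mem → Prop) (m : Mem) (hk : m k 0 = N) (hk35 : k ≠ 35) (h35 : 35 ∉ body.wr)
    (hst : ∀ i m x, I i m → I i (m.put 35 0 x))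
    (h : ∀ i < N, ∀ m, m 35 0 = i → I i m → I (i + 1) (exec O body m)) (h0 : I 0 m) :
    I N (exec O (forN k body) m) := by
  have := execLoop_inv (exec O (.seq body (inc 35))) (fun i m => m 35 0 = i ∧ I i m) N
    (by
      intro i hi m ⟨h1, h2⟩
      have h3 : exec O body m 35 0 = i := by rw [exec_frame O body m 35 h35]; exact h1
      refine ⟨?_, ?_⟩
      · simp [exec, inc, asg, V, Expr.val, h3]
      · simp only [exec, inc, asg]
        exact hst _ _ _ (h i hi m h1 h2))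
    (m.put 35 0 0) ⟨by simp, hst _ _ _ h0⟩
  simp only [forN, exec, asg, V, Expr.val]
  rw [Mem.put_apply, if_neg (by simp [hk35]), hk]
  exact this.2

theorem agree_put' {W : List ℕ} {m m' : Mem} (h : Agree W m m') {a : ℕ} (ha : a ∈ W) (i x : ℕ) :
    Agree W m (m'.put a i x) :=
  h.trans ((agree_put m' a i x).mono (by simpa using ha))

theorem agree_exec {W : List ℕ} {m m' : Mem} (h : Agree W m m') (O : Bool → Set (Fin n) → Prop)
    (p : Prog) (hp : ∀ a ∈ p.wr, a ∈ W) : Agree W m (exec O p m') :=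
  h.trans ((exec_agree O p m').mono hp)

theorem fill_spec (O : Bool → Set (Fin n) → Prop) (k a : ℕ) (m : Mem) (hk : k ≠ 35)
    (ha : a ≠ 35) : ∀ x < m k 0, exec O (forN k (.set a (V 35) (.lit 0))) m a x = 0 := by
  refine forN_inv O k _ (m k 0) (fun i m' => ∀ x < i, m' a x = 0) m rfl hk
    (by simp [Prog.wr, ha.symm]) ?_ ?_ (by simp)
  · intro i m' x h y hy
    simp [ha, h y hy]
  · intro i _ m' h35 h y hy
    simp only [exec, V, Expr.val, h35, Mem.put_apply, true_and]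
    split_ifs with h1
    · rfl
    · exact h y (by omega)

theorem dbl_spec (O : Bool → Set (Fin n) → Prop) (x k : ℕ) (m : Mem) :
    exec O (dbl x k) m x 0 = m x 0 * 2 ^ m k 0 := by
  have := execLoop_inv (exec O (asg x (.add (V x) (V x)))) (fun i m' => m' x 0 = m x 0 * 2 ^ i)
    (m k 0) (by
      intro i _ m' h
      simp only [exec, asg, V, Expr.val, Mem.put_apply, and_self, if_true, h]
      ring) m (by simp)
  exact this

theorem rep_wr (x k j : ℕ) : ∀ a ∈ (rep (dbl x k) j).wr, a = x ∨ a = 34 := by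
  induction j with
  | zero => simp [rep, skip, asg, Prog.wr]
  | succ j ih =>
    intro a ha
    simp only [rep, Prog.wr, List.mem_append, dbl, asg, List.mem_singleton] at ha
    rcases ha with ha | ha
    · exact Or.inl ha
    · exact ih a ha

theorem rep_spec (O : Bool → Set (Fin n) → Prop) (x k : ℕ) (hx : x ≠ 34) (hk : k ≠ x) (j : ℕ) :
    ∀ m : Mem, exec O (rep (dbl x k) j) m x 0 = m x 0 * (2 ^ m k 0) ^ j := by
  induction j with
  | zero => intro m; simp [rep, skip, asg, exec, hx]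
  | succ j ih =>
    intro m
    rw [rep, exec_seq, ih, dbl_spec, exec_frame O (dbl x k) m k (by simp [dbl, asg, Prog.wr, hk])]
    ring

theorem pw_spec (O : Bool → Set (Fin n) → Prop) (x c j : ℕ) (hx : x ≠ 34) (hk : 9 ≠ x) (m : Mem) :
    exec O (pw x c j) m x 0 = c * (2 ^ m 9 0) ^ j := by
  rw [pw, exec_seq, rep_spec O x 9 hx hk]
  simp [exec, asg, Expr.val, hk]

theorem pw_agree (O : Bool → Set (Fin n) → Prop) (x c j : ℕ) (m : Mem) :
    Agree [x, 34] m (exec O (pw x c j) m) := by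
  refine (exec_agree O _ m).mono fun a ha => ?_
  simp only [pw, Prog.wr, asg, List.mem_append, List.mem_singleton] at ha
  rcases ha with ha | ha
  · simp [ha]
  · simpa using rep_wr x 9 j a ha

theorem bit_iter (ψ : ℕ → ℝ) (j : ℕ) : ∀ r : ℕ,
    (fun (φ : ℕ → ℝ) (r : ℕ) => (φ (r + r) + φ (r + r + 1)) / 2)^[j] ψ r =
      (∑ s ∈ range (2 ^ j), ψ (2 ^ j * r + s)) / 2 ^ j := by
  induction j with
  | zero => intro r; simp
  | succ j ih =>
    intro r
    rw [Function.iterate_succ_apply']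
    simp only [ih]
    have e : 2 ^ (j + 1) = 2 ^ j + 2 ^ j := by ring
    rw [e, Finset.sum_range_add]
    have e1 : ∀ s, 2 ^ j * (r + r) + s = (2 ^ j + 2 ^ j) * r + s := by intro s; ring
    have e2 : ∀ s, 2 ^ j * (r + r + 1) + s = (2 ^ j + 2 ^ j) * r + (2 ^ j + s) := by intro s; ring
    simp only [e1, e2]
    rw [pow_succ]
    field_simp

theorem rnd_impl (O : Bool → Set (Fin n) → Prop) (x k c : ℕ) (hxk : k ≠ x) (hx : x ≠ 34)
    (hk : k ≠ 34) :
    Impl O [x, 34] (rnd x k) (fun (_ : Unit) m => m k 0 = c) (fun (r : ℕ) m => m x 0 = r)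
      (fun ψ _ => (∑ r ∈ range (2 ^ c), ψ r) / 2 ^ c) := by
  have h1 : Impl O [x, 34] (asg x (.lit 0)) (fun (_ : Unit) m => m k 0 = c)
      (fun (r : ℕ) m => m k 0 = c ∧ m x 0 = r) (fun ψ _ => ψ 0) :=
    Impl.det (fun _ => 0) rfl (by simp [asg, Prog.wr])
      (by intro a m h; simp [exec, asg, Expr.val, hxk, h])
  have h2 : Impl O [x, 34] (.seq (.coin 34 (.lit 0)) (asg x (.add (.add (V x) (V x)) (V 34))))
      (fun (r : ℕ) m => m k 0 = c ∧ m x 0 = r) (fun (r : ℕ) m => m k 0 = c ∧ m x 0 = r)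
      (fun (φ : ℕ → ℝ) (r : ℕ) => (φ (r + r) + φ (r + r + 1)) / 2) := by
    intro r m ⟨h, h'⟩ φ ψ hφ
    have ag : ∀ a b, Agree [x, 34] m ((m.put 34 0 a).put x 0 b) := fun a b =>
      ((agree_put m 34 0 a).mono (by simp)).trans ((agree_put _ x 0 b).mono (by simp))
    simp only [ex, asg, V, Expr.val]
    rw [hφ (r + r) _ (by simp [hxk, hx, hk, h, h']) (ag _ _),
      hφ (r + r + 1) _ (by simp [hxk, hx, hk, h, h']) (ag _ _)]
  have h3 := Impl.loop (V k) c (fun _ (r : ℕ) m => m k 0 = c ∧ m x 0 = r)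
    (by intro a m h; exact h.1) (fun _ _ => h2)
  intro u m hm φ ψ hφ
  have := (h1.seq h3) u m hm φ ψ (fun b m' hb => hφ b m' hb.2)
  rw [rnd, this]
  simp only [bit_iter]
  simp

theorem sum_range_dite {P : ℕ} (hP : n ≤ P) (F : Fin n → ℝ) :
    ∑ i ∈ range P, (if h : i < n then F ⟨i, h⟩ else 0) = ∑ i, F i := by
  rw [← Finset.sum_range_add_sum_Ico _ hP, Finset.sum_range,
    Finset.sum_eq_zero (s := Ico n P) (by
      intro i hi; rw [dif_neg]; simp only [mem_Ico] at hi; omega)]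
  simp

theorem TB_two (O : Bool → Set (Fin n) → Prop) (a b : ℕ) (e e' : Expr) (m : Mem) :
    TB O (.seq (asg a e) (asg b e')) m 2
      (fun m' => m' = (m.put a 0 (e.val m)).put b 0 (e'.val (m.put a 0 (e.val m)))) :=
  TB.seq (B := 1) (B' := 1) (TB.set O a (.lit 0) e m)
    (fun m' h => by subst h; exact TB.set O b (.lit 0) e' _)

/-- Doubling until a target is reached. -/
theorem dblLoop_tb (O : Bool → Set (Fin n) → Prop) (x c t : ℕ) (hxc : x ≠ c) (htx : t ≠ x)
    (htc : t ≠ c) (m : Mem) (a d N : ℕ) (ha : 0 < a) (hx : m x 0 = a) (hc : m c 0 = 0)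
    (ht : m t 0 = d) (hN : d ≤ a * 2 ^ N) :
    TB O (.loop (V t) (ltE (V x) (V t)) (.seq (asg x (.add (V x) (V x))) (inc c))) m
      (1 + (N + 1) * 3)
      (fun m' => Agree [x, c] m m' ∧ m' x 0 = a * 2 ^ m' c 0 ∧ d ≤ a * 2 ^ m' c 0 ∧
        (m' c 0 = 0 ∨ a * 2 ^ m' c 0 < 2 * d)) := by
  refine (TB.loop _ _ (fun i m' => Agree [x, c] m m' ∧ m' x 0 = a * 2 ^ i ∧ m' c 0 = i ∧
    (i = 0 ∨ a * 2 ^ i < 2 * d)) N 2 ?_ m ⟨Agree.refl _ _, by simp [hx], hc, Or.inl rfl⟩).mono
    le_rfl ?_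
  · intro i m' ⟨g1, g2, g3, g4⟩ hg
    have e2 : m' t 0 = d := by rw [g1 t (by simp [htx, htc])]; exact ht
    simp only [ltE, V, Expr.val, g2, e2] at hg
    have hi : i < N := by
      by_contra hcon
      have : 2 ^ N ≤ 2 ^ i := Nat.pow_le_pow_right (by norm_num) (by omega)
      have := Nat.mul_le_mul_left a this
      omega
    refine ⟨hi, (TB_two O _ _ _ _ m').mono le_rfl ?_⟩
    rintro _ rfl
    refine ⟨(g1.trans ((agree_put _ _ _ _).mono (by simp))).trans
      ((agree_put _ _ _ _).mono (by simp)), ?_, ?_, Or.inr ?_⟩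
    · simp [V, Expr.val, g2, hxc]; ring
    · simp [V, Expr.val, g3, hxc.symm]
    · rw [pow_succ, ← mul_assoc]; omega
  · rintro m' ⟨i, ⟨g1, g2, g3, g4⟩, g5⟩
    have e2 : m' t 0 = d := by rw [g1 t (by simp [htx, htc])]; exact ht
    rw [g3]
    refine ⟨g1, g2, ?_, g4⟩
    rcases g5 with g5 | g5
    · simp only [V, Expr.val, ht] at g5
      rw [g5]
      exact (Nat.lt_two_pow_self).le.trans (Nat.le_mul_of_pos_left _ ha)
    · simp only [ltE, V, Expr.val, g2, e2] at g5
      omega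

theorem rat_num_den (q : ℚ) (hq : 0 < q) :
    0 < q.num.toNat ∧ (q.num.toNat : ℚ) = q * q.den := by
  have h : 0 < q.num := Rat.num_pos.2 hq
  refine ⟨by omega, ?_⟩
  have : ((q.num.toNat : ℤ) : ℚ) = q.num := by rw [Int.toNat_of_nonneg h.le]
  rw [Rat.mul_den_eq_num, ← this, Int.cast_natCast]

theorem bit_num (u C c d n B : ℕ) (y x : ℝ) (hy : 1 ≤ y) (hyx : y ≤ x) (hB : (B : ℝ) ≤ x)
    (hn : (n : ℝ) ≤ x) (hu : (u : ℝ) ≤ C * y ^ d) :
    ((u * gB n c (B + c * u) : ℕ) : ℝ) ≤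
      ((C * (2 * (c + 1) * (c * C + c + 3)) : ℕ) : ℝ) * x ^ (2 * d + 1) := by
  have hx : 1 ≤ x := hy.trans hyx
  have h1 : (u : ℝ) ≤ C * x ^ d :=
    hu.trans (mul_le_mul_of_nonneg_left (pow_le_pow_left₀ (by linarith) hyx d) (by positivity))
  have h2 : x ^ d ≤ x ^ (d + 1) := pow_le_pow_right₀ hx (by omega)
  have h3 : x ≤ x ^ (d + 1) := by
    calc x = x ^ 1 := (pow_one x).symm
      _ ≤ x ^ (d + 1) := pow_le_pow_right₀ hx (by omega)
  have hc : (0 : ℝ) ≤ c := by positivity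
  have hC : (0 : ℝ) ≤ C := by positivity
  have h4 : (B : ℝ) + c * u + c + n + 1 ≤ (c * C + c + 3) * x ^ (d + 1) := by
    have k1 : (c : ℝ) * u ≤ c * (C * x ^ (d + 1)) :=
      mul_le_mul_of_nonneg_left (h1.trans (mul_le_mul_of_nonneg_left h2 hC)) hc
    have k2 : (c : ℝ) * 1 ≤ c * x ^ (d + 1) := mul_le_mul_of_nonneg_left (hx.trans h3) hc
    nlinarith
  have e : x ^ (2 * d + 1) = x ^ d * x ^ (d + 1) := by rw [← pow_add]; congr 1; ring
  unfold gB
  push_cast
  rw [e]
  calc (u : ℝ) * (2 * (c + 1) * (B + c * u + c + n + 1))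
      ≤ (C * x ^ d) * (2 * (c + 1) * ((c * C + c + 3) * x ^ (d + 1))) := by
        apply mul_le_mul h1 (mul_le_mul_of_nonneg_left h4 (by positivity)) (by positivity)
          (by positivity)
    _ = _ := by ring

/-- Guarded loop whose guard is nonzero for exactly `j` rounds. -/
theorem Impl.loopG {A : Type} {O : Bool → Set (Fin n) → Prop} {W : List ℕ} {p : Prog}
    (e c : Expr) (k j : ℕ) (hj : j ≤ k) (R : ℕ → A → Mem → Prop) {T : (A → ℝ) → A → ℝ}
    (he : ∀ a m, R 0 a m → e.val m = k) (h1 : ∀ i < j, ∀ a m, R i a m → c.val m ≠ 0)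
    (h2 : ∀ a m, R j a m → c.val m = 0)
    (hp : ∀ i < j, Impl O W p (R i) (R (i + 1)) T) :
    Impl O W (.loop e c p) (R 0) (R j) (fun ψ => T^[j] ψ) := by
  have key : ∀ l i f, i + l = j → l ≤ f → ∀ a m, R i a m → ∀ (φ : Mem → ℝ) (ψ : A → ℝ),
      (∀ b m', R j b m' → Agree W m m' → φ m' = ψ b) →
      exLoop c (ex O p) φ f m = T^[l] ψ a := by
    intro l
    induction l with
    | zero =>
      intro i f hi _ a m ha φ ψ hφ
      simp only [Nat.add_zero] at hi; subst hi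
      cases f with
      | zero => exact hφ a m ha (Agree.refl _ _)
      | succ f =>
        simp only [exLoop, h2 a m ha, if_true]
        exact hφ a m ha (Agree.refl _ _)
    | succ l ih =>
      intro i f hi hf a m ha φ ψ hφ
      obtain ⟨f, rfl⟩ : ∃ g, f = g + 1 := ⟨f - 1, by omega⟩
      simp only [exLoop, h1 i (by omega) a m ha, if_false]
      rw [Function.iterate_succ_apply']
      refine hp i (by omega) a m ha _ _ ?_
      intro b m' hb hm'
      exact ih (i + 1) f (by omega) (by omega) b m' hb φ ψ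
        (fun c m'' hc hm'' => hφ c m'' hc (hm'.trans hm''))
  intro a m ha φ ψ hφ
  simp only [ex]
  rw [he a m ha]
  exact key j 0 k (by omega) hj a m ha φ ψ hφ

end Vale.Agent.P328
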